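import Vale.Agent.P290G.Defs

/-! Bisection avoiding finitely many cuts. -/

open Set Filter Metric Polynomial
open scoped Manifold ContDiff Topology

noncomputable section

namespace Vale.Agent.P290

theorem bisect_av {κ : Type} [Fintype κ] [DecidableEq κ] (Q : (κ → ℝ) → (κ → ℝ) → Prop)
    (bad : κ → Set ℝ) (hbad : ∀ k, (bad k).Finite) {a b : κ → ℝ} (hab : a ≤ b)
    (loc : ∀ x ∈ Icc a b, ∃ δ > (0 : ℝ), ∀ a' b', a ≤ a' → a' ≤ b' → b' ≤ b →
      (∀ k, |a' k - x k| < δ ∧ |b' k - x k| < δ) → Q a' b')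
    (glue : ∀ a' b' k c, c ∉ bad k → a ≤ a' → a' ≤ b' → b' ≤ b → a' k ≤ c → c ≤ b' k →
      Q a' (Function.update b' k c) → Q (Function.update a' k c) b' → Q a' b') : Q a b := by
  choose! d hd hQ using loc
  obtain ⟨δ, hδ, hL⟩ := lebesgue_number_lemma_of_metric (isCompact_Icc (a := a) (b := b))
    (c := fun x : Icc a b => ball x.1 (d x)) (fun _ => isOpen_ball)
    (fun x hx => mem_iUnion.2 ⟨⟨x, hx⟩, mem_ball_self (hd x hx)⟩)
  have main : ∀ n : ℕ, ∀ a' b', a ≤ a' → a' ≤ b' → b' ≤ b →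
      ∑ k, ⌊(b' k - a' k) / δ⌋₊ = n → Q a' b' := fun n => by
    induction n using Nat.strong_induction_on with
    | _ n ih =>
      intro a' b' h1 h2 h3 hn
      by_cases h : ∀ k, b' k - a' k < δ
      · obtain ⟨⟨x, hx⟩, hb⟩ := hL a' ⟨h1, h2.trans h3⟩
        have k1 := (dist_pi_lt_iff (hd x hx)).1 (hb (mem_ball_self hδ))
        have k2 := (dist_pi_lt_iff (hd x hx)).1 (hb (show b' ∈ ball a' δ from
          (dist_pi_lt_iff hδ).2 fun k => by
            rw [Real.dist_eq, abs_of_nonneg (sub_nonneg.2 (h2 k))]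
            exact h k))
        exact hQ x hx a' b' h1 h2 h3 fun k => ⟨k1 k, k2 k⟩
      · obtain ⟨k, hk⟩ := not_forall.1 h
        rw [not_lt] at hk
        have m1 : (1 : ℝ) ≤ ⌊(b' k - a' k) / δ⌋₊ :=
          Nat.one_le_cast.2 (Nat.le_floor (by rwa [Nat.cast_one, one_le_div hδ]))
        have m2 := Nat.lt_floor_add_one ((b' k - a' k) / δ)
        have m4 : (⌊(b' k - a' k) / δ⌋₊ : ℝ) ≤ (b' k - a' k) / δ :=
          Nat.floor_le (div_nonneg (by linarith) hδ.le)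
        rw [div_lt_iff₀ hδ] at m2
        rw [le_div_iff₀ hδ] at m4
        have m5 : b' k - ⌊(b' k - a' k) / δ⌋₊ * δ < a' k + ⌊(b' k - a' k) / δ⌋₊ * δ := by
          nlinarith
        obtain ⟨c, ⟨hc1, hc2⟩, hc⟩ := (Ioo_infinite m5).exists_notMem_finite (hbad k)
        have m3 : ∀ y : ℝ, 0 ≤ y → y < ⌊(b' k - a' k) / δ⌋₊ * δ →
            ⌊y / δ⌋₊ < ⌊(b' k - a' k) / δ⌋₊ := by
          intro y h0 hy
          rwa [Nat.floor_lt (div_nonneg h0 hδ.le), div_lt_iff₀ hδ]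
        have c1 : a' k ≤ c := by linarith
        have c2 : c ≤ b' k := by linarith
        have u1 : Function.update b' k c ≤ b' := update_le_iff.2 ⟨c2, fun _ _ => le_rfl⟩
        have u2 : a' ≤ Function.update a' k c := le_update_iff.2 ⟨c1, fun _ _ => le_rfl⟩
        refine glue a' b' k _ hc h1 h2 h3 c1 c2
          (ih _ ?_ _ _ h1 (le_update_iff.2 ⟨c1, fun j _ => h2 j⟩) (u1.trans h3) rfl)
          (ih _ ?_ _ _ (h1.trans u2) (update_le_iff.2 ⟨c2, fun j _ => h2 j⟩) h3 rfl)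
        · rw [← hn]
          refine Finset.sum_lt_sum (fun j _ => Nat.floor_le_floor
            (div_le_div_of_nonneg_right (sub_le_sub_right (u1 j) _) hδ.le))
            ⟨k, Finset.mem_univ _, ?_⟩
          rw [Function.update_self]
          exact m3 _ (by linarith) (by linarith)
        · rw [← hn]
          refine Finset.sum_lt_sum (fun j _ => Nat.floor_le_floor
            (div_le_div_of_nonneg_right (sub_le_sub_left (u2 j) _) hδ.le))
            ⟨k, Finset.mem_univ _, ?_⟩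
          rw [Function.update_self]
          exact m3 _ (by linarith) (by linarith)
  exact main _ a b le_rfl hab le_rfl rfl

theorem BisAv.pre {E : Type} [NormedAddCommGroup E] [NormedSpace ℂ E] [FiniteDimensional ℂ E]
    {J : Type} [Fintype J] [DecidableEq J] {ι : E →L[ℂ] (J → ℂ)} (hι : Function.Injective ι)
    (Q : Set E → Prop) (bad : J × Bool → Set ℝ) (hbad : ∀ k, (bad k).Finite)
    (a b : J × Bool → ℝ) (h0 : Q ∅)
    (loc : ∀ z ∈ ι ⁻¹' Box a b, ∃ N ∈ 𝓝 z, ∀ S ⊆ N, Q S)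
    (glue : ∀ a' b' k c, c ∉ bad k → a ≤ a' → b' ≤ b → a' k ≤ c → c ≤ b' k →
      Q (ι ⁻¹' Box a' (Function.update b' k c)) → Q (ι ⁻¹' Box (Function.update a' k c) b') →
      Q (ι ⁻¹' Box a' b')) : Q (ι ⁻¹' Box a b) := by
  by_cases hab : a ≤ b
  · refine bisect_av (fun a' b' => Q (ι ⁻¹' Box a' b')) bad hbad hab (fun x hx => ?_)
      fun a' b' k c hc h1 _ h3 => glue a' b' k c hc h1 h3
    have hb : ∀ (δ : ℝ) (a' b' : J × Bool → ℝ), 0 < δ →
        (∀ k, |a' k - x k| < δ ∧ |b' k - x k| < δ) →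
        ∀ z ∈ ι ⁻¹' Box a' b', co (ι z) ∈ ball x δ := fun δ a' b' hδ h z hz =>
      (dist_pi_lt_iff hδ).2 fun k => by
        have k1 : a' k ≤ co (ι z) k := hz.1 k
        have k2 : co (ι z) k ≤ b' k := hz.2 k
        rw [Real.dist_eq, abs_lt]
        exact ⟨by linarith [(abs_lt.1 (h k).1).1], by linarith [(abs_lt.1 (h k).2).2]⟩
    by_cases hr : x ∈ range fun z => co (ι z)
    · obtain ⟨z, rfl⟩ := hr
      obtain ⟨N, hN, hQ⟩ := loc z hx
      rw [(Bis.emb hι).isInducing.nhds_eq_comap] at hN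
      obtain ⟨t, ht, hs⟩ := mem_comap.1 hN
      obtain ⟨δ, hδ, hd⟩ := Metric.mem_nhds_iff.1 ht
      exact ⟨δ, hδ, fun a' b' _ _ _ h => hQ _ fun w hw => hs (hd (hb δ a' b' hδ h w hw))⟩
    · obtain ⟨δ, hδ, hd⟩ := Metric.mem_nhds_iff.1
        ((Bis.emb hι).isClosed_range.isOpen_compl.mem_nhds hr)
      refine ⟨δ, hδ, fun a' b' _ _ _ h => ?_⟩
      rwa [eq_empty_of_forall_notMem fun w hw => hd (hb δ a' b' hδ h w hw) ⟨w, rfl⟩]
  · rwa [eq_empty_of_forall_notMem fun w (hw : w ∈ ι ⁻¹' Box a b) => hab (hw.1.trans hw.2)]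

/-- Patching over a disc with cuts which avoid a finite set. -/
theorem patch_av {D : Set ℂ} (hD : D.Finite) (M : ℝ) (Q : Set ℂ → Prop)
    (loc : ∀ z, ∃ N ∈ 𝓝 z, ∀ S ⊆ N, Q S)
    (glue : ∀ S₁ S₂, IsCompact S₁ → IsCompact S₂ → Convex ℝ S₁ → Convex ℝ S₂ →
      Disjoint (S₁ ∩ S₂) D → Split S₁ S₂ → Q S₁ → Q S₂ → Q (S₁ ∪ S₂)) :
    ∃ P, closedBall (0 : ℂ) M ⊆ P ∧ Q P := by
  obtain ⟨n, ι, a, b, hι, h1, -⟩ := sandwich (isCompact_closedBall (0 : ℂ) M)
    (convex_closedBall _ _) (U := univ) univ_mem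
  have h0 : Q ∅ := by
    obtain ⟨N, -, hN⟩ := loc 0
    exact hN _ (empty_subset _)
  refine ⟨_, h1, BisAv.pre hι Q (fun k => (fun z => co (ι z) k) '' D) (fun k => hD.image _) a b h0
    (fun z _ => loc z) fun a' b' k c hc ha hb hk1 hk2 q1 q2 => ?_⟩
  have e := box_union hk1 hk2
  have := glue _ _ (isCompact_pre hι _ _) (isCompact_pre hι _ _) (convex_pre ι _ _)
    (convex_pre ι _ _) ?_ ((ext_all hι).split hk1 hk2) q1 q2
  · rwa [← preimage_union, e] at this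
  · refine disjoint_left.2 fun z hz hzD => hc ⟨z, hzD, le_antisymm ?_ ?_⟩
    · simpa using hz.1.2 k
    · simpa using hz.2.1 k

end Vale.Agent.P290
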