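import Vale.Agent.P290.D44
import Vale.Agent.P290.Main

/-! Generic elliptic K3 surfaces: internal definitions. -/

open Set Filter Metric Polynomial
open scoped Manifold ContDiff Topology

noncomputable section

namespace Vale.Agent.P290

section Fam

/-- `ν` is locally analytic modulo the periods. -/
def ASec (Λ : ℂ → AddSubgroup ℂ) (ν : ℂ → ℂ) (K : Set ℂ) : Prop :=
  ∀ z ∈ K, ∃ c : ℂ → ℂ, AnalyticAt ℂ c z ∧ ∀ᶠ w in 𝓝 z, ν w - c w ∈ Λ w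

/-- An analytic basis of the periods near `K`. -/
def Bas (Λ : ℂ → AddSubgroup ℂ) (ω₁ ω₂ : ℂ → ℂ) (K : Set ℂ) : Prop :=
  ∀ z ∈ K, AnalyticAt ℂ ω₁ z ∧ AnalyticAt ℂ ω₂ z ∧ ∀ᶠ w in 𝓝 z,
    LinearIndependent ℝ ![ω₁ w, ω₂ w] ∧ ∀ t, t ∈ Λ w ↔ ∃ m n : ℤ, m * ω₁ w + n * ω₂ w = t

/-- Local bases exist. -/
def LocTriv (Λ : ℂ → AddSubgroup ℂ) (U : Set ℂ) : Prop := ∀ z ∈ U, ∃ ω₁ ω₂, Bas Λ ω₁ ω₂ {z}

/-- The class `(m, n)` on the circle is the boundary class of a section over the disc. -/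
def InI (Λ : ℂ → AddSubgroup ℂ) (ω₁ ω₂ : ℂ → ℂ) (r : ℝ) (m n : ℤ) : Prop :=
  ∃ ν τ : ℂ → ℂ, ASec Λ ν (closedBall 0 r) ∧ AnalyticOnNhd ℂ τ (sphere 0 r) ∧
    ∀ᶠ z in 𝓝ˢ (sphere (0 : ℂ) r), ν z - τ z -
      Complex.log z / (2 * Real.pi * Complex.I) * (m * ω₁ z + n * ω₂ z) ∈ Λ z

/-- A single valued torsion point of order `p` off the set `D`. -/
def Tors (Λ : ℂ → AddSubgroup ℂ) (D : Set ℂ) (p : ℕ) (P : ℂ → ℂ) : Prop :=
  ASec Λ P Dᶜ ∧ ∀ z ∉ D, (p : ℂ) * P z ∈ Λ z ∧ P z ∉ Λ z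

/-- The polynomial with given coefficients. -/
def pol {n : ℕ} (α : Fin n → ℂ) : ℂ[X] := ∑ i, C (α i) * X ^ (i : ℕ)

/-- The discriminant. -/
def disc (A B : ℂ[X]) : ℂ[X] := A ^ 3 - 27 * B ^ 2

/-- The Weierstrass surface has no singular point. -/
def WSm (A B : ℂ[X]) : Prop :=
  ∀ z x : ℂ, 4 * x ^ 3 - A.eval z * x - B.eval z = 0 → 12 * x ^ 2 = A.eval z →
    A.derivative.eval z * x + B.derivative.eval z ≠ 0

/-- The lattices have invariants `A`, `B`. -/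
def Inv (Λ : ℂ → AddSubgroup ℂ) (A B : ℂ[X]) : Prop :=
  ∀ z, (disc A B).eval z ≠ 0 → ∃ L : PeriodPair, L.g₂ = A.eval z ∧ L.g₃ = B.eval z ∧
    (Λ z : Set ℂ) = L.lattice

/-- A binary quartic. -/
def qf (a : Fin 5 → ℂ) (p : ℂ × ℂ) : ℂ := ∑ i, a i * (p.1 ^ (i : ℕ) * p.2 ^ (4 - (i : ℕ)))

/-- The coefficients of a form of bidegree `(4, 4)`. -/
def cof (c : Fin 5 → Fin 5 → ℂ) (q : ℂ × ℂ) : Fin 5 → ℂ := fun i => qf (c i) q

/-- The invariant of degree two. -/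
def inv2 (a : Fin 5 → ℂ) : ℂ := a 0 * a 4 - a 1 * a 3 / 4 + a 2 ^ 2 / 12

/-- The invariant of degree three. -/
def inv3 (a : Fin 5 → ℂ) : ℂ :=
  a 0 * a 2 * a 4 / 6 + a 1 * a 2 * a 3 / 48 - a 2 ^ 3 / 216 - a 0 * a 3 ^ 2 / 16 -
    a 1 ^ 2 * a 4 / 16

/-- The properties of a form of bidegree `(4, 4)` with smooth Jacobian surface. -/
structure Quart (c : Fin 5 → Fin 5 → ℂ) : Prop where
  smooth : ∀ w : Fin 5 → ℂ, (w 0, w 1) ≠ 0 → (w 2, w 3) ≠ 0 → bi c w = 0 → fderiv ℂ (bi c) w ≠ 0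
  fin : ∃ T : Set ((ℂ × ℂ) × ℂ), T.Finite ∧ ∀ p q : ℂ × ℂ, p ≠ 0 → q ≠ 0 →
    fderiv ℂ (qf (cof c q)) p = 0 → ∃ v ∈ T, ∃ s t : ℂ, p = s • v.1 ∧ q = t • (1, v.2)
  simple : ∀ q : ℂ × ℂ, q ≠ 0 → ∃ r : ℂ × ℂ, qf (cof c q) r = 0 ∧ fderiv ℂ (qf (cof c q)) r ≠ 0

end Fam

section Ell

variable {X : Type} [TopologicalSpace X] [ChartedSpace C2 X]

/-- The map is submersive at `x`. -/
def Reg (π : X → P1) (x : X) : Prop := ∃ p v, LiftAt π p x ∧ Moves p x v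

/-- The periods of the flow on a fibre. -/
def Per {σ : Form2 X} {π : X → P1} {S : X × (ℂ × ℂ) × ℂ → X} (hS : Spray σ π S) (p : ℂ × ℂ) :
    AddSubgroup ℂ where
  carrier := {t | ∀ x, Rep p (π x) → Reg π x → S (x, p, t) = x}
  zero_mem' := fun x hx _ => hS.zero x p hx
  add_mem' := fun {a b} ha hb x hx hr => by rw [← hS.add x p a b hx, ha x hx hr, hb x hx hr]
  neg_mem' := fun {a} ha x hx hr => by
    have h := hS.add x p a (-a) hx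
    rw [ha x hx hr, add_neg_cancel, hS.zero x p hx] at h
    exact h

/-- An elliptic fibration with irreducible fibres. -/
structure Ell (σ : Form2 X) (π : X → P1) (S : X × (ℂ × ℂ) × ℂ → X) : Prop where
  sym : IsSympl σ
  hol : HolP π
  spr : Spray σ π S
  fin : {x | ¬ Reg π x}.Finite
  ex : ∀ a, ∃ x, π x = a ∧ Reg π x
  trans : ∀ x y p, Rep p (π x) → Rep p (π y) → Reg π x → Reg π y → ∃ t, S (x, p, t) = y

/-- One of the two affine coordinates. -/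
def Coord (p : ℂ → ℂ × ℂ) : Prop := (p = fun z => (1, z)) ∨ p = fun z => (z, 1)

/-- A holomorphic section near `K` in the coordinate `p`. -/
def SecOn (π : X → P1) (p : ℂ → ℂ × ℂ) (s : ℂ → X) (K : Set ℂ) : Prop :=
  ∀ z ∈ K, Hol s z ∧ ∀ᶠ w in 𝓝 z, Rep (p w) (π (s w))

/-- A Weierstrass function on the fibre over `q` with pole at `x₀`. -/
structure WFun (π : X → P1) (S : X × (ℂ × ℂ) × ℂ → X) (q : ℂ × ℂ) (g₂ g₃ : ℂ) (x₀ : X)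
    (Y : X → ℂ) : Prop where
  rep : Rep q (π x₀)
  reg : Reg π x₀
  hol : ∀ x, Rep q (π x) → x ≠ x₀ → HolF Y x
  pole : Tendsto (fun x => ‖Y x‖) (𝓝[{x | Rep q (π x) ∧ x ≠ x₀}] x₀) atTop
  ode : ∀ x, Rep q (π x) → Reg π x → x ≠ x₀ →
    dfn Y x (tv S x q) ^ 2 = 4 * Y x ^ 3 - g₂ * Y x - g₃
  fin : ∀ y, {x | Rep q (π x) ∧ x ≠ x₀ ∧ Y x = y}.Finite

end Ell

end Vale.Agent.P290
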