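import Vale.Agent.P290G.Defs

/-! Invariants of binary quartics. -/

open Set Filter Metric Polynomial
open scoped Manifold ContDiff Topology

noncomputable section

namespace Vale.Agent.P290

namespace QInv

theorem qf_eq (a : Fin 5 → ℂ) : qf a = fun p => a 0 * p.2 ^ 4 + a 1 * (p.1 * p.2 ^ 3) +
    a 2 * (p.1 ^ 2 * p.2 ^ 2) + a 3 * (p.1 ^ 3 * p.2) + a 4 * p.1 ^ 4 := by
  funext p
  simp [qf, Fin.sum_univ_five]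

/-- The coefficients in a new frame. -/
def M (r v : ℂ × ℂ) : (Fin 5 → ℂ) →ₗ[ℂ] (Fin 5 → ℂ) where
  toFun a := ![a 0 * v.2 ^ 4 + a 1 * v.1 * v.2 ^ 3 + a 2 * v.1 ^ 2 * v.2 ^ 2 +
      a 3 * v.1 ^ 3 * v.2 + a 4 * v.1 ^ 4,
    a 0 * (4 * r.2 * v.2 ^ 3) + a 1 * (r.1 * v.2 ^ 3 + 3 * r.2 * v.1 * v.2 ^ 2) +
      a 2 * (2 * r.1 * v.1 * v.2 ^ 2 + 2 * r.2 * v.1 ^ 2 * v.2) +
      a 3 * (3 * r.1 * v.1 ^ 2 * v.2 + r.2 * v.1 ^ 3) + a 4 * (4 * r.1 * v.1 ^ 3),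
    a 0 * (6 * r.2 ^ 2 * v.2 ^ 2) + a 1 * (3 * r.1 * r.2 * v.2 ^ 2 + 3 * r.2 ^ 2 * v.1 * v.2) +
      a 2 * (r.1 ^ 2 * v.2 ^ 2 + 4 * r.1 * r.2 * v.1 * v.2 + r.2 ^ 2 * v.1 ^ 2) +
      a 3 * (3 * r.1 ^ 2 * v.1 * v.2 + 3 * r.1 * r.2 * v.1 ^ 2) + a 4 * (6 * r.1 ^ 2 * v.1 ^ 2),
    a 0 * (4 * r.2 ^ 3 * v.2) + a 1 * (r.2 ^ 3 * v.1 + 3 * r.1 * r.2 ^ 2 * v.2) +
      a 2 * (2 * r.1 * r.2 ^ 2 * v.1 + 2 * r.1 ^ 2 * r.2 * v.2) +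
      a 3 * (3 * r.1 ^ 2 * r.2 * v.1 + r.1 ^ 3 * v.2) + a 4 * (4 * r.1 ^ 3 * v.1),
    a 0 * r.2 ^ 4 + a 1 * r.1 * r.2 ^ 3 + a 2 * r.1 ^ 2 * r.2 ^ 2 +
      a 3 * r.1 ^ 3 * r.2 + a 4 * r.1 ^ 4]
  map_add' a b := by
    funext i
    fin_cases i <;> simp <;> ring
  map_smul' t a := by
    funext i
    fin_cases i <;> simp <;> ring

theorem M_inv2 (r v : ℂ × ℂ) (a : Fin 5 → ℂ) :
    inv2 (M r v a) = (r.1 * v.2 - r.2 * v.1) ^ 4 * inv2 a := by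
  simp only [inv2, M, LinearMap.coe_mk, AddHom.coe_mk, Matrix.cons_val]
  ring

theorem M_inv3 (r v : ℂ × ℂ) (a : Fin 5 → ℂ) :
    inv3 (M r v a) = (r.1 * v.2 - r.2 * v.1) ^ 6 * inv3 a := by
  simp only [inv3, M, LinearMap.coe_mk, AddHom.coe_mk, Matrix.cons_val]
  ring

end QInv

theorem bi_eq (c : Fin 5 → Fin 5 → ℂ) (w : Fin 5 → ℂ) :
    bi c w = qf (cof c (w 2, w 3)) (w 0, w 1) := by
  simp only [bi, qf, cof, Finset.sum_mul]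
  exact Finset.sum_congr rfl fun i _ => Finset.sum_congr rfl fun j _ => by ring

theorem qf_analytic (a : Fin 5 → ℂ) (r : ℂ × ℂ) : AnalyticAt ℂ (qf a) r := by
  have h1 : AnalyticAt ℂ (fun p : ℂ × ℂ => p.1) r := analyticAt_fst
  have h2 : AnalyticAt ℂ (fun p : ℂ × ℂ => p.2) r := analyticAt_snd
  rw [QInv.qf_eq]
  fun_prop

theorem qf_smul (a : Fin 5 → ℂ) (t : ℂ) (r : ℂ × ℂ) : qf a (t • r) = t ^ 4 * qf a r := by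
  simp only [QInv.qf_eq, Prod.smul_fst, Prod.smul_snd, smul_eq_mul]
  ring

theorem qf_fderiv (a : Fin 5 → ℂ) (r v : ℂ × ℂ) : fderiv ℂ (qf a) r v =
    (a 1 * r.2 ^ 3 + 2 * a 2 * r.1 * r.2 ^ 2 + 3 * a 3 * r.1 ^ 2 * r.2 + 4 * a 4 * r.1 ^ 3) * v.1 +
    (4 * a 0 * r.2 ^ 3 + 3 * a 1 * r.1 * r.2 ^ 2 + 2 * a 2 * r.1 ^ 2 * r.2 + a 3 * r.1 ^ 3) * v.2 := by
  have h1 := hasFDerivAt_fst (𝕜 := ℂ) (p := r)
  have h2 := hasFDerivAt_snd (𝕜 := ℂ) (p := r)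
  have h := (((((h2.pow 4).const_mul (a 0)).fun_add
    ((h1.fun_mul (h2.pow 3)).const_mul (a 1))).fun_add
    (((h1.pow 2).fun_mul (h2.pow 2)).const_mul (a 2))).fun_add
    (((h1.pow 3).fun_mul h2).const_mul (a 3))).fun_add ((h1.pow 4).const_mul (a 4))
  rw [QInv.qf_eq, h.fderiv]
  simp
  ring

theorem qf_euler (a : Fin 5 → ℂ) (r : ℂ × ℂ) : fderiv ℂ (qf a) r r = 4 * qf a r := by
  rw [qf_fderiv, QInv.qf_eq]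
  ring

theorem bi_fderiv (c : Fin 5 → Fin 5 → ℂ) (w ξ : Fin 5 → ℂ) : fderiv ℂ (bi c) w ξ =
    fderiv ℂ (qf (cof c (w 2, w 3))) (w 0, w 1) (ξ 0, ξ 1) +
      qf (fun i => fderiv ℂ (qf (c i)) (w 2, w 3) (ξ 2, ξ 3)) (w 0, w 1) := by
  let P : Fin 5 → Fin 5 → (Fin 5 → ℂ) →L[ℂ] ℂ × ℂ := fun i j =>
    (ContinuousLinearMap.proj i).prod (ContinuousLinearMap.proj j)
  let m : Fin 5 → ℂ × ℂ → ℂ := fun i p => p.1 ^ (i : ℕ) * p.2 ^ (4 - (i : ℕ))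
  have hm : ∀ i p, HasFDerivAt (m i) (fderiv ℂ (m i) p) p := fun i p =>
    DifferentiableAt.hasFDerivAt (by fun_prop)
  have h1 := HasFDerivAt.fun_sum (u := Finset.univ) fun i _ =>
    (hm i (w 0, w 1)).const_mul (cof c (w 2, w 3) i)
  have h2 := HasFDerivAt.fun_sum (u := Finset.univ) fun i _ =>
    ((qf_analytic (c i) (P 2 3 w)).differentiableAt.hasFDerivAt.comp w
      (P 2 3).hasFDerivAt).fun_mul ((hm i (P 0 1 w)).comp w (P 0 1).hasFDerivAt)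
  have h3 : HasFDerivAt (qf (cof c (w 2, w 3))) _ _ := h1
  have h4 : HasFDerivAt (bi c) _ w := h2.congr_of_eventuallyEq (Eventually.of_forall (bi_eq c))
  rw [h3.fderiv, h4.fderiv, sum_apply, sum_apply, qf, ← Finset.sum_add_distrib]
  exact Finset.sum_congr rfl fun i _ => congrArg₂ (· + ·) rfl (mul_comm (m i (w 0, w 1)) _)

theorem exists_frame {r : ℂ × ℂ} (hr : r ≠ 0) : ∃ v : ℂ × ℂ, r.1 * v.2 - r.2 * v.1 = 1 := by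
  by_cases h : r.1 = 0
  · have h2 : r.2 ≠ 0 := fun e => hr (Prod.ext h e)
    exact ⟨(-r.2⁻¹, 0), by simp [h2]⟩
  · exact ⟨(0, r.1⁻¹), by simp [h]⟩

/-- Change of frame. -/
theorem qf_frame {r v : ℂ × ℂ} (h : r.1 * v.2 - r.2 * v.1 = 1) :
    ∃ M : (Fin 5 → ℂ) →ₗ[ℂ] (Fin 5 → ℂ), ∀ a, (∀ α β : ℂ, qf a (α • r + β • v) = qf (M a) (α, β)) ∧
      inv2 (M a) = inv2 a ∧ inv3 (M a) = inv3 a ∧ M a 4 = qf a r ∧
      M a 3 = fderiv ℂ (qf a) r v := by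
  refine ⟨QInv.M r v, fun a => ⟨fun α β => ?_, ?_, ?_, ?_, ?_⟩⟩
  · simp [QInv.qf_eq, QInv.M]
    ring
  · rw [QInv.M_inv2, h, one_pow, one_mul]
  · rw [QInv.M_inv3, h, one_pow, one_mul]
  · simp [QInv.qf_eq, QInv.M]
    ring
  · simp [qf_fderiv, QInv.M]
    ring

theorem mult_disc {a : Fin 5 → ℂ} {r : ℂ × ℂ} (hr : r ≠ 0) (h : fderiv ℂ (qf a) r = 0) :
    inv2 a ^ 3 - 27 * inv3 a ^ 2 = 0 := by
  obtain ⟨v, hv⟩ := exists_frame hr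
  obtain ⟨M, hM⟩ := qf_frame hv
  obtain ⟨-, h2, h3, h4, h5⟩ := hM a
  have h6 := qf_euler a r
  rw [h] at h5 h6
  have h7 : qf a r = 0 := by simpa using h6
  rw [← h2, ← h3, inv2, inv3, h4, h5, h7, zero_apply]
  ring

end Vale.Agent.P290
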