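import Vale.Agent.P290G.GenS
import Vale.Agent.P290G.QInv

/-! General invariants are attained. -/

open Set Filter Metric Polynomial
open scoped Manifold ContDiff Topology

noncomputable section

namespace Vale.Agent.P290

namespace Dom

/-- Polynomial in `z` of degree at most `n` with polynomial coefficients. -/
def G (n : ℕ) (f : (Fin 5 × Fin 5 → ℂ) → ℂ → ℂ) : Prop :=
  ∃ A : (MvPolynomial (Fin 5 × Fin 5) ℂ)[X], A.natDegree ≤ n ∧
    ∀ x z, A.eval₂ (MvPolynomial.eval x) z = f x z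

variable {n m : ℕ} {f g : (Fin 5 × Fin 5 → ℂ) → ℂ → ℂ}

theorem G.mul (h : G n f) (h' : G m g) : G (n + m) fun x z => f x z * g x z := by
  obtain ⟨A, h1, h2⟩ := h
  obtain ⟨B, h3, h4⟩ := h'
  exact ⟨A * B, natDegree_mul_le.trans (add_le_add h1 h3), fun x z => by rw [eval₂_mul, h2, h4]⟩

theorem G.add (h : G n f) (h' : G n g) : G n fun x z => f x z + g x z := by
  obtain ⟨A, h1, h2⟩ := h
  obtain ⟨B, h3, h4⟩ := h'
  exact ⟨A + B, natDegree_add_le_of_degree_le h1 h3, fun x z => by rw [eval₂_add, h2, h4]⟩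

theorem G.cmul (h : G n f) (c : ℂ) : G n fun x z => c * f x z := by
  obtain ⟨A, h1, h2⟩ := h
  exact ⟨C (MvPolynomial.C c) * A, (natDegree_C_mul_le _ _).trans h1, fun x z => by
    rw [eval₂_mul, h2, eval₂_C, MvPolynomial.eval_C]⟩

theorem G.cof (i : Fin 5) : G 4 fun x z => cof (fun i j => x (i, j)) (1, z) i := by
  refine ⟨∑ j : Fin 5, C (MvPolynomial.X (i, j)) * X ^ (4 - (j : ℕ)),
    natDegree_sum_le_of_forall_le _ _ fun j _ =>
      (natDegree_C_mul_X_pow_le _ _).trans (Nat.sub_le _ _), fun x z => ?_⟩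
  simp only [eval₂_finsetSum, eval₂_mul, eval₂_C, eval₂_X_pow, MvPolynomial.eval_X, P290.cof, qf,
    one_pow, one_mul]

theorem G.ex (h : G n f) (hg : ∀ x z, f x z = g x z) :
    ∃ φ : Fin (n + 1) → MvPolynomial (Fin 5 × Fin 5) ℂ,
      ∀ x z, ∑ k, MvPolynomial.eval x (φ k) * z ^ (k : ℕ) = g x z := by
  obtain ⟨A, h1, h2⟩ := h
  refine ⟨fun k => A.coeff k, fun x z => ?_⟩
  rw [← hg, ← h2, eval₂_eq_sum_range' _ (Nat.lt_succ_of_le h1), Finset.sum_range]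

theorem pol_eval (α : Fin n → ℂ) (z : ℂ) : (pol α).eval z = ∑ k, α k * z ^ (k : ℕ) := by
  simp only [pol, eval_finsetSum, eval_mul, eval_C, eval_pow, eval_X]

theorem inj {α β : Fin n → ℂ} (h : ∀ z : ℂ, ∑ k, α k * z ^ (k : ℕ) = ∑ k, β k * z ^ (k : ℕ)) :
    α = β := by
  have h1 : pol α = pol β := Polynomial.funext fun z => by rw [pol_eval, pol_eval, h]
  funext k
  have h2 := congrArg (fun p => p.coeff k) h1
  simpa [pol, coeff_X_pow, Fin.val_inj] using h2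

theorem deriv_sum {κ : Type} [Fintype κ] (φ : κ → MvPolynomial (Fin 5 × Fin 5) ℂ) (e : Fin n → κ)
    (x v : Fin 5 × Fin 5 → ℂ) (z : ℂ) :
    HasDerivAt (fun t : ℂ => ∑ k, MvPolynomial.eval (x + t • v) (φ (e k)) * z ^ (k : ℕ))
      (∑ k, fderiv ℂ (fun (x : Fin 5 × Fin 5 → ℂ) j => MvPolynomial.eval x (φ j)) x v (e k) *
        z ^ (k : ℕ)) 0 := by
  have h1 : AnalyticAt ℂ (fun (x : Fin 5 × Fin 5 → ℂ) j => MvPolynomial.eval x (φ j)) x :=
    analyticAt_pi_iff.2 fun j => AnalyticOnNhd.eval_mvPolynomial (φ j) x (mem_univ _)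
  have h2 : HasDerivAt (fun t : ℂ => x + t • v) v 0 := by
    simpa using ((hasDerivAt_id (0 : ℂ)).smul_const v).const_add x
  have h3 := h1.differentiableAt.hasFDerivAt.comp_hasDerivAt_of_eq 0 h2 (by simp)
  exact HasDerivAt.fun_sum fun k _ => (hasDerivAt_pi.1 h3 (e k)).mul_const _

theorem deriv_cof (x v : Fin 5 × Fin 5 → ℂ) (z : ℂ) (i : Fin 5) :
    HasDerivAt (fun t : ℂ => cof (fun i j => (x + t • v) (i, j)) (1, z) i)
      (cof (fun i j => v (i, j)) (1, z) i) 0 := by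
  simp only [cof, qf]
  refine HasDerivAt.fun_sum fun j _ => HasDerivAt.mul_const ?_ _
  simpa using ((hasDerivAt_id (0 : ℂ)).mul_const (v (i, j))).const_add (x (i, j))

end Dom

open Dom in
theorem dominance : ∃ P : MvPolynomial (Fin 9 ⊕ Fin 13) ℂ, P ≠ 0 ∧
    ∀ (α : Fin 9 → ℂ) (β : Fin 13 → ℂ), MvPolynomial.eval (Sum.elim α β) P ≠ 0 →
      ∃ c : Fin 5 → Fin 5 → ℂ, ∀ z, (pol α).eval z = inv2 (cof c (1, z)) ∧
        (pol β).eval z = inv3 (cof c (1, z)) := by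
  obtain ⟨φ, hφ⟩ := ((((G.cof 0).mul (G.cof 4)).add (((G.cof 1).mul (G.cof 3)).cmul (-1 / 4))).add
    (((G.cof 2).mul (G.cof 2)).cmul (1 / 12))).ex
    (g := fun x z => inv2 (cof (fun i j => x (i, j)) (1, z))) fun x z => by rw [inv2]; ring
  obtain ⟨ψ, hψ⟩ := ((((((((G.cof 0).mul (G.cof 2)).mul (G.cof 4)).cmul (1 / 6)).add
    ((((G.cof 1).mul (G.cof 2)).mul (G.cof 3)).cmul (1 / 48))).add
    ((((G.cof 2).mul (G.cof 2)).mul (G.cof 2)).cmul (-1 / 216))).add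
    ((((G.cof 0).mul (G.cof 3)).mul (G.cof 3)).cmul (-1 / 16))).add
    ((((G.cof 1).mul (G.cof 1)).mul (G.cof 4)).cmul (-1 / 16))).ex
    (g := fun x z => inv3 (cof (fun i j => x (i, j)) (1, z))) fun x z => by rw [inv3]; ring
  obtain ⟨x, hx⟩ : ∃ x : Fin 5 × Fin 5 → ℂ, ∀ z : ℂ,
      cof (fun i j => x (i, j)) (1, z) = ![0, 1, 0, z ^ 4, 0] :=
    ⟨fun p => !![0, 0, 0, 0, 0; 0, 0, 0, 0, 1; 0, 0, 0, 0, 0; 1, 0, 0, 0, 0; 0, 0, 0, 0, 0] p.1 p.2,
      fun z => funext fun i => by fin_cases i <;> simp [cof, qf, Fin.sum_univ_five]⟩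
  suffices hs : Function.Surjective (fderiv ℂ (fun (x : Fin 5 × Fin 5 → ℂ) (j : Fin 9 ⊕ Fin 13) =>
      MvPolynomial.eval x (Sum.elim φ ψ j)) x) by
    obtain ⟨P, h0, hP⟩ := generic_surj (κ := Fin 9 ⊕ Fin 13) (Sum.elim φ ψ) (inj_of_open _ x hs)
    refine ⟨P, h0, fun α β h => ?_⟩
    obtain ⟨c, hc⟩ := hP _ h
    refine ⟨fun i j => c (i, j), fun z => ⟨?_, ?_⟩⟩
    · rw [pol_eval, ← hφ]
      exact Finset.sum_congr rfl fun k _ => congrArg (· * _) (hc (.inl k)).symm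
    · rw [pol_eval, ← hψ]
      exact Finset.sum_congr rfl fun k _ => congrArg (· * _) (hc (.inr k)).symm
  intro y
  obtain ⟨v, hv⟩ : ∃ v : Fin 5 × Fin 5 → ℂ, ∀ z : ℂ,
      -(cof (fun i j => v (i, j)) (1, z) 1 * z ^ 4 + cof (fun i j => v (i, j)) (1, z) 3) / 4 =
        ∑ k : Fin 9, y (.inl k) * z ^ (k : ℕ) ∧
      cof (fun i j => v (i, j)) (1, z) 2 * z ^ 4 / 48 -
        cof (fun i j => v (i, j)) (1, z) 0 * z ^ 8 / 16 - cof (fun i j => v (i, j)) (1, z) 4 / 16 =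
        ∑ k : Fin 13, y (.inr k) * z ^ (k : ℕ) := by
    refine ⟨fun p => !![-16 * y (.inr 12), -16 * y (.inr 11), -16 * y (.inr 10), -16 * y (.inr 9),
        -16 * y (.inr 8);
      -4 * y (.inl 8), -4 * y (.inl 7), -4 * y (.inl 6), -4 * y (.inl 5), -4 * y (.inl 4);
      0, 48 * y (.inr 7), 48 * y (.inr 6), 48 * y (.inr 5), 48 * y (.inr 4);
      0, -4 * y (.inl 3), -4 * y (.inl 2), -4 * y (.inl 1), -4 * y (.inl 0);
      0, -16 * y (.inr 3), -16 * y (.inr 2), -16 * y (.inr 1), -16 * y (.inr 0)] p.1 p.2,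
      fun z => ⟨?_, ?_⟩⟩ <;> simp [cof, qf, Fin.sum_univ_succ] <;> ring
  refine ⟨v, (Sum.elim_comp_inl_inr _).symm.trans ((congrArg₂ Sum.elim (inj fun z => ?_)
    (inj fun z => ?_)).trans (Sum.elim_comp_inl_inr y))⟩
  · simp only [Function.comp_apply]
    have h1 := deriv_sum (Sum.elim φ ψ) Sum.inl x v z
    have d := deriv_cof x v z
    have h2 := (((d 0).fun_mul (d 4)).fun_sub (((d 1).fun_mul (d 3)).div_const 4)).fun_add
      (((d 2).fun_pow 2).div_const 12)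
    simp only [Sum.elim_inl, hφ] at h1
    rw [h1.unique h2, ← (hv z).1]
    simp [hx]
    ring
  · simp only [Function.comp_apply]
    have h1 := deriv_sum (Sum.elim φ ψ) Sum.inr x v z
    have d := deriv_cof x v z
    have h2 := (((((((d 0).fun_mul (d 2)).fun_mul (d 4)).div_const 6).fun_add
      ((((d 1).fun_mul (d 2)).fun_mul (d 3)).div_const 48)).fun_sub
      (((d 2).fun_pow 3).div_const 216)).fun_sub
      (((d 0).fun_mul ((d 3).fun_pow 2)).div_const 16)).fun_sub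
      ((((d 1).fun_pow 2).fun_mul (d 4)).div_const 16)
    simp only [Sum.elim_inr, hψ] at h1
    rw [h1.unique h2, ← (hv z).2]
    simp [hx, ← pow_mul]

end Vale.Agent.P290
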