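import Vale.Agent.P290G.Defs

/-! Regular points. -/

open Set Filter Metric Polynomial
open scoped Manifold ContDiff Topology

noncomputable section

namespace Vale.Agent.P290

variable {X : Type} [TopologicalSpace X] [ChartedSpace C2 X] [IsManifold 𝓘(ℂ, C2) ω X]
  {σ : Form2 X} {π : X → P1} {S : X × (ℂ × ℂ) × ℂ → X} {p : ℂ → ℂ × ℂ} {s s' : ℂ → X}
  {K : Set ℂ}

theorem loc_inverse {G : ℂ × ℂ → X} {v₀ : ℂ × ℂ} (hG : Hol G v₀)
    (hi : Function.Injective (dif G v₀)) : ∃ H : X → ℂ × ℂ, HolF H (G v₀) ∧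
      (∀ᶠ v in 𝓝 v₀, H (G v) = v) ∧ ∀ᶠ y in 𝓝 (G v₀), G (H y) = y := by
  have hm := mem_chart_source C2 (G v₀)
  have h1 : AnalyticAt ℂ (fun w => chartAt C2 (G v₀) (G w)) v₀ := (holF_chart _ hm).comp hG
  have hinj : Function.Injective
      (fderiv ℂ (fun w => chartAt C2 (G v₀) (G w)) v₀).toLinearMap := fun u v huv => hi (by
    rw [dif_chart (G v₀) hG hm, dif_chart (G v₀) hG hm]
    exact congrArg _ huv)
  have hd : HasFDerivAt (fun w => chartAt C2 (G v₀) (G w))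
      ((LinearMap.linearEquivOfInjective _ hinj (by simp)).toContinuousLinearEquiv :
        ℂ × ℂ →L[ℂ] C2) v₀ := h1.differentiableAt.hasFDerivAt
  have hc : ContDiffAt ℂ ω (fun w => chartAt C2 (G v₀) (G w)) v₀ := h1.contDiffAt
  have hs := hc.hasStrictFDerivAt' hd Mfd.ne0
  have ha : AnalyticAt ℂ (hc.localInverse hd Mfd.ne0) (chartAt C2 (G v₀) (G v₀)) :=
    (hc.to_localInverse hd Mfd.ne0).analyticAt
  have ht : Tendsto (chartAt C2 (G v₀)) (𝓝 (G v₀)) (𝓝 (chartAt C2 (G v₀) (G v₀))) :=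
    (chartAt C2 (G v₀)).continuousAt hm
  refine ⟨fun y => hc.localInverse hd Mfd.ne0 (chartAt C2 (G v₀) y),
    (holF_chart _ hm).post ha, hs.eventually_left_inverse, ?_⟩
  have ho := (chartAt C2 (G v₀)).open_source.mem_nhds hm
  filter_upwards [ht.eventually hs.eventually_right_inverse, ho,
    (hG.cont.tendsto.comp (hs.localInverse_tendsto.comp ht)).eventually ho] with y k1 k2 k3
  exact (chartAt C2 (G v₀)).injOn k3 k2 k1

theorem isClosed_fibre (hπ : HolP π) (q : ℂ × ℂ) : IsClosed {x | Rep q (π x)} := by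
  rw [← isOpen_compl_iff, isOpen_iff_mem_nhds]
  intro x hx
  by_cases hq : q = 0
  · exact Eventually.of_forall fun y hy => Rep.ne hy hq
  obtain ⟨a, ha⟩ := exists_pt hq
  obtain ⟨l, h1, h2⟩ := hπ x
  have hc := h1.continuousAt
  have h3 : q.1 * (l x).2 - q.2 * (l x).1 ≠ 0 := fun h =>
    hx (show Rep q (π x) from ((ha.eq_iff h2.self_of_nhds).2 (sub_eq_zero.1 h)) ▸ ha)
  have h4 : ContinuousAt (fun y => q.1 * (l y).2 - q.2 * (l y).1) x := by fun_prop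
  filter_upwards [h2, h4.eventually_ne h3] with y k1 k2 k3
  exact k2 (sub_eq_zero.2 ((Rep.eq_iff k3 k1).1 rfl))

theorem EInv.wr_ratio {a b : ℂ → ℂ × ℂ} {G : ℂ → P1} (ha : AnalyticAt ℂ a 0)
    (hb : AnalyticAt ℂ b 0) (h : ∀ᶠ w in 𝓝 0, Rep (a w) (G w))
    (h' : ∀ᶠ w in 𝓝 0, Rep (b w) (G w)) : ∃ ν : ℂ, ν ≠ 0 ∧ wr b = ν ^ 2 * wr a := by
  obtain ⟨ν, h1, h2⟩ := Lifts.ratio (G := G) (p := a) (q := b) (K := {0})
    ⟨fun z hz => hz ▸ ha, by rwa [nhdsSet_singleton]⟩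
    ⟨fun z hz => hz ▸ hb, by rwa [nhdsSet_singleton]⟩
  rw [nhdsSet_singleton] at h2
  have h3 : b =ᶠ[𝓝 0] fun w => ν w • a w := h2.mono fun w hw => hw.2
  have h4 := ((h1 0 rfl).differentiableAt.hasDerivAt.smul ha.differentiableAt.hasDerivAt)
  have h5 : deriv b 0 = ν 0 • deriv a 0 + deriv ν 0 • a 0 := by
    rw [h3.deriv_eq]; exact h4.deriv
  refine ⟨ν 0, h2.self_of_nhds.1, ?_⟩
  simp only [wr, h5, h2.self_of_nhds.2, Prod.fst_add, Prod.snd_add, Prod.smul_fst, Prod.smul_snd,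
    smul_eq_mul]
  ring

theorem LiftAt.moves_iff {l l' : X → ℂ × ℂ} {x : X} (h : LiftAt π l x) (h' : LiftAt π l' x)
    (v : C2) : Moves l x v ↔ Moves l' x v := by
  obtain ⟨c, hc, rfl, rfl⟩ := exists_curve x v
  obtain ⟨ν, hν, e⟩ := EInv.wr_ratio (HolF.comp h.1 hc) (HolF.comp h'.1 hc)
    (hc.cont.eventually h.2) (hc.cont.eventually h'.2)
  rw [P290.moves_iff, P290.moves_iff, ← h.wr hc, ← h'.wr hc, e]
  simp [hν]

theorem EInv.sg_tv (hS : Spray σ π S) {l : X → ℂ × ℂ} {x : X} (hl : LiftAt π l x) (v : C2) :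
    sg σ x (tv S x (l x)) v = (l x).1 * (dfn l x v).2 - (l x).2 * (dfn l x v).1 := by
  obtain ⟨c, hc, rfl, rfl⟩ := exists_curve x v
  rw [hS.ham c _ hc (HolF.comp hl.1 hc) (hc.cont.eventually hl.2), hl.wr hc]

theorem reg_iff (hσ : IsSympl σ) (hπ : HolP π) (hS : Spray σ π S) {x : X} {q : ℂ × ℂ}
    (hq : Rep q (π x)) : Reg π x ↔ tv S x q ≠ 0 := by
  constructor
  · rintro ⟨l, v, hl, hm⟩ h0
    obtain ⟨k, hk, rfl⟩ := hl.2.self_of_nhds.ratio hq
    rw [Orb.tv_smul hS hl.2.self_of_nhds hk, smul_eq_zero_iff_right (pow_ne_zero 2 hk)] at h0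
    refine P290.moves_iff.1 hm ((EInv.sg_tv hS hl v).symm.trans ?_)
    rw [h0, map_zero]
    rfl
  · intro h0
    obtain ⟨l, hl⟩ := hπ x
    obtain ⟨k, hk, rfl⟩ := hl.2.self_of_nhds.ratio hq
    rw [Orb.tv_smul hS hl.2.self_of_nhds hk] at h0
    by_contra hn
    refine h0 (smul_eq_zero_of_right _ (sg_nondeg hσ x fun v => ?_))
    by_contra hv
    rw [EInv.sg_tv hS hl] at hv
    exact hn ⟨l, v, hl, P290.moves_iff.2 hv⟩

theorem EInv.tv_zero (hS : Spray σ π S) {y : X} {q : ℂ × ℂ} (hq : Rep q (π y))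
    (h0 : tv S y q = 0) (τ : ℂ) : tv S (S (y, q, τ)) q = 0 := by
  obtain ⟨C', h1, h2⟩ := hS.hol (y, q, τ) hq
  have hγ := Orb.hol hS hq 0
  have hy : S (y, q, 0) = y := hS.zero y q hq
  have hF : ContMDiffAt 𝓘(ℂ, C2) 𝓘(ℂ, C2) ω (fun x => C' (x, q, τ)) (S (y, q, 0)) := by
    rw [hy]
    exact ContMDiffAt.comp (g := C') (f := fun x : X => (x, q, τ)) y h1
      (contMDiffAt_id.prodMk contMDiffAt_const)
  have ht : Tendsto (fun t : ℂ => (S (y, q, t), q, τ)) (𝓝 0) (𝓝 (y, q, τ)) := by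
    have h3 := hγ.cont.tendsto
    rw [hy] at h3
    exact h3.prodMk_nhds tendsto_const_nhds
  have he : (fun t => S (y, q, τ + t)) =ᶠ[𝓝 0] fun t => C' (S (y, q, t), q, τ) := by
    filter_upwards [ht.eventually h2] with t k
    have k1 : Rep q (π (S (y, q, t))) := by rwa [hS.fib y q t hq]
    rw [← k k1, hS.add y q t τ hq, add_comm]
  have h4 := mfderiv_comp_apply (0 : ℂ) (hF.mdifferentiableAt Mfd.ne0) hγ.mdiff (1 : ℂ)
  have h5 : mfderiv 𝓘(ℂ, ℂ) 𝓘(ℂ, C2) (fun t => S (y, q, t)) 0 (1 : ℂ) = 0 := h0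
  rw [h5, map_zero] at h4
  rw [← Orb.shift hS hq, vel, dif_congr he]
  exact h4

theorem Reg.flow (hσ : IsSympl σ) (hπ : HolP π) (hS : Spray σ π S) {x : X} {q : ℂ × ℂ}
    (hx : Reg π x) (hq : Rep q (π x)) (t : ℂ) : Reg π (S (x, q, t)) := by
  have hq' : Rep q (π (S (x, q, t))) := by rwa [hS.fib x q t hq]
  refine (reg_iff hσ hπ hS hq').2 fun h0 => (reg_iff hσ hπ hS hq).1 hx ?_
  have h1 := EInv.tv_zero hS hq' h0 (-t)
  rwa [hS.add x q t (-t) hq, add_neg_cancel, hS.zero x q hq] at h1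

theorem spray_hamCurve (hπ : HolP π) (hS : Spray σ π S) {x : X} {z : ℂ} (hz : Rep (1, z) (π x)) :
    HamCurve σ (fun y => aff (π y)) fun t => S (x, (1, z), t) := by
  refine ⟨fun s => (Orb.hol hS hz s).mdiff, fun s v => ?_⟩
  have h1 : Rep (1, z) (π (S (x, (1, z), s))) := by rwa [hS.fib x _ s hz]
  have h2 := (Spr.ne_iff (ContinuousLinearMap.fst ℂ ℂ ℂ) h1).2 one_ne_zero
  have h3 : HolF (fun y => aff (π y)) (S (x, (1, z), s)) :=
    Spr.holF_y hπ (ContinuousLinearMap.fst ℂ ℂ ℂ) (ContinuousLinearMap.snd ℂ ℂ ℂ) h2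
  have h4 : AnalyticAt ℂ (fun a : ℂ => ((1, a) : ℂ × ℂ)) (aff (π (S (x, (1, z), s)))) :=
    analyticAt_const.prod analyticAt_id
  have hl : LiftAt π (fun y => (1, aff (π y))) (S (x, (1, z), s)) := ⟨h3.post h4, by
    filter_upwards [(Spr.isOpen_O hπ (ContinuousLinearMap.fst ℂ ℂ ℂ)).mem_nhds h2] with y hy
    exact (rep_rep _).one_aff hy⟩
  have h5 := EInv.sg_tv hS hl v
  have h6 : aff (π (S (x, (1, z), s))) = z := by rw [h1.aff_eq, div_one]
  have h7 := dfn_post h3 h4 v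
  rw [(hasFDerivAt_prodMk_right (1 : ℂ) _).fderiv] at h7
  simp only [h7, h6, ContinuousLinearMap.inr_apply, one_mul, mul_zero, sub_zero] at h5
  rw [← hS.vel_eq hz] at h5
  exact h5

theorem nhdsNE_neBot (x : X) : (𝓝[≠] x).NeBot := by
  have hm := mem_chart_source C2 x
  have h1 := Module.punctured_nhds_neBot ℂ C2 (chartAt C2 x x)
  have h2 : Tendsto (chartAt C2 x).symm (𝓝[≠] (chartAt C2 x x)) (𝓝[≠] x) := by
    refine tendsto_nhdsWithin_iff.2
      ⟨((chartAt C2 x).tendsto_symm hm).mono_left nhdsWithin_le_nhds, ?_⟩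
    filter_upwards [mem_nhdsWithin_of_mem_nhds
      ((chartAt C2 x).open_target.mem_nhds (mem_chart_target C2 x)), self_mem_nhdsWithin]
      with q k1 k2 k3
    exact k2 (((chartAt C2 x).right_inv k1).symm.trans (congrArg _ k3))
  exact h2.neBot

theorem Coord.analytic (hp : Coord p) (z : ℂ) : AnalyticAt ℂ p z := by
  rcases hp with rfl | rfl
  · exact analyticAt_const.prod analyticAt_id
  · exact analyticAt_id.prod analyticAt_const

theorem Coord.ne (hp : Coord p) (z : ℂ) : p z ≠ 0 := by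
  rcases hp with rfl | rfl <;> simp

theorem Coord.inj (hp : Coord p) {z w : ℂ} {a : P1} (h : Rep (p z) a) (h' : Rep (p w) a) :
    z = w := by
  have h1 := (h.eq_iff h').1 rfl
  rcases hp with rfl | rfl
  · simpa using h1.symm
  · simpa using h1

theorem exists_coord {q : ℂ × ℂ} (hq : q ≠ 0) :
    ∃ (p : ℂ → ℂ × ℂ) (z c : ℂ), Coord p ∧ ‖z‖ ≤ 1 ∧ c ≠ 0 ∧ q = c • p z := by
  rcases le_total ‖q.2‖ ‖q.1‖ with h | h
  · have h1 : q.1 ≠ 0 := fun h0 => hq (Prod.ext h0 (by simpa [h0] using h))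
    refine ⟨_, q.2 / q.1, q.1, Or.inl rfl, ?_, h1, Prod.ext (by simp) ?_⟩
    · rw [norm_div]; exact div_le_one_of_le₀ h (norm_nonneg _)
    · simp only [Prod.smul_snd, smul_eq_mul]; field_simp
  · have h1 : q.2 ≠ 0 := fun h0 => hq (Prod.ext (by simpa [h0] using h) h0)
    refine ⟨_, q.1 / q.2, q.2, Or.inr rfl, ?_, h1, Prod.ext ?_ (by simp)⟩
    · rw [norm_div]; exact div_le_one_of_le₀ h (norm_nonneg _)
    · simp only [Prod.smul_fst, smul_eq_mul]; field_simp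

theorem Coord.exists_fun (hp : Coord p) (hπ : HolP π) : ∃ b : X → ℂ, ∀ x z, Rep (p z) (π x) →
    b x = z ∧ HolF b x ∧ ∀ᶠ y in 𝓝 x, Rep (p (b y)) (π y) := by
  rcases hp with rfl | rfl
  · refine ⟨fun x => aff (π x), fun x z h => ?_⟩
    have h2 := (Spr.ne_iff (ContinuousLinearMap.fst ℂ ℂ ℂ) h).2 one_ne_zero
    refine ⟨h.aff_eq.trans (div_one z),
      Spr.holF_y hπ (ContinuousLinearMap.fst ℂ ℂ ℂ) (ContinuousLinearMap.snd ℂ ℂ ℂ) h2, ?_⟩
    filter_upwards [(Spr.isOpen_O hπ (ContinuousLinearMap.fst ℂ ℂ ℂ)).mem_nhds h2] with y hy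
    exact (rep_rep _).one_aff hy
  · refine ⟨fun x => (π x).rep.1 / (π x).rep.2, fun x z h => ?_⟩
    have h2 := (Spr.ne_iff (ContinuousLinearMap.snd ℂ ℂ ℂ) h).2 one_ne_zero
    refine ⟨(Spr.div_eq (ContinuousLinearMap.snd ℂ ℂ ℂ) (ContinuousLinearMap.fst ℂ ℂ ℂ) h).trans
      (div_one z),
      Spr.holF_y hπ (ContinuousLinearMap.snd ℂ ℂ ℂ) (ContinuousLinearMap.fst ℂ ℂ ℂ) h2, ?_⟩
    filter_upwards [(Spr.isOpen_O hπ (ContinuousLinearMap.snd ℂ ℂ ℂ)).mem_nhds h2] with y hy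
    have hy' : (π y).rep.2 ≠ 0 := hy
    have h3 := (rep_rep (π y)).smul (inv_ne_zero hy')
    have h4 : (π y).rep.2⁻¹ • (π y).rep = ((π y).rep.1 / (π y).rep.2, 1) :=
      Prod.ext (by simp [div_eq_inv_mul]) (by simp [hy'])
    rwa [h4] at h3

theorem SecOn.ev {z : ℂ} (hs : SecOn π p s {z}) : ∀ᶠ w in 𝓝 z, SecOn π p s {w} := by
  obtain ⟨h1, h2⟩ := hs z rfl
  filter_upwards [h1.ev, eventually_eventually_nhds.2 h2] with w k1 k2 u hu
  rw [mem_singleton_iff.1 hu]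
  exact ⟨k1, k2⟩

theorem SecOn.reg (hπ : HolP π) (hp : Coord p) (hs : SecOn π p s K) {z : ℂ} (hz : z ∈ K) :
    Reg π (s z) := by
  obtain ⟨h1, h2⟩ := hs z hz
  have ha : AnalyticAt ℂ (fun w : ℂ => z + w) 0 := analyticAt_const.add analyticAt_id
  have hc : Hol (fun w => s (z + w)) 0 := Hol.comp (g := fun w : ℂ => z + w) (by rwa [add_zero]) ha
  have ht : Tendsto (fun w : ℂ => z + w) (𝓝 0) (𝓝 z) := by
    have := ha.continuousAt.tendsto
    rwa [add_zero] at this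
  obtain ⟨l, hl⟩ := hπ (s (z + 0))
  obtain ⟨ν, hν, e⟩ := EInv.wr_ratio (a := fun w => p (z + w)) (b := fun w => l (s (z + w)))
    (G := fun w => π (s (z + w))) ((hp.analytic _).comp ha) (HolF.comp hl.1 hc) (ht.eventually h2)
    (hc.cont.eventually hl.2)
  have hw : wr (fun w => p (z + w)) ≠ 0 := by
    have d1 : HasDerivAt (fun w : ℂ => z + w) 1 0 := (hasDerivAt_id (0 : ℂ)).const_add z
    have d2 := hasDerivAt_const (0 : ℂ) (1 : ℂ)
    rcases hp with rfl | rfl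
    · rw [wr, (d2.prodMk d1).deriv]; simp
    · rw [wr, (d1.prodMk d2).deriv]; simp
  have h3 := LiftAt.wr (c := fun w => s (z + w)) hl hc
  rw [← add_zero z]
  refine ⟨l, vel (fun w => s (z + w)) 0, hl, P290.moves_iff.2 ?_⟩
  rw [← h3, e]
  exact mul_ne_zero (pow_ne_zero 2 hν) hw

end Vale.Agent.P290
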