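import Vale.Agent.P290G.Defs

/-! Families of lattices. -/

open Set Filter Metric Polynomial
open scoped Manifold ContDiff Topology

noncomputable section

namespace Vale.Agent.P290

variable {Λ : ℂ → AddSubgroup ℂ} {ω₁ ω₂ η₁ η₂ ν ν' : ℂ → ℂ} {K : Set ℂ}

namespace PF1

/-- The real determinant. -/
def dd (a b : ℂ) : ℝ := a.re * b.im - a.im * b.re

theorem dd_lin (a b c d : ℤ) (x y : ℂ) :
    dd (a * x + b * y) (c * x + d * y) = ((a : ℝ) * d - b * c) * dd x y := by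
  simp [dd]
  ring

theorem cont {f g : ℂ → ℂ} {z : ℂ} (hf : ContinuousAt f z) (hg : ContinuousAt g z) :
    ContinuousAt (fun w => dd (f w) (g w)) z := by
  unfold dd
  fun_prop

theorem indep {a b : ℂ} : LinearIndependent ℝ ![a, b] ↔ dd a b ≠ 0 := by
  rw [LinearIndependent.pair_iff, dd]
  refine ⟨fun h h0 => ?_, fun h s t e => ?_⟩
  · obtain ⟨h1, h2⟩ := h b.im (-a.im) (Complex.ext (by simp; linarith) (by simp; ring))
    obtain ⟨h3, h4⟩ := h b.re (-a.re) (Complex.ext (by simp; ring) (by simp; linarith))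
    exact one_ne_zero (h 1 0 (Complex.ext (by simpa using h4) (by simpa using h2))).1
  · have e1 := congrArg Complex.re e
    have e2 := congrArg Complex.im e
    simp at e1 e2
    exact ⟨mul_right_cancel₀ h (by linear_combination b.im * e1 - b.re * e2),
      mul_right_cancel₀ h (by linear_combination a.re * e2 - a.im * e1)⟩

theorem uniq {a b : ℂ} (hi : LinearIndependent ℝ ![a, b]) {m n m' n' : ℤ}
    (h : m * a + n * b = m' * a + n' * b) : m = m' ∧ n = n' := by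
  obtain ⟨h1, h2⟩ := LinearIndependent.pair_iff.1 hi ((m - m' : ℤ) : ℝ) ((n - n' : ℤ) : ℝ) (by
    simp only [Complex.real_smul]
    push_cast
    linear_combination h)
  exact ⟨sub_eq_zero.1 (Int.cast_eq_zero.1 h1), sub_eq_zero.1 (Int.cast_eq_zero.1 h2)⟩

theorem near {g : ℂ → ℝ} {z : ℂ} (hg : ContinuousAt g z) {m : ℤ} (h : g z = m) :
    ∀ᶠ w in 𝓝 z, ∀ m' : ℤ, g w = m' → m' = m := by
  filter_upwards [hg.eventually (Ioo_mem_nhds (sub_one_lt _) (lt_add_one _))] with w hw m' e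
  rw [h, e] at hw
  have h1 : m - 1 < m' := by exact_mod_cast hw.1
  have h2 : m' < m + 1 := by exact_mod_cast hw.2
  omega

theorem loc {f : ℂ → ℂ} {z : ℂ} (hb : AnalyticAt ℂ ω₁ z ∧ AnalyticAt ℂ ω₂ z ∧ ∀ᶠ w in 𝓝 z,
      LinearIndependent ℝ ![ω₁ w, ω₂ w] ∧ ∀ t, t ∈ Λ w ↔ ∃ m n : ℤ, m * ω₁ w + n * ω₂ w = t)
    (hf : AnalyticAt ℂ f z) (hm : ∀ᶠ w in 𝓝 z, f w ∈ Λ w) :
    ∃ m n : ℤ, ∀ᶠ w in 𝓝 z, f w = m * ω₁ w + n * ω₂ w := by
  obtain ⟨h1, h2, h3⟩ := hb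
  have key : ∀ᶠ w in 𝓝 z, ∃ m n : ℤ, f w = m * ω₁ w + n * ω₂ w ∧
      dd (f w) (ω₂ w) / dd (ω₁ w) (ω₂ w) = m ∧ dd (ω₁ w) (f w) / dd (ω₁ w) (ω₂ w) = n := by
    filter_upwards [h3, hm] with w a b
    obtain ⟨m, n, e⟩ := (a.2 _).1 b
    have h0 := indep.1 a.1
    refine ⟨m, n, e.symm, ?_, ?_⟩
    · rw [div_eq_iff h0, ← e]
      simpa using dd_lin m n 0 1 (ω₁ w) (ω₂ w)
    · rw [div_eq_iff h0, ← e]
      simpa using dd_lin 1 0 m n (ω₁ w) (ω₂ w)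
  obtain ⟨m, n, -, e1, e2⟩ := key.self_of_nhds
  have h0 := indep.1 h3.self_of_nhds.1
  have c0 := cont h1.continuousAt h2.continuousAt
  refine ⟨m, n, ?_⟩
  filter_upwards [key, near ((cont hf.continuousAt h2.continuousAt).div c0 h0) e1,
    near ((cont h1.continuousAt hf.continuousAt).div c0 h0) e2] with w ⟨m', n', a, b, c⟩ p q
  rw [← p m' b, ← q n' c]
  exact a

end PF1

theorem Bas.ev {z : ℂ} (h : Bas Λ ω₁ ω₂ {z}) : ∀ᶠ w in 𝓝 z, Bas Λ ω₁ ω₂ {w} := by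
  obtain ⟨h1, h2, h3⟩ := h z rfl
  filter_upwards [h1.eventually_analyticAt, h2.eventually_analyticAt, h3.eventually_nhds]
    with w a b c
  rintro _ rfl
  exact ⟨a, b, c⟩

theorem Bas.mem (h : Bas Λ ω₁ ω₂ K) (m n : ℤ) :
    ∀ᶠ w in 𝓝ˢ K, m * ω₁ w + n * ω₂ w ∈ Λ w :=
  eventually_nhdsSet_iff_forall.2 fun z hz => (h z hz).2.2.mono fun _ hw => (hw.2 _).2 ⟨m, n, rfl⟩

theorem ASec.ev {z : ℂ} (h : ASec Λ ν {z}) : ∀ᶠ w in 𝓝 z, ASec Λ ν {w} := by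
  obtain ⟨c, h1, h2⟩ := h z rfl
  filter_upwards [h1.eventually_analyticAt, h2.eventually_nhds] with w a b
  rintro _ rfl
  exact ⟨c, a, b⟩

theorem ASec.add (h : ASec Λ ν K) (h' : ASec Λ ν' K) : ASec Λ (fun z => ν z + ν' z) K := by
  intro z hz
  obtain ⟨c, h1, h2⟩ := h z hz
  obtain ⟨c', h3, h4⟩ := h' z hz
  refine ⟨fun w => c w + c' w, h1.add h3, ?_⟩
  filter_upwards [h2, h4] with w a b
  rw [add_sub_add_comm]
  exact add_mem a b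

theorem ASec.neg (h : ASec Λ ν K) : ASec Λ (fun z => -ν z) K := by
  intro z hz
  obtain ⟨c, h1, h2⟩ := h z hz
  refine ⟨fun w => -c w, h1.neg, h2.mono fun w a => ?_⟩
  rw [neg_sub_neg, ← neg_sub]
  exact neg_mem a

theorem asec_of_analytic (h : AnalyticOnNhd ℂ ν K) : ASec Λ ν K := fun z hz =>
  ⟨ν, h z hz, Eventually.of_forall fun w => by
    rw [sub_self]
    exact zero_mem _⟩

theorem Bas.int_const (hb : Bas Λ ω₁ ω₂ K) (hK : IsPreconnected K) {f : ℂ → ℂ}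
    (hf : AnalyticOnNhd ℂ f K) (hm : ∀ᶠ w in 𝓝ˢ K, f w ∈ Λ w) :
    ∃ m n : ℤ, ∀ᶠ w in 𝓝ˢ K, f w = m * ω₁ w + n * ω₂ w := by
  have loc := fun z hz => PF1.loc (hb z hz) (hf z hz) (eventually_nhdsSet_iff_forall.1 hm z hz)
  have un : ∀ z ∈ K, ∀ m n m' n' : ℤ, (∀ᶠ w in 𝓝 z, f w = m * ω₁ w + n * ω₂ w) →
      (∀ᶠ w in 𝓝 z, f w = m' * ω₁ w + n' * ω₂ w) → m = m' ∧ n = n' := fun z hz m n m' n' a b =>
    PF1.uniq (hb z hz).2.2.self_of_nhds.1 (a.self_of_nhds.symm.trans b.self_of_nhds)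
  rcases K.eq_empty_or_nonempty with rfl | ⟨z, hz⟩
  · exact ⟨0, 0, by simp⟩
  obtain ⟨m, n, h⟩ := loc z hz
  refine ⟨m, n, eventually_nhdsSet_iff_forall.2 fun y hy => hK.induction₂'
    (fun x y => ∀ m n : ℤ, (∀ᶠ w in 𝓝 x, f w = m * ω₁ w + n * ω₂ w) →
      ∀ᶠ w in 𝓝 y, f w = m * ω₁ w + n * ω₂ w) (fun x hx => ?_)
    (fun _ _ _ _ _ _ a b m n c => b m n (a m n c)) hz hy m n h⟩
  obtain ⟨m, n, h⟩ := loc x hx
  filter_upwards [h.eventually_nhds.filter_mono nhdsWithin_le_nhds, self_mem_nhdsWithin]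
    with y h1 hy
  refine ⟨fun m' n' h2 => ?_, fun m' n' h2 => ?_⟩
  · obtain ⟨rfl, rfl⟩ := un x hx _ _ _ _ h h2
    exact h1
  · obtain ⟨rfl, rfl⟩ := un y hy _ _ _ _ h1 h2
    exact h

theorem Bas.unique {z : ℂ} (hb : Bas Λ ω₁ ω₂ {z}) {m n m' n' : ℤ}
    (h : m * ω₁ z + n * ω₂ z = m' * ω₁ z + n' * ω₂ z) : m = m' ∧ n = n' :=
  PF1.uniq (hb z rfl).2.2.self_of_nhds.1 h

theorem Bas.change (h : Bas Λ ω₁ ω₂ K) (h' : Bas Λ η₁ η₂ K) (hK : IsPreconnected K) :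
    ∃ a b c d : ℤ, (a * d - b * c = 1 ∨ a * d - b * c = -1) ∧
      ∀ᶠ w in 𝓝ˢ K, η₁ w = a * ω₁ w + b * ω₂ w ∧ η₂ w = c * ω₁ w + d * ω₂ w := by
  rcases K.eq_empty_or_nonempty with rfl | ⟨z, hz⟩
  · exact ⟨1, 0, 0, 1, by simp, by simp⟩
  obtain ⟨a, b, h1⟩ := h.int_const hK (fun z hz => (h' z hz).1) (by simpa using h'.mem 1 0)
  obtain ⟨c, d, h2⟩ := h.int_const hK (fun z hz => (h' z hz).2.1) (by simpa using h'.mem 0 1)
  refine ⟨a, b, c, d, ?_, h1.and h2⟩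
  have e1 := h1.self_of_nhdsSet z hz
  have e2 := h2.self_of_nhdsSet z hz
  obtain ⟨hi, -⟩ := (h z hz).2.2.self_of_nhds
  obtain ⟨-, hl⟩ := (h' z hz).2.2.self_of_nhds
  obtain ⟨a', b', e3⟩ := (hl _).1 ((h.mem 1 0).self_of_nhdsSet z hz)
  obtain ⟨c', d', e4⟩ := (hl _).1 ((h.mem 0 1).self_of_nhdsSet z hz)
  obtain ⟨f1, f2⟩ := PF1.uniq hi (m := a' * a + b' * c) (n := a' * b + b' * d) (m' := 1) (n' := 0)
    (by rw [← e3, e1, e2]; push_cast; ring)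
  obtain ⟨f3, f4⟩ := PF1.uniq hi (m := c' * a + d' * c) (n := c' * b + d' * d) (m' := 0) (n' := 1)
    (by rw [← e4, e1, e2]; push_cast; ring)
  refine Int.eq_one_or_neg_one_of_mul_eq_one (v := a' * d' - b' * c') ?_
  linear_combination (c' * b + d' * d) * f1 + f4 - (c' * a + d' * c) * f2

theorem Bas.of_det (h : Bas Λ ω₁ ω₂ K) {a b c d : ℤ} (hd : a * d - b * c = 1 ∨ a * d - b * c = -1) :
    Bas Λ (fun w => a * ω₁ w + b * ω₂ w) (fun w => c * ω₁ w + d * ω₂ w) K := by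
  intro z hz
  obtain ⟨h1, h2, h3⟩ := h z hz
  obtain ⟨e, he, ee⟩ : ∃ e : ℤ, e = a * d - b * c ∧ e * e = 1 :=
    ⟨_, rfl, by rcases hd with h | h <;> rw [h] <;> rfl⟩
  refine ⟨(analyticAt_const.mul h1).add (analyticAt_const.mul h2),
    (analyticAt_const.mul h1).add (analyticAt_const.mul h2), h3.mono fun w hw => ⟨?_, fun t => ?_⟩⟩
  · rw [PF1.indep, PF1.dd_lin, ← Int.cast_mul, ← Int.cast_mul, ← Int.cast_sub, ← he]
    exact mul_ne_zero (Int.cast_ne_zero.2 (left_ne_zero_of_mul_eq_one ee)) (PF1.indep.1 hw.1)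
  · have e0 : e * (a * d - b * c) = 1 := by rw [← he, ee]
    have e1 : (e : ℂ) * ((a : ℂ) * d - b * c) = 1 := by exact_mod_cast e0
    rw [hw.2]
    refine ⟨fun ⟨m, n, h⟩ => ⟨e * (m * d - n * c), e * (n * a - m * b), ?_⟩,
      fun ⟨m, n, h⟩ => ⟨m * a + n * c, m * b + n * d, ?_⟩⟩
    · push_cast
      linear_combination h + (m * ω₁ w + n * ω₂ w) * e1
    · push_cast
      linear_combination h

theorem Bas.orient (h : Bas Λ ω₁ ω₂ K) (hK : IsPreconnected K) {z w : ℂ} (hz : z ∈ K)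
    (hw : w ∈ K) : 0 < ((starRingEnd ℂ) (ω₁ z) * ω₂ z).im * ((starRingEnd ℂ) (ω₁ w) * ω₂ w).im := by
  have h0 : ∀ z ∈ K, PF1.dd (ω₁ z) (ω₂ z) ≠ 0 := fun z hz =>
    PF1.indep.1 (h z hz).2.2.self_of_nhds.1
  have e : ∀ a b : ℂ, ((starRingEnd ℂ) a * b).im = PF1.dd a b := fun a b => by
    simp [PF1.dd, sub_eq_add_neg]
  rw [e, e]
  exact hK.lt_of_ne (f := fun w => PF1.dd (ω₁ z) (ω₂ z) * PF1.dd (ω₁ w) (ω₂ w))
    (fun w hw => (continuousAt_const.mul (PF1.cont (h w hw).1.continuousAt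
      (h w hw).2.1.continuousAt)).continuousWithinAt)
    (fun w hw => mul_ne_zero (h0 z hz) (h0 w hw)) ⟨z, hz, mul_self_pos.2 (h0 z hz)⟩ hw

end Vale.Agent.P290
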