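import Vale.Agent.P290G.EPer
import Vale.Agent.P290G.PF1

/-! Period lattices. -/

open Set Filter Metric Polynomial
open scoped Manifold ContDiff Topology

noncomputable section

namespace Vale.Agent.P290

variable {X : Type} [TopologicalSpace X] [ChartedSpace C2 X] [IsManifold 𝓘(ℂ, C2) ω X]
  {σ : Form2 X} {π : X → P1} {S : X × (ℂ × ℂ) × ℂ → X} {p : ℂ → ℂ × ℂ} {s s' : ℂ → X}
  {K : Set ℂ}

theorem ELat.red {a b : ℂ} (h : PF1.dd a b ≠ 0) (t : ℂ) :
    ∃ m n : ℤ, ‖t - (m * a + n * b)‖ ≤ ‖a‖ + ‖b‖ := by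
  obtain ⟨x, y, rfl⟩ : ∃ x y : ℝ, t = x * a + y * b := by
    refine ⟨PF1.dd t b / PF1.dd a b, PF1.dd a t / PF1.dd a b, Complex.ext ?_ ?_⟩ <;>
      simp only [Complex.add_re, Complex.add_im, Complex.re_ofReal_mul, Complex.im_ofReal_mul] <;>
      field_simp <;> unfold PF1.dd <;> ring
  refine ⟨⌊x⌋, ⌊y⌋, ?_⟩
  have e : x * a + y * b - (⌊x⌋ * a + ⌊y⌋ * b) = (Int.fract x : ℝ) * a + (Int.fract y : ℝ) * b := by
    simp only [Int.fract]
    push_cast
    ring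
  have k : ∀ (u : ℝ) (c : ℂ), ‖(Int.fract u : ℝ) * c‖ ≤ ‖c‖ := fun u c => by
    rw [norm_mul, Complex.norm_real, Real.norm_of_nonneg (Int.fract_nonneg u)]
    exact mul_le_of_le_one_left (norm_nonneg c) (Int.fract_lt_one u).le
  rw [e]
  exact (norm_add_le _ _).trans (add_le_add (k x a) (k y b))

theorem Ell.loc_triv [T2Space X] (h : Ell σ π S) (hp : Coord p) {z₀ : ℂ} {L : PeriodPair}
    (hL : (Per h.spr (p z₀) : Set ℂ) = L.lattice) :
    ∃ ω₁ ω₂, Bas (fun z => Per h.spr (p z)) ω₁ ω₂ {z₀} := by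
  have hm : ∀ t, t ∈ Per h.spr (p z₀) ↔ t ∈ L.lattice := fun t => Set.ext_iff.1 hL t
  obtain ⟨f, f1, f2, f3⟩ := h.per_ext hp ((hm _).2 L.ω₁_mem_lattice)
  obtain ⟨g, g1, g2, g3⟩ := h.per_ext hp ((hm _).2 L.ω₂_mem_lattice)
  obtain ⟨ε, hε, hs⟩ := h.short_loc hp z₀
  have hd : ∀ᶠ z in 𝓝 z₀, PF1.dd (f z) (g z) ≠ 0 :=
    (PF1.cont f1.continuousAt g1.continuousAt).eventually_ne (by
      rw [f2, g2]
      exact PF1.indep.1 L.indep)
  have hi : ∀ᶠ z in 𝓝 z₀, ∀ m n : ℤ, m * f z + n * g z ∈ Per h.spr (p z) := by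
    filter_upwards [f3, g3] with z a b m n
    rw [← zsmul_eq_mul, ← zsmul_eq_mul]
    exact add_mem (zsmul_mem a m) (zsmul_mem b n)
  have ht := (isCompact_closedBall (0 : ℂ)
      (‖f z₀‖ + 1 + (‖g z₀‖ + 1))).eventually_forall_of_forall_eventually (x₀ := z₀)
    (P := fun z t => t ∈ Per h.spr (p z) → ∃ m n : ℤ, m * f z + n * g z = t) fun t₀ _ => by
      by_cases h0 : t₀ ∈ Per h.spr (p z₀)
      · obtain ⟨m, n, e⟩ := PeriodPair.mem_lattice.1 ((hm _).1 h0)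
        have c1 : ContinuousAt (fun v : ℂ × ℂ => ‖v.2 - (m * f v.1 + n * g v.1)‖) (z₀, t₀) :=
          (continuousAt_snd.sub ((continuousAt_const.mul (f1.continuousAt.comp continuousAt_fst)).add
            (continuousAt_const.mul (g1.continuousAt.comp continuousAt_fst)))).norm
        have c2 := c1.eventually_lt continuousAt_const (show _ < ε by
          rwa [f2, g2, e, sub_self, norm_zero])
        filter_upwards [c2, (continuous_fst.tendsto (z₀, t₀)).eventually (hs.and hi)] with v a b c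
        exact ⟨m, n, (sub_eq_zero.1 (b.1 _ (sub_mem c (b.2 m n)) a)).symm⟩
      · exact (not_frequently.1 fun hf => h0 (h.per_lim hp hf)).mono fun v a b => absurd b a
  refine ⟨f, g, ?_⟩
  rintro _ rfl
  refine ⟨f1, g1, ?_⟩
  filter_upwards [hd, hi, ht, f1.continuousAt.norm.eventually_lt continuousAt_const (lt_add_one _),
    g1.continuousAt.norm.eventually_lt continuousAt_const (lt_add_one _)] with w a b c d e
  refine ⟨PF1.indep.2 a, fun t => ⟨fun hw => ?_, fun ⟨m, n, hw⟩ => hw ▸ b m n⟩⟩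
  obtain ⟨m, n, h1⟩ := ELat.red a t
  obtain ⟨m', n', h2⟩ := c _ (mem_closedBall_zero_iff.2 (h1.trans (add_le_add d.le e.le)))
    (sub_mem hw (b m n))
  exact ⟨m + m', n + n', by push_cast; linear_combination h2⟩

theorem bas_inv (hS : Spray σ π S) {p' : ℂ → ℂ × ℂ} (hp : ∀ z, z ≠ 0 → p' z = z • p z⁻¹)
    {ω₁ ω₂ : ℂ → ℂ} {z : ℂ} (hz : z ≠ 0) (hb : Bas (fun z => Per hS (p z)) ω₁ ω₂ {z⁻¹}) :
    Bas (fun z => Per hS (p' z)) (fun w => ω₁ w⁻¹ / w ^ 2) (fun w => ω₂ w⁻¹ / w ^ 2) {z} := by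
  obtain ⟨h1, h2, h3⟩ := hb _ rfl
  rintro w rfl
  have hi : AnalyticAt ℂ (fun w : ℂ => w⁻¹) w := analyticAt_id.inv hz
  have hq : AnalyticAt ℂ (fun w : ℂ => w ^ 2) w := analyticAt_id.pow 2
  refine ⟨(h1.comp hi).div hq (pow_ne_zero 2 hz), (h2.comp hi).div hq (pow_ne_zero 2 hz), ?_⟩
  filter_upwards [hi.continuousAt.eventually h3, eventually_ne_nhds hz] with u a b
  have hu : u ^ 2 ≠ 0 := pow_ne_zero 2 b
  refine ⟨LinearIndependent.pair_iff.2 fun x y e => LinearIndependent.pair_iff.1 a.1 x y ?_,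
    fun t => ?_⟩
  · simp only [Complex.real_smul] at e ⊢
    rw [← mul_div_assoc, ← mul_div_assoc, ← add_div] at e
    exact (div_eq_zero_iff.1 e).resolve_right hu
  · rw [hp u b, per_smul hS b, a.2]
    refine exists₂_congr fun m n => ?_
    rw [← mul_div_assoc, ← mul_div_assoc, ← add_div, div_eq_iff hu, mul_comm t]

end Vale.Agent.P290
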