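import Vale.Agent.P290G.EPer

/-! Periods of smooth fibres. -/

open Set Filter Metric Polynomial
open scoped Manifold ContDiff Topology

noncomputable section

namespace Vale.Agent.P290

variable {X : Type} [TopologicalSpace X] [ChartedSpace C2 X] [IsManifold 𝓘(ℂ, C2) ω X]
  {σ : Form2 X} {π : X → P1} {S : X × (ℂ × ℂ) × ℂ → X} {p : ℂ → ℂ × ℂ} {s s' : ℂ → X}
  {K : Set ℂ}

namespace ELat2

theorem lattice (Λ : AddSubgroup ℂ) (hd : ∃ ε > (0 : ℝ), ∀ t ∈ Λ, ‖t‖ < ε → t = 0) {R : ℝ}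
    (hR : ∀ t, ∃ l ∈ Λ, ‖t - l‖ ≤ R) : ∃ L : PeriodPair, (Λ : Set ℂ) = L.lattice := by
  obtain ⟨ε, hε, hd⟩ := hd
  set M : Submodule ℤ ℂ := AddSubgroup.toIntSubmodule Λ with hM
  have : DiscreteTopology M := by
    refine discreteTopology_of_isOpen_singleton_zero ?_
    have e : ({0} : Set M) = Subtype.val ⁻¹' ball (0 : ℂ) ε := by
      ext t
      refine ⟨fun ht => ?_, fun ht => Subtype.ext (hd t t.2 (by simpa using ht))⟩
      rw [mem_singleton_iff.1 ht]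
      exact mem_ball_self hε
    rw [e]
    exact isOpen_ball.preimage continuous_subtype_val
  have : IsZLattice ℝ M := by
    refine ⟨eq_top_iff.2 fun t _ => ?_⟩
    have hc := (Submodule.span ℝ (M : Set ℂ)).closed_of_finiteDimensional
    change t ∈ (Submodule.span ℝ (M : Set ℂ) : Set ℂ)
    rw [← hc.closure_eq, Metric.mem_closure_iff]
    intro δ hδ
    have h0 : 0 < |R| + 1 := by positivity
    obtain ⟨l, hl, h1⟩ := hR (((|R| + 1) / δ) • t)
    refine ⟨(δ / (|R| + 1)) • l, Submodule.smul_mem _ _ (Submodule.subset_span hl), ?_⟩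
    have e : t - (δ / (|R| + 1)) • l = (δ / (|R| + 1)) • (((|R| + 1) / δ) • t - l) := by
      rw [smul_sub, smul_smul, div_mul_div_cancel₀ h0.ne', div_self hδ.ne', one_smul]
    rw [dist_eq_norm, e, norm_smul, Real.norm_of_nonneg (by positivity), div_mul_eq_mul_div,
      div_lt_iff₀ h0]
    exact mul_lt_mul_of_pos_left (by linarith [le_abs_self R]) hδ
  have := ZLattice.module_free ℝ M
  have := ZLattice.module_finite ℝ M
  let b := Module.finBasisOfFinrankEq ℤ M ((ZLattice.rank ℝ M).trans Complex.finrank_real_complex)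
  let b' := b.ofZLatticeBasis ℝ M
  have e : ![b' 0, b' 1] = b' := by
    funext i
    fin_cases i <;> rfl
  refine ⟨⟨b' 0, b' 1, e ▸ b'.linearIndependent⟩, ?_⟩
  have e2 : range b' = {b' 0, b' 1} := by
    conv_lhs => rw [← e]
    simp [pair_comm]
  rw [PeriodPair.lattice, ← e2, b.ofZLatticeBasis_span ℝ]
  rfl

theorem loc (h : Ell σ π S) {q : ℂ × ℂ} {x : X} (hq : Rep q (π x)) (hx : Reg π x) (t₀ : ℂ) :
    ∃ R : ℝ, ∀ᶠ y in 𝓝 (S (x, q, t₀)), Rep q (π y) → ∃ t, ‖t‖ ≤ R ∧ S (x, q, t) = y := by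
  obtain ⟨p, z, c, hp, -, hc, rfl⟩ := exists_coord hq.ne
  have hz : ∀ {a}, Rep (c • p z) a → Rep (p z) a := fun ha => by
    simpa [smul_smul, hc] using ha.smul (inv_ne_zero hc)
  obtain ⟨s, rfl, hs⟩ := loc_sec h.hol hp hx (hz hq)
  obtain ⟨H, h1, -, h3⟩ := loc_inv h.sym h.hol h.spr hp hs (c ^ 2 * t₀)
  rw [h.spr.smul _ _ c t₀ (hz hq) hc]
  have h4 := (continuous_norm.comp continuous_snd).continuousAt.tendsto.comp h1.continuousAt.tendsto
  refine ⟨(‖(H (S (s z, p z, c ^ 2 * t₀))).2‖ + 1) / ‖c‖ ^ 2, ?_⟩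
  filter_upwards [h3, h4.eventually (gt_mem_nhds (lt_add_one _))] with y hy hb hr
  have e : (H y).1 = z := hp.inj hy.1 (hz hr)
  refine ⟨(H y).2 / c ^ 2, ?_, ?_⟩
  · rw [norm_div, norm_pow]
    exact div_le_div_of_nonneg_right hb.le (by positivity)
  · rw [h.spr.smul _ _ c _ (hz hq) hc, mul_div_cancel₀ _ (pow_ne_zero 2 hc), ← e]
    exact hy.2

theorem bdd [CompactSpace X] (h : Ell σ π S) {q : ℂ × ℂ} {x : X} (hq : Rep q (π x))
    (hr : ∀ x, Rep q (π x) → Reg π x) :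
    ∃ R : ℝ, ∀ y ∈ {y | Rep q (π y)}, ∃ t, ‖t‖ ≤ R ∧ S (x, q, t) = y := by
  refine (isClosed_fibre h.hol q).isCompact.induction_on
    (p := fun A => ∃ R : ℝ, ∀ y ∈ A, ∃ t, ‖t‖ ≤ R ∧ S (x, q, t) = y) ⟨0, fun _ hy => hy.elim⟩
    (fun A B hAB ⟨R, hR⟩ => ⟨R, fun y hy => hR y (hAB hy)⟩) ?_ fun y hy => ?_
  · rintro A B ⟨R, hR⟩ ⟨R', hR'⟩
    refine ⟨max R R', fun y hy => ?_⟩
    rcases hy with hy | hy
    · exact (hR y hy).imp fun t ht => ⟨ht.1.trans (le_max_left _ _), ht.2⟩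
    · exact (hR' y hy).imp fun t ht => ⟨ht.1.trans (le_max_right _ _), ht.2⟩
  · obtain ⟨t₀, rfl⟩ := h.trans x y q hq hy (hr x hq) (hr y hy)
    obtain ⟨R, hR⟩ := loc h hq (hr x hq) t₀
    exact ⟨_, inter_mem_nhdsWithin _ hR, R, fun y hy => hy.2 hy.1⟩

end ELat2



theorem Ell.per_lattice [T2Space X] [CompactSpace X] (h : Ell σ π S) {q : ℂ × ℂ} (hq : q ≠ 0)
    (hr : ∀ x, Rep q (π x) → Reg π x) :
    ∃ L : PeriodPair, (Per h.spr q : Set ℂ) = L.lattice := by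
  obtain ⟨a, ha⟩ := exists_pt hq
  obtain ⟨x, rfl, hx⟩ := h.ex a
  obtain ⟨R, hR⟩ := ELat2.bdd h ha hr
  refine ELat2.lattice _ (h.discrete hq) (R := R) fun t => ?_
  have hf : Rep q (π (S (x, q, t))) := by rwa [h.spr.fib x q t ha]
  obtain ⟨t', h1, h2⟩ := hR _ hf
  refine ⟨t - t', (h.mem_per ha hx).2 ?_, by simpa using h1⟩
  rw [sub_eq_add_neg, ← h.spr.add x q t (-t') ha, ← h2, h.spr.add x q t' (-t') ha, add_neg_cancel,
    h.spr.zero x q ha]

end Vale.Agent.P290
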