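import Vale.Agent.P290G.EInv

/-! Local structure at regular points. -/

open Set Filter Metric Polynomial
open scoped Manifold ContDiff Topology

noncomputable section

namespace Vale.Agent.P290

variable {X : Type} [TopologicalSpace X] [ChartedSpace C2 X] [IsManifold 𝓘(ℂ, C2) ω X]
  {σ : Form2 X} {π : X → P1} {S : X × (ℂ × ℂ) × ℂ → X} {p : ℂ → ℂ × ℂ} {s s' : ℂ → X}
  {K : Set ℂ}

theorem loc_sec (hπ : HolP π) (hp : Coord p) {x : X} {z₀ : ℂ} (hx : Reg π x)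
    (hz : Rep (p z₀) (π x)) : ∃ s : ℂ → X, s z₀ = x ∧ SecOn π p s {z₀} := by
  obtain ⟨b, hb⟩ := hp.exists_fun hπ
  obtain ⟨hb0, hb1, hb2⟩ := hb x z₀ hz
  obtain ⟨l', v, hl', hm⟩ := hx
  have hl : LiftAt π (fun y => p (b y)) x := ⟨hb1.post (hp.analytic _), hb2⟩
  have hm' := P290.moves_iff.1 ((hl'.moves_iff hl v).1 hm)
  have hv : dfn b x v ≠ 0 := fun h0 => hm' (by
    rw [dfn_post hb1 (hp.analytic _) v, h0, map_zero]
    simp)
  obtain ⟨c, hc, rfl, rfl⟩ := exists_curve x v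
  have hg : AnalyticAt ℂ (fun t => b (c t)) 0 := hb1.comp hc
  have hd : deriv (fun t => b (c t)) 0 ≠ 0 := by
    rw [← fderiv_apply_one_eq_deriv, dfn_comp hb1 hc]
    exact hv
  have ha := hg.analyticAt_localInverse hd
  have h0 : hg.hasStrictDerivAt.localInverse _ _ _ hd (b (c 0)) = 0 :=
    (hg.hasStrictDerivAt.eventually_left_inverse hd).self_of_nhds
  have hr := hg.hasStrictDerivAt.eventually_right_inverse hd
  rw [hb0] at ha h0 hr
  have hc' : Hol (fun w => c (hg.hasStrictDerivAt.localInverse _ _ _ hd w)) z₀ :=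
    Hol.comp (by rw [h0]; exact hc) ha
  refine ⟨fun w => c (hg.hasStrictDerivAt.localInverse _ _ _ hd w), congrArg c h0, fun z hz' => ?_⟩
  rw [mem_singleton_iff.1 hz']
  refine ⟨hc', ?_⟩
  have ht := hc'.cont.tendsto
  rw [h0] at ht
  filter_upwards [ht.eventually hb2, hr] with w k1 k2
  rwa [k2] at k1

theorem loc_inv (hσ : IsSympl σ) (hπ : HolP π) (hS : Spray σ π S) (hp : Coord p) {z₀ : ℂ}
    (hs : SecOn π p s {z₀}) (t₀ : ℂ) : ∃ H : X → ℂ × ℂ, HolF H (S (s z₀, p z₀, t₀)) ∧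
      (∀ᶠ v in 𝓝 (z₀, t₀), H (S (s v.1, p v.1, v.2)) = v) ∧
      ∀ᶠ y in 𝓝 (S (s z₀, p z₀, t₀)),
        Rep (p (H y).1) (π y) ∧ S (s (H y).1, p (H y).1, (H y).2) = y := by
  obtain ⟨h1, h2⟩ := hs z₀ rfl
  have hf : AnalyticAt ℂ (fun v : ℂ × ℂ => v.1) (z₀, t₀) := analyticAt_fst
  have hr : ∀ᶠ v in 𝓝 (z₀, t₀), Rep (p v.1) (π (s v.1)) := hf.continuousAt.tendsto.eventually h2
  have hG : Hol (fun v : ℂ × ℂ => S (s v.1, p v.1, v.2)) (z₀, t₀) :=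
    hS.hol_comp (Hol.comp (g := fun v : ℂ × ℂ => v.1) h1 hf) ((hp.analytic _).comp hf)
      analyticAt_snd hr
  have hr' : ∀ᶠ v in 𝓝 (z₀, t₀), Rep (p v.1) (π (S (s v.1, p v.1, v.2))) :=
    hr.mono fun v hv => by rwa [hS.fib _ _ _ hv]
  obtain ⟨b, hb⟩ := hp.exists_fun hπ
  obtain ⟨-, hb1, -⟩ := hb _ z₀ hr'.self_of_nhds
  have e1 : (fun v : ℂ × ℂ => b (S (s v.1, p v.1, v.2))) =ᶠ[𝓝 (z₀, t₀)] fun v => v.1 :=
    hr'.mono fun v hv => (hb _ _ hv).1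
  have e2 : ∀ u, dfn b (S (s z₀, p z₀, t₀))
      (dif (fun v : ℂ × ℂ => S (s v.1, p v.1, v.2)) (z₀, t₀) u) = u.1 := fun u => by
    rw [← dfn_comp (y := b) (f := fun v : ℂ × ℂ => S (s v.1, p v.1, v.2)) hb1 hG, e1.fderiv_eq,
      fderiv_fst]
    rfl
  have e3 : dif (fun v : ℂ × ℂ => S (s v.1, p v.1, v.2)) (z₀, t₀) (0, 1) =
      tv S (S (s z₀, p z₀, t₀)) (p z₀) := by
    rw [← hS.vel_eq h2.self_of_nhds, vel,
      dif_comp (f := fun v : ℂ × ℂ => S (s v.1, p v.1, v.2)) (g := fun t : ℂ => (z₀, t)) hG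
        (analyticAt_const.prod analyticAt_id), (hasFDerivAt_prodMk_right z₀ t₀).fderiv]
    rfl
  have hreg := (reg_iff hσ hπ hS hr'.self_of_nhds).1
    ((hs.reg hπ hp rfl).flow hσ hπ hS h2.self_of_nhds t₀)
  have hi : Function.Injective (dif (fun v : ℂ × ℂ => S (s v.1, p v.1, v.2)) (z₀, t₀)) := by
    refine (injective_iff_map_eq_zero _).2 fun u hu => ?_
    have u1 : u.1 = 0 := by rw [← e2 u, hu, map_zero]
    have u2 : u = u.2 • ((0, 1) : ℂ × ℂ) := Prod.ext (by simp [u1]) (by simp)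
    rw [u2, map_smul, e3, smul_eq_zero] at hu
    exact Prod.ext u1 (hu.resolve_right hreg)
  obtain ⟨H, k1, k2, k3⟩ := loc_inverse hG hi
  refine ⟨H, k1, k2, ?_⟩
  have ht := k1.continuousAt.tendsto
  rw [k2.self_of_nhds] at ht
  filter_upwards [k3, ht.eventually hr'] with y m1 m2
  exact ⟨by rwa [m1] at m2, m1⟩

theorem ELoc.data (hσ : IsSympl σ) (hπ : HolP π) (hS : Spray σ π S) {x : X} {q : ℂ × ℂ}
    (hx : Reg π x) (hq : Rep q (π x)) : ∀ᶠ y in 𝓝 x, Reg π y ∧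
      (Rep q (π y) → ∃ t, S (x, q, t) = y) := by
  obtain ⟨p, z, c, hp, -, hc, rfl⟩ := exists_coord hq.ne
  have hz : Rep (p z) (π x) := by
    have := hq.smul (inv_ne_zero hc)
    rwa [smul_smul, inv_mul_cancel₀ hc, one_smul] at this
  obtain ⟨s, rfl, hs⟩ := loc_sec hπ hp hx hz
  obtain ⟨H, k1, k2, k3⟩ := loc_inv hσ hπ hS hp hs 0
  have e := k2.self_of_nhds
  simp only [hS.zero _ _ hz] at k1 k3 e
  have ht := k1.continuousAt.tendsto
  rw [e] at ht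
  filter_upwards [k3, (continuous_fst.tendsto _ |>.comp ht).eventually hs.ev] with y m1 m2
  constructor
  · rw [← m1.2]
    exact (m2.reg hπ hp rfl).flow hσ hπ hS (m2 _ rfl).2.self_of_nhds _
  · intro hy
    have hy' : Rep (p z) (π y) := by
      have := hy.smul (inv_ne_zero hc)
      rwa [smul_smul, inv_mul_cancel₀ hc, one_smul] at this
    have := hp.inj m1.1 hy'
    refine ⟨(H y).2 / c ^ 2, ?_⟩
    rw [hS.smul _ _ c _ hz hc, mul_div_cancel₀ _ (pow_ne_zero 2 hc), ← this]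
    exact m1.2

theorem Reg.ev (hσ : IsSympl σ) (hπ : HolP π) (hS : Spray σ π S) {x : X} (hx : Reg π x) :
    ∀ᶠ y in 𝓝 x, Reg π y :=
  (ELoc.data hσ hπ hS hx (rep_rep _)).mono fun _ h => h.1

theorem orbit_nhds (hσ : IsSympl σ) (hπ : HolP π) (hS : Spray σ π S) {x : X} {q : ℂ × ℂ}
    (hx : Reg π x) (hq : Rep q (π x)) : ∀ᶠ y in 𝓝 x, Rep q (π y) → ∃ t, S (x, q, t) = y :=
  (ELoc.data hσ hπ hS hx hq).mono fun _ h => h.2

theorem trans_of_conn (hσ : IsSympl σ) (hπ : HolP π) (hS : Spray σ π S)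
    (hc : ∀ a, IsPreconnected {x | π x = a ∧ Reg π x}) (x y : X) (q : ℂ × ℂ) (hx : Rep q (π x))
    (hy : Rep q (π y)) (hx' : Reg π x) (hy' : Reg π y) : ∃ t, S (x, q, t) = y := by
  refine ((hc (π x)).induction₂ (fun a b => Rep q (π a) → Rep q (π b) → ∃ t, S (a, q, t) = b)
    (fun a ha => ?_) (fun a b c ha hb hc h1 h2 k1 k3 => ?_) (fun a b ha hb h k2 k1 => ?_)
    ⟨rfl, hx'⟩ ⟨hy.inj hx, hy'⟩) hx hy
  · exact mem_nhdsWithin_of_mem_nhds ((orbit_nhds hσ hπ hS ha.2 (ha.1 ▸ hx)).mono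
      fun _ h _ => h)
  · obtain ⟨t, ht⟩ := h1 k1 (hb.1 ▸ hx)
    obtain ⟨t', ht'⟩ := h2 (hb.1 ▸ hx) k3
    exact ⟨t + t', by rw [← hS.add a q t t' k1, ht, ht']⟩
  · obtain ⟨t, ht⟩ := h k1 k2
    exact ⟨-t, by rw [← ht, hS.add a q t (-t) k1, add_neg_cancel, hS.zero a q k1]⟩

end Vale.Agent.P290
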