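import Vale.Agent.P290G.ELoc

/-! Periods. -/

open Set Filter Metric Polynomial
open scoped Manifold ContDiff Topology

noncomputable section

namespace Vale.Agent.P290

variable {X : Type} [TopologicalSpace X] [ChartedSpace C2 X] [IsManifold 𝓘(ℂ, C2) ω X]
  {σ : Form2 X} {π : X → P1} {S : X × (ℂ × ℂ) × ℂ → X} {p : ℂ → ℂ × ℂ} {s s' : ℂ → X}
  {K : Set ℂ}

theorem Ell.mem_per (h : Ell σ π S) {x : X} {q : ℂ × ℂ} (hx : Rep q (π x)) (hr : Reg π x)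
    {t : ℂ} : t ∈ Per h.spr q ↔ S (x, q, t) = x := by
  refine ⟨fun ht => ht x hx hr, fun ht y hy hr' => ?_⟩
  obtain ⟨τ, rfl⟩ := h.trans x y q hx hy hr hr'
  rw [h.spr.add x q τ t hx, add_comm, ← h.spr.add x q t τ hx, ht]

theorem per_smul (hS : Spray σ π S) {c : ℂ} (hc : c ≠ 0) (q : ℂ × ℂ) (t : ℂ) :
    t ∈ Per hS (c • q) ↔ c ^ 2 * t ∈ Per hS q := by
  refine ⟨fun h x hx hr => ?_, fun h x hx hr => ?_⟩
  · rw [← hS.smul x q c t hx hc]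
    exact h x (hx.smul hc) hr
  · have h1 := hx.smul (inv_ne_zero hc)
    rw [inv_smul_smul₀ hc] at h1
    rw [hS.smul x q c t h1 hc]
    exact h x h1 hr

theorem Ell.exists_sec (h : Ell σ π S) (hp : Coord p) (z₀ : ℂ) :
    ∃ s : ℂ → X, SecOn π p s {z₀} := by
  obtain ⟨a, ha⟩ := exists_pt (hp.ne z₀)
  obtain ⟨x, rfl, hx⟩ := h.ex a
  obtain ⟨s, -, hs⟩ := loc_sec h.hol hp hx ha
  exact ⟨s, hs⟩

theorem EPer.ev (h : Ell σ π S) (hp : Coord p) {z₀ : ℂ} (hs : SecOn π p s {z₀}) :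
    ∀ᶠ w in 𝓝 z₀, Rep (p w) (π (s w)) ∧ ∀ t, t ∈ Per h.spr (p w) ↔ S (s w, p w, t) = s w := by
  filter_upwards [hs.ev] with w hw
  have h1 := (hw w rfl).2.self_of_nhds
  exact ⟨h1, fun t => h.mem_per h1 (hw.reg h.hol hp rfl)⟩

theorem Ell.short_loc (h : Ell σ π S) (hp : Coord p) (z₀ : ℂ) :
    ∃ ε > (0 : ℝ), ∀ᶠ z in 𝓝 z₀, ∀ t ∈ Per h.spr (p z), ‖t‖ < ε → t = 0 := by
  obtain ⟨s, hs⟩ := h.exists_sec hp z₀
  obtain ⟨H, -, h1, -⟩ := loc_inv h.sym h.hol h.spr hp hs 0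
  rw [nhds_prod_eq, eventually_prod_iff] at h1
  obtain ⟨pa, ha, pb, hb, h1⟩ := h1
  obtain ⟨ε, hε, h2⟩ := Metric.eventually_nhds_iff.1 hb
  refine ⟨ε, hε, ?_⟩
  filter_upwards [ha, EPer.ev h hp hs] with z hz hz' t ht hε'
  have h3 := h1 hz (h2 (y := t) (by rwa [dist_zero_right]))
  have h4 := h1 hz hb.self_of_nhds
  dsimp only at h3 h4
  rw [(hz'.2 t).1 ht] at h3
  rw [h.spr.zero _ _ hz'.1, h3] at h4
  exact congrArg Prod.snd h4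

theorem EPer.unif (h : Ell σ π S) (hp : Coord p) : ∃ ε > (0 : ℝ), ∀ z : ℂ, ‖z‖ ≤ 1 →
    ∀ t ∈ Per h.spr (p z), t ≠ 0 → ε ≤ ‖t‖ := by
  have h1 := (isCompact_closedBall (0 : ℂ) 1).eventually_forall_of_forall_eventually (x₀ := (0 : ℂ))
    (P := fun t z => t ∈ Per h.spr (p z) → t = 0) fun z₀ _ => by
      obtain ⟨ε, hε, h2⟩ := h.short_loc hp z₀
      filter_upwards [prod_mem_nhds (ball_mem_nhds (0 : ℂ) hε) h2] with v hv ht
      exact hv.2 _ ht (mem_ball_zero_iff.1 hv.1)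
  obtain ⟨ε, hε, h2⟩ := Metric.eventually_nhds_iff.1 h1
  refine ⟨ε, hε, fun z hz t ht h0 => not_lt.1 fun h3 => h0 ?_⟩
  exact h2 (by rwa [dist_zero_right]) z (mem_closedBall_zero_iff.2 hz) ht

theorem Ell.short (h : Ell σ π S) : ∃ ε > (0 : ℝ), ∀ z : ℂ, ∀ t ∈ Per h.spr (1, z), t ≠ 0 →
    ε ≤ (1 + ‖z‖) ^ 2 * ‖t‖ := by
  obtain ⟨ε₁, h1, h2⟩ := EPer.unif h (Or.inl rfl)
  obtain ⟨ε₂, h3, h4⟩ := EPer.unif h (Or.inr rfl)
  refine ⟨min ε₁ ε₂, lt_min h1 h3, fun z t ht h0 => ?_⟩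
  have hz0 := norm_nonneg z
  by_cases hz : ‖z‖ ≤ 1
  · exact (min_le_left _ _).trans ((h2 z hz t ht h0).trans
      (le_mul_of_one_le_left (norm_nonneg _) (by nlinarith)))
  · have h5 : z ≠ 0 := by
      rintro rfl
      simp at hz
    have h6 : ((1, z) : ℂ × ℂ) = z • (z⁻¹, 1) := by simp [h5]
    rw [h6, per_smul h.spr h5] at ht
    have h7 := h4 z⁻¹ (by rw [norm_inv]; exact inv_le_one_of_one_le₀ (not_le.1 hz).le) _ ht
      (mul_ne_zero (pow_ne_zero 2 h5) h0)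
    rw [norm_mul, norm_pow] at h7
    exact (min_le_right _ _).trans (h7.trans
      (mul_le_mul_of_nonneg_right (by nlinarith) (norm_nonneg _)))

theorem Ell.discrete (h : Ell σ π S) {q : ℂ × ℂ} (hq : q ≠ 0) :
    ∃ ε > (0 : ℝ), ∀ t ∈ Per h.spr q, ‖t‖ < ε → t = 0 := by
  obtain ⟨p, z, c, hp, -, hc, rfl⟩ := exists_coord hq
  obtain ⟨ε, hε, h1⟩ := h.short_loc hp z
  have h2 : 0 < ‖c‖ ^ 2 := pow_pos (norm_pos_iff.2 hc) 2
  refine ⟨ε / ‖c‖ ^ 2, div_pos hε h2, fun t ht h3 => ?_⟩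
  have h4 := h1.self_of_nhds _ ((per_smul h.spr hc _ t).1 ht) (by
    rw [norm_mul, norm_pow, mul_comm]
    exact (lt_div_iff₀ h2).1 h3)
  exact (mul_eq_zero.1 h4).resolve_left (pow_ne_zero 2 hc)

theorem Ell.per_lim [T2Space X] (h : Ell σ π S) (hp : Coord p) {z₀ t₀ : ℂ}
    (hm : ∃ᶠ v in 𝓝 (z₀, t₀), v.2 ∈ Per h.spr (p v.1)) : t₀ ∈ Per h.spr (p z₀) := by
  obtain ⟨s, hs⟩ := h.exists_sec hp z₀
  have h1 := EPer.ev h hp hs
  have h2 : ∀ᶠ v : ℂ × ℂ in 𝓝 (z₀, t₀), _ := continuousAt_fst.eventually h1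
  have h3 : Hol (fun v : ℂ × ℂ => s v.1) (z₀, t₀) := Hol.comp (hs z₀ rfl).1 analyticAt_fst
  have h4 : Hol (fun v : ℂ × ℂ => S (s v.1, p v.1, v.2)) (z₀, t₀) :=
    h.spr.hol_comp h3 ((hp.analytic z₀).comp_of_eq analyticAt_fst rfl) analyticAt_snd
      (h2.mono fun _ hv => hv.1)
  exact (h1.self_of_nhds.2 t₀).2 (tendsto_nhds_unique_of_frequently_eq h4.cont h3.cont
    ((hm.and_eventually h2).mono fun v hv => (hv.2.2 _).1 hv.1))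

theorem Ell.per_ext (h : Ell σ π S) (hp : Coord p) {z₀ t₀ : ℂ} (ht : t₀ ∈ Per h.spr (p z₀)) :
    ∃ f : ℂ → ℂ, AnalyticAt ℂ f z₀ ∧ f z₀ = t₀ ∧ ∀ᶠ w in 𝓝 z₀, f w ∈ Per h.spr (p w) := by
  obtain ⟨s, hs⟩ := h.exists_sec hp z₀
  have h1 := EPer.ev h hp hs
  obtain ⟨H, h2, h3, h4⟩ := loc_inv h.sym h.hol h.spr hp hs t₀
  have h5 := h3.self_of_nhds
  dsimp only at h5
  rw [(h1.self_of_nhds.2 t₀).1 ht] at h2 h4 h5
  refine ⟨fun w => (H (s w)).2, analyticAt_snd.comp (h2.comp (hs z₀ rfl).1), congrArg Prod.snd h5,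
    ?_⟩
  filter_upwards [h1, (hs z₀ rfl).1.cont.eventually h4] with w hw hw'
  have h6 := hw'.2
  rw [hp.inj hw'.1 hw.1] at h6
  exact (hw.2 _).2 h6

theorem EPer.le {X' : Type} [TopologicalSpace X'] [ChartedSpace C2 X']
    [IsManifold 𝓘(ℂ, C2) ω X'] [T2Space X'] {σ' : Form2 X'} {π' : X' → P1}
    {S' : X' × (ℂ × ℂ) × ℂ → X'} (h : Ell σ π S) (h' : Ell σ' π' S') {D : Set ℂ} (hD : D.Finite)
    (he : ∀ z ∉ D, Per h.spr (1, z) = Per h'.spr (1, z)) (q : ℂ × ℂ) :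
    Per h.spr q ≤ Per h'.spr q := by
  intro t ht
  by_cases hq : q = 0
  · exact fun x hx => absurd hq hx.ne
  obtain ⟨p, z, c, hp, -, hc, rfl⟩ := exists_coord hq
  rw [per_smul _ hc] at ht ⊢
  obtain ⟨D', hD', he'⟩ : ∃ D' : Set ℂ, D'.Finite ∧
      ∀ w ∉ D', ∀ u ∈ Per h.spr (p w), u ∈ Per h'.spr (p w) := by
    rcases hp with rfl | rfl
    · exact ⟨D, hD, fun w hw u hu => he w hw ▸ hu⟩
    · refine ⟨insert 0 ((fun w => w⁻¹) '' D), (hD.image _).insert 0, fun w hw u hu => ?_⟩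
      have h5 : w ≠ 0 := fun e => hw (Or.inl e)
      have h6 : ((w, 1) : ℂ × ℂ) = w • (1, w⁻¹) := by simp [h5]
      dsimp only at hu ⊢
      rw [h6, per_smul _ h5] at hu ⊢
      exact he w⁻¹ (fun e => hw (Or.inr ⟨_, e, inv_inv w⟩)) ▸ hu
  obtain ⟨f, hf, h0, h1⟩ := h.per_ext hp ht
  have h2 : Tendsto (fun w => (w, f w)) (𝓝[≠] z) (𝓝 (z, c ^ 2 * t)) :=
    h0 ▸ (continuousAt_id.prodMk hf.continuousAt).mono_left nhdsWithin_le_nhds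
  refine h'.per_lim hp (h2.frequently (Eventually.frequently ?_))
  filter_upwards [h1.filter_mono nhdsWithin_le_nhds,
    hD'.eventually_cofinite_notMem.filter_mono (nhdsNE_le_cofinite z)] with w hw hw'
  exact he' w hw' _ hw

theorem per_eq [T2Space X] {X' : Type} [TopologicalSpace X'] [ChartedSpace C2 X']
    [IsManifold 𝓘(ℂ, C2) ω X'] [T2Space X'] {σ' : Form2 X'} {π' : X' → P1}
    {S' : X' × (ℂ × ℂ) × ℂ → X'} (h : Ell σ π S) (h' : Ell σ' π' S') {D : Set ℂ} (hD : D.Finite)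
    (he : ∀ z ∉ D, Per h.spr (1, z) = Per h'.spr (1, z)) (q : ℂ × ℂ) :
    Per h.spr q = Per h'.spr q :=
  le_antisymm (EPer.le h h' hD he q) (EPer.le h' h hD (fun z hz => (he z hz).symm) q)

end Vale.Agent.P290
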