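import Vale.Agent.P290G.PF1

/-! Bases and logarithms on convex sets. -/

open Set Filter Metric Polynomial
open scoped Manifold ContDiff Topology

noncomputable section

namespace Vale.Agent.P290

variable {Λ : ℂ → AddSubgroup ℂ} {ω₁ ω₂ η₁ η₂ ν ν' : ℂ → ℂ} {K : Set ℂ}

namespace PF2

theorem mono {S : Set ℂ} (h : Bas Λ ω₁ ω₂ K) (hS : S ⊆ K) : Bas Λ ω₁ ω₂ S :=
  fun z hz => h z (hS hz)

theorem congr (h : Bas Λ ω₁ ω₂ K) (he : ∀ᶠ w in 𝓝ˢ K, η₁ w = ω₁ w ∧ η₂ w = ω₂ w) :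
    Bas Λ η₁ η₂ K := by
  intro z hz
  obtain ⟨h1, h2, h3⟩ := h z hz
  have he' : ∀ᶠ w in 𝓝 z, η₁ w = ω₁ w ∧ η₂ w = ω₂ w :=
    he.filter_mono (nhds_le_nhdsSet hz)
  refine ⟨h1.congr (he'.mono fun w hw => hw.1.symm), h2.congr (he'.mono fun w hw => hw.2.symm), ?_⟩
  filter_upwards [h3, he'] with w hw hw'
  rw [hw'.1, hw'.2]
  exact hw

theorem union {S : Set ℂ} (h : Bas Λ ω₁ ω₂ K) (h' : Bas Λ ω₁ ω₂ S) : Bas Λ ω₁ ω₂ (K ∪ S) :=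
  fun z hz => hz.elim (h z) (h' z)

theorem triv_ev (h : LocTriv Λ K) {z : ℂ} (hz : z ∈ K) :
    ∀ᶠ w in 𝓝 z, ∃ ω₁ ω₂, Bas Λ ω₁ ω₂ {w} := by
  obtain ⟨ω₁, ω₂, hb⟩ := h z hz
  exact hb.ev.mono fun w hw => ⟨ω₁, ω₂, hw⟩

end PF2

theorem bas_convex (hK : IsCompact K) (hc : Convex ℝ K) (h : LocTriv Λ K) :
    ∃ ω₁ ω₂, Bas Λ ω₁ ω₂ K := by
  have hU : {z | ∃ ω₁ ω₂, Bas Λ ω₁ ω₂ {z}} ∈ 𝓝ˢ K :=
    mem_nhdsSet_iff_forall.2 fun z hz => PF2.triv_ev h hz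
  refine (patch hK hc hU (fun S => ∃ ω₁ ω₂, Bas Λ ω₁ ω₂ S)
    ⟨0, 0, fun z hz => absurd hz (notMem_empty z)⟩ (fun z hz => ?_)
    fun S₁ S₂ k₁ k₂ c₁ c₂ _ _ q₁ q₂ => ?_).elim
    fun P ⟨hP, ω₁, ω₂, hb⟩ => ⟨ω₁, ω₂, PF2.mono hb hP⟩
  · obtain ⟨ω₁, ω₂, hb⟩ := hz
    exact ⟨_, hb.ev, fun S hS => ⟨ω₁, ω₂, fun w hw => hS hw w rfl⟩⟩
  · obtain ⟨ω₁, ω₂, hb⟩ := q₁
    obtain ⟨η₁, η₂, hb'⟩ := q₂
    obtain ⟨a, b, c, d, hd, he⟩ := (PF2.mono hb inter_subset_left).change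
      (PF2.mono hb' inter_subset_right) (c₁.inter c₂).isPreconnected
    obtain ⟨f, f₁, f₂⟩ := glue2 k₁.isClosed k₂.isClosed
      (f₁ := fun w => ((a * ω₁ w + b * ω₂ w, c * ω₁ w + d * ω₂ w) : ℂ × ℂ))
      (f₂ := fun w => (η₁ w, η₂ w)) (he.mono fun w hw => by rw [hw.1, hw.2])
    refine ⟨fun w => (f w).1, fun w => (f w).2, PF2.union (PF2.congr (hb.of_det hd) ?_)
      (PF2.congr hb' ?_)⟩
    · exact f₁.mono fun w hw => by rw [hw]; exact ⟨rfl, rfl⟩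
    · exact f₂.mono fun w hw => by rw [hw]; exact ⟨rfl, rfl⟩

theorem bas_extend (hK : IsCompact K) (hc : Convex ℝ K) (h : LocTriv Λ K) {z₀ : ℂ} (hz : z₀ ∈ K)
    (hb : Bas Λ ω₁ ω₂ {z₀}) :
    ∃ η₁ η₂, Bas Λ η₁ η₂ K ∧ ∀ᶠ w in 𝓝 z₀, η₁ w = ω₁ w ∧ η₂ w = ω₂ w := by
  obtain ⟨θ₁, θ₂, hθ⟩ := bas_convex hK hc h
  obtain ⟨a, b, c, d, hd, he⟩ := (PF2.mono hθ (singleton_subset_iff.2 hz)).change hb
    isPreconnected_singleton
  rw [nhdsSet_singleton] at he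
  exact ⟨_, _, hθ.of_det hd, he.mono fun w hw => ⟨hw.1.symm, hw.2.symm⟩⟩

theorem log_convex (hK : IsCompact K) (hc : Convex ℝ K) (h : LocTriv Λ K) (hν : ASec Λ ν K) :
    ∃ c : ℂ → ℂ, AnalyticOnNhd ℂ c K ∧ ∀ᶠ w in 𝓝ˢ K, ν w - c w ∈ Λ w := by
  have hU : {z | (∃ ω₁ ω₂, Bas Λ ω₁ ω₂ {z}) ∧ ASec Λ ν {z}} ∈ 𝓝ˢ K :=
    mem_nhdsSet_iff_forall.2 fun z hz => (PF2.triv_ev h hz).and
      (ASec.ev (z := z) fun w hw => hν w (by rw [mem_singleton_iff.1 hw]; exact hz))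
  refine (patch hK hc hU
    (fun S => ∃ c : ℂ → ℂ, AnalyticOnNhd ℂ c S ∧ ∀ᶠ w in 𝓝ˢ S, ν w - c w ∈ Λ w)
    ⟨0, fun z hz => absurd hz (notMem_empty z), by simp⟩ (fun z hz => ?_)
    fun S₁ S₂ k₁ k₂ c₁ c₂ hS _ q₁ q₂ => ?_).elim
    fun P ⟨hP, c, hc1, hc2⟩ => ⟨c, hc1.mono hP, hc2.filter_mono (nhdsSet_mono hP)⟩
  · obtain ⟨c, hc1, hc2⟩ := hz.2 z rfl
    refine ⟨_, hc1.eventually_analyticAt.and hc2.eventually_nhds, fun S hS => ⟨c, fun w hw => ?_,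
      eventually_nhdsSet_iff_forall.2 fun w hw => ?_⟩⟩
    · exact (hS hw).1
    · exact (hS hw).2
  · obtain ⟨f, f1, f2⟩ := q₁
    obtain ⟨g, g1, g2⟩ := q₂
    obtain ⟨ω₁, ω₂, hb⟩ := bas_convex (Λ := Λ) k₂ c₂ fun z hz => (hS (Or.inr hz)).1
    obtain ⟨m, n, he⟩ := (PF2.mono hb (inter_subset_right (s := S₁))).int_const
      (c₁.inter c₂).isPreconnected (f := fun w => f w - g w)
      ((f1.mono inter_subset_left).sub (g1.mono inter_subset_right)) (by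
        filter_upwards [f2.filter_mono (nhdsSet_mono inter_subset_left),
          g2.filter_mono (nhdsSet_mono inter_subset_right)] with w h1 h2
        have := (Λ w).sub_mem h2 h1
        rwa [show ν w - g w - (ν w - f w) = f w - g w by ring] at this)
    obtain ⟨k, e₁, e₂⟩ := glue2 k₁.isClosed k₂.isClosed (f₁ := f)
      (f₂ := fun w => g w + (m * ω₁ w + n * ω₂ w)) (he.mono fun w hw => by rw [← hw]; ring)
    refine ⟨k, fun z hz => ?_, ?_⟩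
    · rcases hz with hz | hz
      · exact (f1 z hz).congr ((e₁.filter_mono (nhds_le_nhdsSet hz)).mono fun w hw => hw.symm)
      · have : AnalyticAt ℂ (fun w => g w + (m * ω₁ w + n * ω₂ w)) z :=
          (g1 z hz).add ((analyticAt_const.mul (hb z hz).1).add
            (analyticAt_const.mul (hb z hz).2.1))
        exact this.congr ((e₂.filter_mono (nhds_le_nhdsSet hz)).mono fun w hw => hw.symm)
    · rw [nhdsSet_union, eventually_sup]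
      constructor
      · filter_upwards [e₁, f2] with w h1 h2
        rwa [h1]
      · filter_upwards [e₂, g2, hb.mem m n] with w h1 h2 h3
        have := (Λ w).sub_mem h2 h3
        rw [h1]
        rwa [show ν w - (g w + (m * ω₁ w + n * ω₂ w)) = ν w - g w - (m * ω₁ w + n * ω₂ w) by ring]

end Vale.Agent.P290
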