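import Vale.Agent.P290G.EPer
import Vale.Agent.P290G.PF2
import Vale.Agent.P290G.BisAv

/-! Sections over discs. -/

open Set Filter Metric Polynomial
open scoped Manifold ContDiff Topology

noncomputable section

namespace Vale.Agent.P290

variable {X : Type} [TopologicalSpace X] [ChartedSpace C2 X] [IsManifold 𝓘(ℂ, C2) ω X]
  {σ : Form2 X} {π : X → P1} {S : X × (ℂ × ℂ) × ℂ → X} {p : ℂ → ℂ × ℂ} {s s' : ℂ → X}
  {K : Set ℂ}

namespace ESec

omit [IsManifold 𝓘(ℂ, C2) ω X] in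
theorem one (hs : SecOn π p s K) {z : ℂ} (hz : z ∈ K) : SecOn π p s {z} := fun w hw => by
  rw [mem_singleton_iff.1 hw]
  exact hs z hz

theorem good (h : Ell σ π S) (hp : Coord p) (hs : SecOn π p s K) {z : ℂ} (hz : z ∈ K) :
    ∀ᶠ w in 𝓝 z, Rep (p w) (π (s w)) ∧ Reg π (s w) :=
  (hs z hz).2.and ((one hs hz).ev.mono fun _ hw => hw.reg h.hol hp rfl)

theorem congr (hs : SecOn π p s K) (e : ∀ᶠ w in 𝓝ˢ K, s' w = s w) : SecOn π p s' K := by
  intro z hz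
  have e' : ∀ᶠ w in 𝓝 z, s' w = s w := eventually_nhdsSet_iff_forall.1 e z hz
  refine ⟨(hs z hz).1.congr e', ?_⟩
  filter_upwards [(hs z hz).2, e'] with w h1 h2
  rwa [h2]

omit [IsManifold 𝓘(ℂ, C2) ω X] in
theorem move (h : Ell σ π S) {x : X} {q : ℂ × ℂ} (hx : Rep q (π x)) (hr : Reg π x) {a b : ℂ}
    (hab : a - b ∈ Per h.spr q) : S (x, q, a) = S (x, q, b) := by
  have h1 := h.spr.add x q (a - b) b hx
  rw [hab x hx hr, sub_add_cancel] at h1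
  exact h1.symm

end ESec

theorem Ell.diff_asec (h : Ell σ π S) (hp : Coord p) (hs : SecOn π p s K) (hs' : SecOn π p s' K) :
    ∃ ν, ASec (fun z => Per h.spr (p z)) ν K ∧ ∀ᶠ w in 𝓝ˢ K, S (s w, p w, ν w) = s' w := by
  classical
  let ν : ℂ → ℂ := fun w => if e : ∃ t, S (s w, p w, t) = s' w then e.choose else 0
  have h1 : ∀ z ∈ K, ∀ᶠ w in 𝓝 z, S (s w, p w, ν w) = s' w := fun z hz => by
    filter_upwards [ESec.good h hp hs hz, ESec.good h hp hs' hz] with w h2 h3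
    have e := h.trans _ _ _ h2.1 h3.1 h2.2 h3.2
    simp only [ν, dif_pos e]
    exact e.choose_spec
  refine ⟨ν, fun z hz => ?_, eventually_nhdsSet_iff_forall.2 h1⟩
  obtain ⟨H, h2, -, h3⟩ := loc_inv h.sym h.hol h.spr hp (ESec.one hs hz) (ν z)
  rw [(h1 z hz).self_of_nhds] at h2 h3
  refine ⟨fun w => (H (s' w)).2, analyticAt_snd.comp (h2.comp (hs' z hz).1), ?_⟩
  filter_upwards [ESec.good h hp hs hz, ESec.good h hp hs' hz, h1 z hz,
    (hs' z hz).1.cont.eventually h3] with w h4 h5 h6 h7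
  obtain ⟨h8, h9⟩ := h7
  rw [hp.inj h8 h5.1] at h9
  rw [h.mem_per h5.1 h5.2]
  have h10 := h.spr.add (s w) (p w) (H (s' w)).2 (ν w - (H (s' w)).2) h4.1
  rwa [h9, add_sub_cancel, h6] at h10

theorem Ell.act_asec (h : Ell σ π S) (hp : Coord p) (hs : SecOn π p s K) {ν : ℂ → ℂ}
    (hν : ASec (fun z => Per h.spr (p z)) ν K) :
    SecOn π p (fun w => S (s w, p w, ν w)) K := by
  intro z hz
  obtain ⟨c, hc, he⟩ := hν z hz
  refine ⟨(h.spr.hol_comp (hs z hz).1 (hp.analytic z) hc (hs z hz).2).congr ?_, ?_⟩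
  · filter_upwards [ESec.good h hp hs hz, he] with w h1 h2
    exact ESec.move h h1.1 h1.2 h2
  · filter_upwards [(hs z hz).2] with w h1
    rwa [h.spr.fib _ _ _ h1]

theorem Ell.sec_ball (h : Ell σ π S) (hp : Coord p) {D : Set ℂ} (hD : D.Finite)
    (hT : LocTriv (fun z => Per h.spr (p z)) Dᶜ) (M : ℝ) :
    ∃ s : ℂ → X, SecOn π p s (closedBall 0 M) := by
  obtain ⟨P, h1, s, hs⟩ := patch_av hD M (fun T => ∃ s : ℂ → X, SecOn π p s T) (fun z => by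
    obtain ⟨s, hs⟩ := h.exists_sec hp z
    exact ⟨_, hs.ev, fun T hT => ⟨s, fun w hw => hT hw w rfl⟩⟩) (by
    rintro S₁ S₂ k₁ k₂ c₁ c₂ hd hsp ⟨s₁, h₁⟩ ⟨s₂, h₂⟩
    have h₁' : SecOn π p s₁ (S₁ ∩ S₂) := fun z hz => h₁ z hz.1
    have h₂' : SecOn π p s₂ (S₁ ∩ S₂) := fun z hz => h₂ z hz.2
    obtain ⟨ν, hν, e₁⟩ := h.diff_asec hp h₁' h₂'
    obtain ⟨c, hc, e₂⟩ := log_convex (k₁.inter_right k₂.isClosed) (c₁.inter c₂)
      (fun z hz => hT z (hd.notMem_of_mem_left hz)) hν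
    obtain ⟨a, b, ha, hb, e₃⟩ := hsp c hc
    obtain ⟨f, f₁, f₂⟩ := glue2 k₁.isClosed k₂.isClosed (f₁ := fun w => S (s₁ w, p w, a w))
      (f₂ := fun w => S (s₂ w, p w, b w)) (by
        filter_upwards [e₁, e₂, e₃,
          eventually_nhdsSet_iff_forall.2 fun z hz => ESec.good h hp h₁' hz] with w g₁ g₂ g₃ g₄
        rw [← g₁, ESec.move h g₄.1 g₄.2 g₂, h.spr.add _ _ _ _ g₄.1, g₃, sub_add_cancel])
    refine ⟨f, fun z hz => hz.elim (fun hz => ?_) fun hz => ?_⟩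
    · exact ESec.congr (h.act_asec hp h₁ (asec_of_analytic ha)) f₁ z hz
    · exact ESec.congr (h.act_asec hp h₂ (asec_of_analytic hb)) f₂ z hz)
  exact ⟨s, fun z hz => hs z (h1 hz)⟩

end Vale.Agent.P290
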