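import Vale.Agent.P290G.Defs

/-! Analytic dependence on the lattice. -/

open Set Filter Metric Polynomial
open scoped Manifold ContDiff Topology

noncomputable section

namespace Vale.Agent.P290

variable {Λ : ℂ → AddSubgroup ℂ} {ω₁ ω₂ η₁ η₂ ν ν' : ℂ → ℂ} {K : Set ℂ}

namespace WP5

theorem reindex {L L' : PeriodPair} (h : L.lattice = L'.lattice) (f : ℂ → ℂ) :
    ∑' l : L.lattice, f l = ∑' x : ℤ × ℤ, f (x.1 * L'.ω₁ + x.2 * L'.ω₂) := by
  rw [h, ← L'.latticeEquivProd.symm.toEquiv.tsum_eq]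
  simp only [LinearEquiv.coe_toEquiv, PeriodPair.latticeEquiv_symm_apply]

theorem coord (L : PeriodPair) : ∃ K : ℝ, 0 < K ∧ ∀ x : ℤ × ℤ,
    |(x.1 : ℝ)| + |(x.2 : ℝ)| ≤ K * ‖x.1 * L.ω₁ + x.2 * L.ω₂‖ := by
  obtain ⟨A, hA, h1⟩ := (LinearMap.toContinuousLinearMap (L.basis.coord 0)).bound
  obtain ⟨B, hB, h2⟩ := (LinearMap.toContinuousLinearMap (L.basis.coord 1)).bound
  refine ⟨A + B, by positivity, fun x => ?_⟩
  have h3 : x.1 * L.ω₁ + x.2 * L.ω₂ = (x.1 : ℝ) • L.basis 0 + (x.2 : ℝ) • L.basis 1 := by simp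
  have h4 := h1 (x.1 * L.ω₁ + x.2 * L.ω₂)
  have h5 := h2 (x.1 * L.ω₁ + x.2 * L.ω₂)
  rw [LinearMap.coe_toContinuousLinearMap', Module.Basis.coord_apply] at h4 h5
  nth_rw 1 [h3] at h4 h5
  simp only [map_add, map_smul, Module.Basis.repr_self, Finsupp.coe_add, Finsupp.coe_smul,
    Pi.add_apply, Pi.smul_apply, Finsupp.single_eq_same, smul_eq_mul, mul_one, ne_eq,
    zero_ne_one, one_ne_zero, not_false_eq_true, Finsupp.single_eq_of_ne, mul_zero, add_zero,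
    zero_add, Real.norm_eq_abs] at h4 h5
  linarith

theorem summ (L : PeriodPair) :
    Summable fun x : ℤ × ℤ => ‖x.1 * L.ω₁ + x.2 * L.ω₂‖ ^ (-3 : ℝ) := by
  have h := L.latticeEquivProd.symm.toEquiv.summable_iff.2
    (ZLattice.summable_norm_rpow L.lattice (-3) (by simp; norm_num))
  refine h.congr fun x => ?_
  rw [← L.latticeEquiv_symm_apply]
  rfl

theorem far (L : PeriodPair) :
    Tendsto (fun x : ℤ × ℤ => ‖x.1 * L.ω₁ + x.2 * L.ω₂‖) cofinite atTop := by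
  have h := tendsto_norm_cocompact_atTop (E := L.lattice)
  rw [cocompact_eq_cofinite] at h
  refine (h.comp L.latticeEquivProd.symm.injective.tendsto_cofinite).congr fun x => ?_
  rw [← L.latticeEquiv_symm_apply]
  rfl

theorem low {z₀ : ℂ} (L : PeriodPair) (h1 : Tendsto ω₁ (𝓝 z₀) (𝓝 L.ω₁))
    (h2 : Tendsto ω₂ (𝓝 z₀) (𝓝 L.ω₂)) : ∀ᶠ z in 𝓝 z₀, ∀ x : ℤ × ℤ,
      ‖x.1 * L.ω₁ + x.2 * L.ω₂‖ ≤ 2 * ‖x.1 * ω₁ z + x.2 * ω₂ z‖ := by
  obtain ⟨K, hK, h⟩ := coord L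
  have hδ : 0 < (2 * K)⁻¹ := by positivity
  filter_upwards [Metric.tendsto_nhds.1 h1 _ hδ, Metric.tendsto_nhds.1 h2 _ hδ] with z h3 h4 x
  rw [dist_comm, dist_eq_norm] at h3 h4
  have h5 : x.1 * L.ω₁ + x.2 * L.ω₂ =
      x.1 * ω₁ z + x.2 * ω₂ z + x.1 * (L.ω₁ - ω₁ z) + x.2 * (L.ω₂ - ω₂ z) := by ring
  have h6 := (congrArg norm h5).trans_le norm_add₃_le
  rw [norm_mul, norm_mul, Complex.norm_intCast, Complex.norm_intCast] at h6
  have h7 := mul_le_mul_of_nonneg_left h3.le (abs_nonneg (x.1 : ℝ))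
  have h8 := mul_le_mul_of_nonneg_left h4.le (abs_nonneg (x.2 : ℝ))
  have h9 := mul_le_mul_of_nonneg_right (h x) hδ.le
  rw [mul_right_comm, show K * (2 * K)⁻¹ = 1 / 2 by field_simp] at h9
  linarith

theorem key {z₀ : ℂ} {c : ℂ → ℂ} {t : ℂ → ℂ → ℂ} {C : ℝ} (hb : Bas Λ ω₁ ω₂ {z₀})
    (hc : AnalyticAt ℂ c z₀) (h0 : c z₀ ∉ Λ z₀) (hC : 0 ≤ C)
    (ht : ∀ s l, ‖s‖ < ‖c z₀‖ + 1 → 2 * (‖c z₀‖ + 1) ≤ ‖l‖ → ‖t s l‖ ≤ C * ‖l‖ ^ (-3 : ℝ))
    (hd : ∀ (g : ℂ → ℂ) z, DifferentiableAt ℂ c z → DifferentiableAt ℂ g z → c z - g z ≠ 0 →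
      g z ≠ 0 ∨ (g = fun _ => 0) → DifferentiableAt ℂ (fun z => t (c z) (g z)) z) :
    AnalyticAt ℂ (fun z => ∑' x : ℤ × ℤ, t (c z) (x.1 * ω₁ z + x.2 * ω₂ z)) z₀ := by
  obtain ⟨h1, h2, h3⟩ := hb z₀ rfl
  obtain ⟨h3, h4⟩ := h3.self_of_nhds
  have hB := eventually_cofinite.1
    ((far ⟨ω₁ z₀, ω₂ z₀, h3⟩).eventually_ge_atTop (4 * (‖c z₀‖ + 1)))
  obtain ⟨K, hK, hK'⟩ := coord ⟨ω₁ z₀, ω₂ z₀, h3⟩
  have e1 := low ⟨ω₁ z₀, ω₂ z₀, h3⟩ h1.continuousAt h2.continuousAt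
  have e2 := hc.continuousAt.norm.eventually_lt continuousAt_const (lt_add_one ‖c z₀‖)
  have e3 := (eventually_all_finite hB).2 fun x _ =>
    (hc.continuousAt.sub ((continuousAt_const.mul h1.continuousAt).add
      (continuousAt_const.mul h2.continuousAt))).eventually_ne
        (sub_ne_zero.2 fun h => h0 ((h4 _).2 ⟨x.1, x.2, h.symm⟩))
  obtain ⟨U, hU, hO, hz⟩ := _root_.eventually_nhds_iff.1 (e1.and (e2.and (e3.and
    (hc.eventually_analyticAt.and (h1.eventually_analyticAt.and h2.eventually_analyticAt)))))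
  simp only at hB hK' hU
  refine DifferentiableOn.analyticAt ?_ (hO.mem_nhds hz)
  refine (tendstoUniformlyOn_tsum_of_cofinite_eventually
    ((summ ⟨ω₁ z₀, ω₂ z₀, h3⟩).mul_left (C * 8)) ?_).tendstoLocallyUniformlyOn.differentiableOn
    (Eventually.of_forall fun s => DifferentiableOn.fun_sum fun x _ z hz =>
      DifferentiableAt.differentiableWithinAt ?_) hO
  · refine eventually_cofinite.2 (hB.subset fun x hx h5 => hx fun z hz => ?_)
    have h6 := (hU z hz).1 x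
    have h7 : 0 < ‖c z₀‖ + 1 := by positivity
    refine (ht _ _ (hU z hz).2.1 (by linarith)).trans ?_
    rw [mul_assoc]
    refine mul_le_mul_of_nonneg_left ?_ hC
    have h8 := Real.rpow_le_rpow_of_nonpos (z := -3) (by linarith)
      ((div_le_iff₀' two_pos).2 h6) (by norm_num)
    rw [Real.div_rpow (norm_nonneg _) zero_le_two] at h8
    norm_num at h8 ⊢
    linarith
  · obtain ⟨h5, h6, h7, h8, h9, h10⟩ := hU z hz
    refine hd (fun z => x.1 * ω₁ z + x.2 * ω₂ z) z h8.differentiableAt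
      ((h9.differentiableAt.const_mul _).fun_add (h10.differentiableAt.const_mul _)) ?_ ?_
    · by_cases hx : 4 * (‖c z₀‖ + 1) ≤ ‖x.1 * ω₁ z₀ + x.2 * ω₂ z₀‖
      · refine sub_ne_zero.2 fun h => ?_
        have h11 := h5 x
        rw [← h] at h11
        linarith [norm_nonneg (c z₀)]
      · exact h7 x hx
    · refine or_iff_not_imp_left.2 fun h => ?_
      have h11 := h5 x
      have h12 := hK' x
      rw [not_not.1 h, norm_zero, mul_zero] at h11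
      rw [norm_le_zero_iff.1 h11, norm_zero, mul_zero] at h12
      have h13 : (x.1 : ℝ) = 0 := abs_nonpos_iff.1 (by linarith [abs_nonneg (x.2 : ℝ)])
      have h14 : (x.2 : ℝ) = 0 := abs_nonpos_iff.1 (by linarith [abs_nonneg (x.1 : ℝ)])
      funext w
      rw [Int.cast_eq_zero.1 h13, Int.cast_eq_zero.1 h14]
      simp

theorem bound' {r : ℝ} {s l : ℂ} (hs : ‖s‖ < r) (h : 2 * r ≤ ‖l‖) :
    ‖2 / (s - l) ^ 3‖ ≤ 16 * ‖l‖ ^ (-3 : ℝ) := by
  have h0 := norm_nonneg s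
  have h1 := norm_sub_norm_le l s
  have h2 : 0 < ‖l‖ := by linarith
  have h3 := pow_le_pow_left₀ h2.le (show ‖l‖ ≤ 2 * ‖l - s‖ by linarith) 3
  rw [norm_div, norm_pow, Complex.norm_ofNat, norm_sub_rev, Real.rpow_neg h2.le, ← div_eq_mul_inv,
    show (3 : ℝ) = (3 : ℕ) by norm_num, Real.rpow_natCast,
    div_le_div_iff₀ (pow_pos (by linarith) 3) (pow_pos h2 3)]
  linarith

end WP5

theorem wp_analytic {z₀ : ℂ} (hb : Bas Λ ω₁ ω₂ {z₀}) {L : ℂ → PeriodPair}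
    (hL : ∀ᶠ z in 𝓝 z₀, (Λ z : Set ℂ) = (L z).lattice) {c : ℂ → ℂ} (hc : AnalyticAt ℂ c z₀)
    (h0 : c z₀ ∉ Λ z₀) : AnalyticAt ℂ (fun z => (L z).weierstrassP (c z)) z₀ ∧
      AnalyticAt ℂ (fun z => (L z).derivWeierstrassP (c z)) z₀ := by
  have he : ∀ᶠ z in 𝓝 z₀, ∀ f : ℂ → ℂ, ∑' l : (L z).lattice, f l =
      ∑' x : ℤ × ℤ, f (x.1 * ω₁ z + x.2 * ω₂ z) := by
    filter_upwards [hL, (hb z₀ rfl).2.2] with z h1 h2 f
    refine WP5.reindex (L' := ⟨ω₁ z, ω₂ z, h2.1⟩) (Submodule.ext fun w => ?_) f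
    rw [← SetLike.mem_coe, ← h1, SetLike.mem_coe, h2.2, PeriodPair.mem_lattice]
  have hr : 0 < ‖c z₀‖ + 1 := by positivity
  constructor
  · refine (WP5.key (t := fun s l => 1 / (s - l) ^ 2 - 1 / l ^ 2) (C := 10 * (‖c z₀‖ + 1)) hb hc h0
      (by positivity) (fun s l h1 h2 => PeriodPair.weierstrassP_bound _ hr s h1 l h2)
      fun g z h1 h2 h3 h4 => ?_).congr ?_
    · refine ((differentiableAt_const _).fun_div ((h1.fun_sub h2).fun_pow 2)
        (pow_ne_zero 2 h3)).fun_sub ?_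
      obtain h4 | rfl := h4
      · exact (differentiableAt_const _).fun_div (h2.fun_pow 2) (pow_ne_zero 2 h4)
      · exact differentiableAt_const _
    · filter_upwards [he] with z h
      exact (h fun l => 1 / (c z - l) ^ 2 - 1 / l ^ 2).symm
  · refine (WP5.key (t := fun s l => 2 / (s - l) ^ 3) (C := 16) hb hc h0
      (by norm_num) (fun s l h1 h2 => WP5.bound' h1 h2) fun g z h1 h2 h3 _ =>
        (differentiableAt_const _).fun_div ((h1.fun_sub h2).fun_pow 3)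
          (pow_ne_zero 3 h3)).neg.congr ?_
    filter_upwards [he] with z h
    exact congrArg Neg.neg (h fun l => 2 / (c z - l) ^ 3).symm

end Vale.Agent.P290
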