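import Vale.Agent.P290G.WP4
import Vale.Agent.P290G.WP5

/-! Bounds and analyticity of the invariants. -/

open Set Filter Metric Polynomial
open scoped Manifold ContDiff Topology

noncomputable section

namespace Vale.Agent.P290

variable {Λ : ℂ → AddSubgroup ℂ} {ω₁ ω₂ η₁ η₂ ν ν' : ℂ → ℂ} {K : Set ℂ}

theorem GBd.analytic {z₀ : ℂ} (hb : Bas Λ ω₁ ω₂ {z₀}) {L : ℂ → PeriodPair}
    (hL : ∀ᶠ z in 𝓝 z₀, (Λ z : Set ℂ) = (L z).lattice) (n : ℕ) :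
    AnalyticAt ℂ (fun z => (L z).G (n + 3)) z₀ := by
  have he : ∀ᶠ z in 𝓝 z₀, ∀ f : ℂ → ℂ, ∑' l : (L z).lattice, f l =
      ∑' x : ℤ × ℤ, f (x.1 * ω₁ z + x.2 * ω₂ z) := by
    filter_upwards [hL, (hb z₀ rfl).2.2] with z h1 h2 f
    refine WP5.reindex (L' := ⟨ω₁ z, ω₂ z, h2.1⟩) (Submodule.ext fun w => ?_) f
    rw [← SetLike.mem_coe, ← h1, SetLike.mem_coe, h2.2, PeriodPair.mem_lattice]
  have h0 : (L z₀).ω₁ / 2 ∉ Λ z₀ := by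
    rw [← SetLike.mem_coe, hL.self_of_nhds]
    exact (L z₀).ω₁_div_two_notMem_lattice
  refine (WP5.key (c := fun _ => (L z₀).ω₁ / 2) (t := fun _ l => (l ^ (n + 3))⁻¹) (C := 1) hb
    analyticAt_const h0 zero_le_one (fun s l _ h2 => ?_) fun g z _ h2 _ h4 => ?_).congr ?_
  · have h1 : 1 ≤ ‖l‖ := by linarith [norm_nonneg ((L z₀).ω₁ / 2)]
    rw [one_mul, norm_inv, norm_pow, Real.rpow_neg (norm_nonneg l),
      show (3 : ℝ) = (3 : ℕ) by norm_num, Real.rpow_natCast]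
    exact inv_anti₀ (by positivity) (pow_le_pow_right₀ h1 (by omega))
  · obtain h4 | rfl := h4
    · exact (h2.fun_pow _).fun_inv (pow_ne_zero _ h4)
    · exact differentiableAt_const _
  · filter_upwards [he] with z h
    exact (h fun l => (l ^ (n + 3))⁻¹).symm

theorem g_congr {L L' : PeriodPair} (h : (L.lattice : Set ℂ) = L'.lattice) :
    L.g₂ = L'.g₂ ∧ L.g₃ = L'.g₃ := by
  have h1 : L.lattice = L'.lattice := SetLike.ext' h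
  have h2 : ∀ n, L.G n = L'.G n := fun n =>
    (WP5.reindex h1 fun l => (l ^ n)⁻¹).trans (WP5.reindex rfl fun l => (l ^ n)⁻¹).symm
  simp only [PeriodPair.g₂, PeriodPair.g₃, h2, and_self]

theorem g_bound : ∃ C : ℝ, ∀ (L : PeriodPair) (ε : ℝ), 0 < ε →
    (∀ l ∈ L.lattice, l ≠ 0 → ε ≤ ‖l‖) → ‖L.g₂‖ ≤ C / ε ^ 4 ∧ ‖L.g₃‖ ≤ C / ε ^ 6 := by
  obtain ⟨S, hS, h⟩ := WP4.sep
  refine ⟨140 * S, fun L ε hε hL => ?_⟩
  have h4 : ‖L.G 4‖ ≤ S / ε ^ 4 := WP4.G_le hε hL (h L ε hε hL) 1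
  have h6 : ‖L.G 6‖ ≤ S / ε ^ 6 := WP4.G_le hε hL (h L ε hε hL) 3
  rw [PeriodPair.g₂, PeriodPair.g₃, norm_mul, norm_mul, Complex.norm_ofNat, Complex.norm_ofNat,
    mul_div_assoc, mul_div_assoc]
  constructor <;> linarith [norm_nonneg (L.G 4)]

theorem g_analytic {z₀ : ℂ} (hb : Bas Λ ω₁ ω₂ {z₀}) {L : ℂ → PeriodPair}
    (hL : ∀ᶠ z in 𝓝 z₀, (Λ z : Set ℂ) = (L z).lattice) :
    AnalyticAt ℂ (fun z => (L z).g₂) z₀ ∧ AnalyticAt ℂ (fun z => (L z).g₃) z₀ :=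
  ⟨analyticAt_const.mul (GBd.analytic hb hL 1), analyticAt_const.mul (GBd.analytic hb hL 3)⟩

end Vale.Agent.P290
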