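import Vale.Agent.P290G.NT1

/-! General Weierstrass data are smooth. -/

open Set Filter Metric Polynomial
open scoped Manifold ContDiff Topology

noncomputable section

namespace Vale.Agent.P290

namespace GenP

/-- The generic discriminant. -/
def del : (MvPolynomial (Fin 9 ⊕ Fin 13) ℂ)[X] :=
  (∑ i : Fin 9, C (MvPolynomial.X (Sum.inl i)) * X ^ (i : ℕ)) ^ 3 -
    27 * (∑ i : Fin 13, C (MvPolynomial.X (Sum.inr i)) * X ^ (i : ℕ)) ^ 2

theorem del_map (α : Fin 9 → ℂ) (β : Fin 13 → ℂ) :
    del.map (MvPolynomial.eval (Sum.elim α β)) = disc (pol α) (pol β) := by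
  simp only [del, disc, pol, Polynomial.map_sub, Polynomial.map_mul, Polynomial.map_pow,
    Polynomial.map_sum, map_C, map_X, MvPolynomial.eval_X, Sum.elim_inl, Sum.elim_inr,
    Polynomial.map_ofNat]

theorem eval_P (α : Fin 9 → ℂ) (β : Fin 13 → ℂ) :
    MvPolynomial.eval (Sum.elim α β) (del.coeff 24 * resultant del del.derivative 24 23) =
      (disc (pol α) (pol β)).coeff 24 *
        resultant (disc (pol α) (pol β)) (disc (pol α) (pol β)).derivative 24 23 := by
  rw [map_mul, ← resultant_map_map, ← derivative_map, ← coeff_map, del_map]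

theorem deg_le (α : Fin 9 → ℂ) (β : Fin 13 → ℂ) : (disc (pol α) (pol β)).natDegree ≤ 24 := by
  have h1 := pol_natDegree α
  have h2 := pol_natDegree β
  unfold disc
  refine (natDegree_sub_le _ _).trans (max_le (natDegree_pow_le.trans (by omega)) ?_)
  refine natDegree_mul_le.trans ?_
  have h3 : ((pol β) ^ 2).natDegree ≤ 2 * (pol β).natDegree := natDegree_pow_le
  have h4 : (27 : ℂ[X]).natDegree = 0 := natDegree_natCast 27
  omega

theorem disc_ex : disc (pol (Pi.single 0 3 : Fin 9 → ℂ)) (pol (Pi.single 12 1 : Fin 13 → ℂ)) =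
    27 - 27 * X ^ 24 := by
  have h1 : pol (Pi.single 0 3 : Fin 9 → ℂ) = 3 := by
    unfold pol
    rw [Finset.sum_eq_single 0]
    · simp
      rfl
    · intro b _ hb
      simp [Pi.single_eq_of_ne hb]
    · simp
  have h2 : pol (Pi.single 12 1 : Fin 13 → ℂ) = X ^ 12 := by
    unfold pol
    rw [Finset.sum_eq_single 12]
    · simp
    · intro b _ hb
      simp [Pi.single_eq_of_ne hb]
    · simp
  rw [h1, h2, disc]
  ring

theorem P_ne : del.coeff 24 * resultant del del.derivative 24 23 ≠ 0 := by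
  intro h
  have h1 := eval_P (Pi.single 0 3) (Pi.single 12 1)
  have h2 := deg_le (Pi.single 0 3) (Pi.single 12 1)
  rw [h, map_zero, disc_ex] at h1
  rw [disc_ex] at h2
  have h27 : (27 : ℂ[X]) = C 27 := rfl
  have h3 : (27 - 27 * X ^ 24 : ℂ[X]).derivative = C (-648) * X ^ 23 := by
    rw [h27, derivative_sub, derivative_C, derivative_C_mul, derivative_X_pow, ← mul_assoc,
      ← C_mul, zero_sub, ← neg_mul, ← C_neg]
    norm_num
  rw [h3, resultant_C_mul_right, resultant_X_pow_right _ _ _ h2, h27] at h1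
  simp [coeff_X_pow, coeff_C] at h1

end GenP

theorem generic_wsm : ∃ P : MvPolynomial (Fin 9 ⊕ Fin 13) ℂ, P ≠ 0 ∧
    ∀ (α : Fin 9 → ℂ) (β : Fin 13 → ℂ), MvPolynomial.eval (Sum.elim α β) P ≠ 0 →
      (disc (pol α) (pol β)).natDegree = 24 ∧ WSm (pol α) (pol β) := by
  refine ⟨_, GenP.P_ne, fun α β h => ?_⟩
  rw [GenP.eval_P] at h
  have hd := GenP.deg_le α β
  refine ⟨natDegree_eq_of_le_of_coeff_ne_zero hd (left_ne_zero_of_mul h), fun z x h1 h2 h3 => ?_⟩
  obtain ⟨p, q, -, -, h4⟩ := exists_mul_add_mul_eq_C_resultant (m := 24) (n := 23)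
    (disc (pol α) (pol β)) (disc (pol α) (pol β)).derivative hd
    ((natDegree_derivative_le _).trans (by omega)) (Or.inl (by norm_num))
  have h5 := congrArg (eval z) h4
  have hB : (pol β).eval z = -8 * x ^ 3 := by linear_combination -h1 + x * h2
  have h6 : (disc (pol α) (pol β)).eval z = 0 := by
    simp only [disc, eval_sub, eval_mul, eval_pow, eval_ofNat]
    rw [← h2, hB]
    ring
  have h7 : (disc (pol α) (pol β)).derivative.eval z = 0 := by
    simp only [disc, derivative_sub, derivative_mul, derivative_pow, derivative_ofNat, eval_sub,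
      eval_add, eval_mul, eval_pow, eval_ofNat, eval_C, eval_zero]
    rw [← h2, hB]
    push_cast
    linear_combination 432 * x ^ 3 * h3
  rw [eval_add, eval_mul, eval_mul, h6, h7, eval_C] at h5
  exact right_ne_zero_of_mul h (by rw [← h5]; ring)

end Vale.Agent.P290
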