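import Vale.Agent.P290G.Defs

/-! Dominant maps are generically onto. -/

open Set Filter Metric Polynomial
open scoped Manifold ContDiff Topology

noncomputable section

namespace Vale.Agent.P290

theorem generic_surj {ι κ : Type} [Finite ι] [Finite κ] (φ : κ → MvPolynomial ι ℂ)
    (hi : Function.Injective (MvPolynomial.aeval φ : MvPolynomial κ ℂ →ₐ[ℂ] MvPolynomial ι ℂ)) :
    ∃ P : MvPolynomial κ ℂ, P ≠ 0 ∧ ∀ y : κ → ℂ, MvPolynomial.eval y P ≠ 0 →
      ∃ x : ι → ℂ, ∀ j, MvPolynomial.eval x (φ j) = y j := by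
  obtain ⟨f, hf⟩ : ∃ f : MvPolynomial κ ℂ →+* MvPolynomial ι ℂ,
      f = (MvPolynomial.aeval φ : MvPolynomial κ ℂ →ₐ[ℂ] MvPolynomial ι ℂ).toRingHom := ⟨_, rfl⟩
  have h1 : f.FinitePresentation := by
    refine RingHom.FinitePresentation.of_finiteType.1
      (RingHom.FiniteType.of_comp_finiteType (f := algebraMap ℂ (MvPolynomial κ ℂ)) ?_)
    rw [show f.comp (algebraMap ℂ (MvPolynomial κ ℂ)) = algebraMap ℂ (MvPolynomial ι ℂ) from
      hf ▸ (MvPolynomial.aeval φ).comp_algebraMap]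
    exact RingHom.finiteType_algebraMap.2 inferInstance
  obtain ⟨T, hT⟩ := PrimeSpectrum.exists_constructibleSetData_iff.2
    (PrimeSpectrum.isConstructible_range_comap h1)
  have h2 : (⟨⊥, Ideal.isPrime_bot⟩ : PrimeSpectrum (MvPolynomial κ ℂ)) ∈ T.toSet := by
    rw [hT]
    exact ⟨⟨⊥, Ideal.isPrime_bot⟩,
      PrimeSpectrum.ext (Ideal.comap_bot_of_injective f (hf ▸ hi))⟩
  obtain ⟨B, hB, h3, h4⟩ := mem_iUnion₂.1 h2
  refine ⟨B.f, fun h => h4 (singleton_subset_iff.2 h), fun y hy => ?_⟩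
  have h5 : (⟨MvPolynomial.vanishingIdeal ℂ {y}, inferInstance⟩ :
      PrimeSpectrum (MvPolynomial κ ℂ)) ∈ T.toSet := by
    refine mem_iUnion₂.2 ⟨B, hB, fun g hg => ?_, fun h => hy ?_⟩
    · rw [show g = 0 from h3 hg]
      exact zero_mem (MvPolynomial.vanishingIdeal ℂ {y})
    · exact (MvPolynomial.mem_vanishingIdeal_singleton_iff y _).1 (singleton_subset_iff.1 h)
  rw [hT] at h5
  obtain ⟨q, hq⟩ := h5
  obtain ⟨M, hM, h6⟩ := q.asIdeal.exists_le_maximal q.isPrime.ne_top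
  obtain ⟨x, rfl⟩ := MvPolynomial.isMaximal_iff_eq_vanishingIdeal_singleton.1 hM
  refine ⟨x, fun j => ?_⟩
  have h7 : MvPolynomial.X j - MvPolynomial.C (y j) ∈ (PrimeSpectrum.comap f q).asIdeal := by
    rw [hq]
    exact (MvPolynomial.mem_vanishingIdeal_singleton_iff y _).2 (by simp)
  have h8 := (MvPolynomial.mem_vanishingIdeal_singleton_iff x _).1 (h6 h7)
  simpa [hf, sub_eq_zero] using h8

theorem inj_of_open {ι κ : Type} [Fintype ι] [Fintype κ] (φ : κ → MvPolynomial ι ℂ) (x₀ : ι → ℂ)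
    (h : Function.Surjective (fderiv ℂ (fun (x : ι → ℂ) j => MvPolynomial.eval x (φ j)) x₀)) :
    Function.Injective (MvPolynomial.aeval φ : MvPolynomial κ ℂ →ₐ[ℂ] MvPolynomial ι ℂ) := by
  have h1 : AnalyticAt ℂ (fun (x : ι → ℂ) j => MvPolynomial.eval x (φ j)) x₀ :=
    analyticAt_pi_iff.2 fun j => AnalyticOnNhd.eval_mvPolynomial (φ j) x₀ (mem_univ _)
  have h2 := h1.hasStrictFDerivAt.map_nhds_eq_of_surj (LinearMap.range_eq_top.2 h)
  refine (injective_iff_map_eq_zero _).2 fun P hP => ?_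
  have h3 : ∀ᶠ y in 𝓝 fun j => MvPolynomial.eval x₀ (φ j), MvPolynomial.eval y P = 0 := by
    rw [← h2]
    refine eventually_map.2 (Eventually.of_forall fun x => ?_)
    have h4 := congrArg (MvPolynomial.eval x) hP
    rw [map_zero, MvPolynomial.map_aeval] at h4
    rw [← h4, MvPolynomial.eval]
    exact congrArg (fun r : ℂ →+* ℂ => MvPolynomial.eval₂Hom r _ P)
      (RingHom.ext fun c => (MvPolynomial.eval_C c).symm)
  have h4 := (AnalyticOnNhd.eval_mvPolynomial P).eq_of_eventuallyEq (g := fun _ => 0)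
    analyticOnNhd_const h3
  exact MvPolynomial.funext fun y => (congrFun h4 y).trans (map_zero _).symm

end Vale.Agent.P290
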