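import Vale.Agent.P290G.Defs

/-! Polynomials and torsion sections. -/

open Set Filter Metric Polynomial
open scoped Manifold ContDiff Topology

noncomputable section

namespace Vale.Agent.P290

namespace NT1

theorem poly_extend {g : ℂ → ℂ} {S : Set ℂ} (hS : S.Finite)
    (hg : ∀ t ∉ S, AnalyticAt ℂ g t) {C : ℝ} {e : ℕ} (hb : ∀ t ∉ S, ‖g t‖ ≤ C * (1 + ‖t‖) ^ e) :
    ∃ G : ℂ → ℂ, Differentiable ℂ G ∧ ∀ t ∉ S, G t = g t := by
  classical
  refine ⟨fun t => if t ∈ S then limUnder (𝓝[≠] t) g else g t, fun t0 => ?_,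
    fun t ht => if_neg ht⟩
  by_cases h0 : t0 ∈ S
  · have hs : Metric.ball t0 1 ∩ (S \ {t0})ᶜ ∈ 𝓝 t0 :=
      inter_mem (Metric.ball_mem_nhds _ one_pos)
        ((hS.subset sdiff_subset).isClosed.isOpen_compl.mem_nhds fun h => h.2 rfl)
    have hn : ∀ t ∈ (Metric.ball t0 1 ∩ (S \ {t0})ᶜ) \ {t0}, t ∉ S :=
      fun t ht h => ht.1.2 ⟨h, ht.2⟩
    have h1 := Complex.differentiableOn_update_limUnder_of_bddAbove (f := g) hs
      (fun t ht => (hg t (hn t ht)).differentiableAt.differentiableWithinAt) ?_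
    · refine (h1.differentiableAt hs).congr_of_eventuallyEq ?_
      filter_upwards [hs] with t ht
      by_cases h2 : t = t0
      · rw [h2, if_pos h0, Function.update_self]
      · rw [if_neg (hn t ⟨ht, h2⟩), Function.update_of_ne h2]
    · refine ⟨|C| * (1 + (‖t0‖ + 1)) ^ e, ?_⟩
      rintro _ ⟨t, ht, rfl⟩
      have h3 : ‖t‖ ≤ ‖t0‖ + 1 := by
        have h4 := ht.1.1
        rw [Metric.mem_ball, dist_eq_norm] at h4
        linarith [norm_sub_norm_le t t0]
      refine (hb t (hn t ht)).trans ?_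
      exact mul_le_mul (le_abs_self C) (by gcongr) (by positivity) (abs_nonneg C)
  · refine (hg t0 h0).differentiableAt.congr_of_eventuallyEq ?_
    filter_upwards [hS.isClosed.isOpen_compl.mem_nhds h0] with t ht
    exact if_neg ht

theorem poly_deriv_zero {G : ℂ → ℂ} (hG : Differentiable ℂ G) {S : Set ℂ} (hS : S.Finite)
    {C : ℝ} {e : ℕ} (hb : ∀ t ∉ S, ‖G t‖ ≤ C * (1 + ‖t‖) ^ e) {k : ℕ} (hk : e < k) :
    iteratedDeriv k G 0 = 0 := by
  obtain ⟨M, hM⟩ := hS.isBounded.exists_norm_le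
  have h1 : ∀ᶠ R : ℝ in atTop, ‖iteratedDeriv k G 0‖ ≤ k.factorial * (|C| * 2 ^ e) / R := by
    filter_upwards [eventually_gt_atTop M, eventually_ge_atTop 1] with R hR hR1
    have hR0 : 0 < R := by linarith
    have h2 := Complex.norm_iteratedDeriv_le_of_forall_mem_sphere_norm_le (c := 0) (R := R)
      (C := |C| * (2 ^ e * R ^ e)) k hR0 hG.diffContOnCl fun z hz => by
        rw [mem_sphere_zero_iff_norm] at hz
        refine (hb z fun h => by linarith [hM z h]).trans ?_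
        rw [← mul_pow, hz]
        exact mul_le_mul (le_abs_self C) (by gcongr; linarith) (by positivity) (abs_nonneg C)
    refine h2.trans ?_
    rw [div_le_div_iff₀ (by positivity) hR0]
    have h3 : R ^ e * R ≤ R ^ k := by
      rw [← pow_succ]
      exact pow_le_pow_right₀ hR1 hk
    have h4 := mul_le_mul_of_nonneg_left h3
      (show (0 : ℝ) ≤ k.factorial * (|C| * 2 ^ e) by positivity)
    linarith
  have h5 : Tendsto (fun R : ℝ => k.factorial * (|C| * 2 ^ e) / R) atTop (𝓝 0) :=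
    tendsto_const_nhds.div_atTop tendsto_id
  exact norm_le_zero_iff.1 (ge_of_tendsto h5 h1)

theorem top {A B x : ℂ[X]} (hA : A.natDegree ≤ 8) (hB : B.natDegree ≤ 12)
    (hd : (disc A B).natDegree = 24) (hx : x.natDegree ≤ 4) (h1 : (12 * x ^ 2 - A).coeff 8 = 0)
    (h2 : (4 * x ^ 3 - A * x - B).coeff 12 = 0) : False := by
  have h3 : (disc A B).coeff 24 ≠ 0 := by
    rw [← hd]
    exact leadingCoeff_ne_zero.2 fun h => by simp [h] at hd
  have a1 : (x ^ 2).coeff 8 = _ := coeff_pow_of_natDegree_le (m := 2) hx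
  have a2 : (x ^ 3).coeff 12 = _ := coeff_pow_of_natDegree_le (m := 3) hx
  have a3 : (A ^ 3).coeff 24 = _ := coeff_pow_of_natDegree_le (m := 3) hA
  have a4 : (B ^ 2).coeff 24 = _ := coeff_pow_of_natDegree_le (m := 2) hB
  have a5 : (A * x).coeff 12 = _ := coeff_mul_add_eq_of_natDegree_le hA hx
  rw [coeff_sub, coeff_ofNat_mul, a1, sub_eq_zero] at h1
  rw [coeff_sub, coeff_sub, coeff_ofNat_mul, a2, a5, sub_eq_zero] at h2
  rw [disc, coeff_sub, coeff_ofNat_mul, a3, a4, ← h1, ← h2, ← h1] at h3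
  exact h3 (by ring)

theorem const {p : ℂ[X]} (h : ∀ z, p.eval z ≠ 0) : p.natDegree = 0 := by
  by_contra h1
  obtain ⟨z, hz⟩ := Complex.exists_root (natDegree_pos_iff_degree_pos.1 (Nat.pos_of_ne_zero h1))
  exact h z hz

theorem sing {A B x : ℂ[X]} (hs : WSm A B) {z : ℂ} (h0 : (4 * x ^ 3 - A * x - B).eval z = 0)
    (h1 : (12 * x ^ 2 - A).eval z = 0)
    (h2 : (4 * x ^ 3 - A * x - B).derivative.eval z = 0) : False := by
  simp only [derivative_sub, derivative_mul, derivative_pow, derivative_ofNat, eval_sub, eval_add,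
    eval_mul, eval_pow, eval_ofNat, eval_C, eval_zero, Nat.cast_ofNat] at h0 h1 h2
  refine hs z (x.eval z) h0 (sub_eq_zero.1 h1) ?_
  linear_combination x.derivative.eval z * h1 - h2

end NT1

theorem poly_of_growth {D : Set ℂ} (hD : D.Finite) {x : ℂ → ℂ} (hx : AnalyticOnNhd ℂ x Dᶜ)
    {C : ℝ} {k : ℕ} (hb : ∀ z ∉ D, ‖x z‖ ≤ C * (1 + ‖z‖) ^ k) :
    ∃ Q : ℂ[X], Q.natDegree ≤ k ∧ ∀ z ∉ D, Q.eval z = x z := by
  obtain ⟨G, hG, h1⟩ := NT1.poly_extend hD hx hb
  refine ⟨∑ i ∈ Finset.range (k + 1), monomial i ((i.factorial : ℂ)⁻¹ * iteratedDeriv i G 0),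
    natDegree_sum_le_of_forall_le _ _ fun i hi => (natDegree_monomial_le _).trans
      (Nat.lt_succ_iff.1 (Finset.mem_range.1 hi)), fun t ht => ?_⟩
  have h4 : ∀ i ∉ Finset.range (k + 1),
      (i.factorial : ℂ)⁻¹ • (t - 0) ^ i • iteratedDeriv i G 0 = 0 := by
    intro i hi
    rw [NT1.poly_deriv_zero hG hD (fun s hs => by rw [h1 s hs]; exact hb s hs)
      (show k < i by simpa [Nat.lt_succ_iff] using hi), smul_zero, smul_zero]
  rw [← h1 t ht, (Complex.hasSum_taylorSeries_of_entire hG 0 t).unique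
    (hasSum_sum_of_ne_finset_zero h4), eval_finsetSum]
  refine Finset.sum_congr rfl fun i _ => ?_
  rw [eval_monomial, sub_zero, smul_eq_mul, smul_eq_mul]
  ring

theorem no_tors_odd {A B x x₂ y : ℂ[X]} (hA : A.natDegree ≤ 8) (hB : B.natDegree ≤ 12)
    (hd : (disc A B).natDegree = 24) (hs : WSm A B) (hx : x.natDegree ≤ 4)
    (hx₂ : x₂.natDegree ≤ 4) (e₁ : y ^ 2 = 4 * x ^ 3 - A * x - B)
    (e₂ : 16 * y ^ 2 * (x₂ + 2 * x) = (12 * x ^ 2 - A) ^ 2) : False := by
  have h1 : y.natDegree = 0 := NT1.const fun z hz => by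
    refine NT1.sing hs (x := x) (z := z) (by rw [← e₁, eval_pow, hz]; ring) ?_ ?_
    · have h := congrArg (eval z) e₂
      rw [eval_mul, eval_mul, eval_pow, hz, eval_pow] at h
      exact pow_eq_zero_iff two_ne_zero |>.1 (by rw [← h]; ring)
    · rw [← e₁, sq, derivative_mul, eval_add, eval_mul, eval_mul, hz]
      ring
  have h2 : ((12 * x ^ 2 - A) ^ 2).natDegree ≤ 4 := by
    rw [← e₂]
    compute_degree
    omega
  rw [natDegree_pow] at h2
  refine NT1.top hA hB hd hx (coeff_eq_zero_of_natDegree_lt (by omega)) ?_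
  rw [← e₁]
  exact coeff_eq_zero_of_natDegree_lt (by rw [natDegree_pow]; omega)

theorem no_tors_two {A B x : ℂ[X]} (hA : A.natDegree ≤ 8) (hB : B.natDegree ≤ 12)
    (hd : (disc A B).natDegree = 24) (hs : WSm A B) (hx : x.natDegree ≤ 4)
    (e₁ : 4 * x ^ 3 - A * x - B = 0) : False := by
  have h1 : (12 * x ^ 2 - A).natDegree = 0 := NT1.const fun z hz =>
    NT1.sing hs (by rw [e₁, eval_zero]) hz (by rw [e₁, derivative_zero, eval_zero])
  exact NT1.top hA hB hd hx (coeff_eq_zero_of_natDegree_lt (by omega)) (by rw [e₁, coeff_zero])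

theorem pol_natDegree {n : ℕ} (α : Fin (n + 1) → ℂ) : (pol α).natDegree ≤ n :=
  natDegree_sum_le_of_forall_le _ _ fun i _ =>
    (natDegree_C_mul_X_pow_le _ _).trans (Nat.lt_succ_iff.1 i.2)

theorem disc_finite {A B : ℂ[X]} (hd : (disc A B).natDegree = 24) :
    {z | (disc A B).eval z = 0}.Finite :=
  finite_setOf_isRoot fun h => by simp [h] at hd

end Vale.Agent.P290
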