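import Vale.Agent.P290G.GBd
import Vale.Agent.P290G.ELat
import Vale.Agent.P290G.ELat2
import Vale.Agent.P290G.NT1

/-! Existence of the Weierstrass data. -/

open Set Filter Metric Polynomial
open scoped Manifold ContDiff Topology

noncomputable section

namespace Vale.Agent.P290

variable {X : Type} [TopologicalSpace X] [ChartedSpace C2 X] [IsManifold 𝓘(ℂ, C2) ω X]
  {σ : Form2 X} {π : X → P1} {S : X × (ℂ × ℂ) × ℂ → X} {p : ℂ → ℂ × ℂ} {s s' : ℂ → X}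
  {K : Set ℂ}

theorem Ell.crit_finite (h : Ell σ π S) :
    {z : ℂ | ¬ ∀ x, Rep (1, z) (π x) → Reg π x}.Finite := by
  refine (h.fin.image fun x => aff (π x)).subset fun z hz => ?_
  simp only [mem_setOf_eq, not_forall] at hz
  obtain ⟨x, hx, hr⟩ := hz
  exact ⟨x, hr, hx.aff_eq.trans (div_one z)⟩

theorem exists_pol {n : ℕ} {A : ℂ[X]} (h : A.natDegree ≤ n) :
    ∃ α : Fin (n + 1) → ℂ, pol α = A := by
  refine ⟨fun i => A.coeff i, ?_⟩
  rw [pol, Fin.sum_univ_eq_sum_range (fun i => C (A.coeff i) * Polynomial.X ^ i) (n + 1)]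
  exact (A.as_sum_range_C_mul_X_pow' (Nat.lt_succ_of_le h)).symm

theorem Ell.has_inv [T2Space X] [CompactSpace X] (h : Ell σ π S) :
    ∃ (α : Fin 9 → ℂ) (β : Fin 13 → ℂ), ∀ z, (∀ x, Rep (1, z) (π x) → Reg π x) →
      ∃ L : PeriodPair, L.g₂ = (pol α).eval z ∧ L.g₃ = (pol β).eval z ∧
        (Per h.spr (1, z) : Set ℂ) = L.lattice := by
  classical
  have hD := h.crit_finite
  set D := {z : ℂ | ¬ ∀ x, Rep (1, z) (π x) → Reg π x}
  have h0 : ∀ z : ℂ, ((1 : ℂ), z) ≠ 0 := fun z e => one_ne_zero (congrArg Prod.fst e)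
  have h1 : ∀ z, ∃ L : PeriodPair, z ∉ D → (Per h.spr (1, z) : Set ℂ) = L.lattice := fun z => by
    by_cases hz : z ∈ D
    · exact ⟨⟨1, Complex.I, by simpa using Complex.basisOneI.linearIndependent⟩,
        fun e => absurd hz e⟩
    · obtain ⟨L, hL⟩ := h.per_lattice (h0 z) (not_not.1 hz)
      exact ⟨L, fun _ => hL⟩
  choose L hL using h1
  have h2 : ∀ z ∉ D, AnalyticAt ℂ (fun z => (L z).g₂) z ∧ AnalyticAt ℂ (fun z => (L z).g₃) z :=
    fun z hz => by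
      obtain ⟨ω₁, ω₂, hb⟩ := h.loc_triv (p := fun z => (1, z)) (Or.inl rfl) (hL z hz)
      refine g_analytic hb ?_
      filter_upwards [hD.isClosed.isOpen_compl.mem_nhds hz] with w hw
      exact hL w hw
  obtain ⟨ε, hε, h3⟩ := h.short
  obtain ⟨C, h4⟩ := g_bound
  have h5 : ∀ z ∉ D, ‖(L z).g₂‖ ≤ C / ε ^ 4 * (1 + ‖z‖) ^ 8 ∧
      ‖(L z).g₃‖ ≤ C / ε ^ 6 * (1 + ‖z‖) ^ 12 := fun z hz => by
    have hp : 0 < (1 + ‖z‖) ^ 2 := by positivity
    obtain ⟨a, b⟩ := h4 (L z) (ε / (1 + ‖z‖) ^ 2) (by positivity) fun l hl hl0 => by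
      rw [div_le_iff₀' hp]
      exact h3 z l (by rw [← SetLike.mem_coe, hL z hz]; exact hl) hl0
    refine ⟨a.trans_eq ?_, b.trans_eq ?_⟩
    · field_simp
    · field_simp
  obtain ⟨A, hA, eA⟩ := poly_of_growth hD (fun z hz => (h2 z hz).1) fun z hz => (h5 z hz).1
  obtain ⟨B, hB, eB⟩ := poly_of_growth hD (fun z hz => (h2 z hz).2) fun z hz => (h5 z hz).2
  obtain ⟨α, rfl⟩ := exists_pol hA
  obtain ⟨β, rfl⟩ := exists_pol hB
  exact ⟨α, β, fun z hz => ⟨L z, (eA z (not_not.2 hz)).symm, (eB z (not_not.2 hz)).symm,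
    hL z (not_not.2 hz)⟩⟩

end Vale.Agent.P290
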