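import Vale.Agent.P290G.IsoM

/-! Twists from sections. -/

open Set Filter Metric Polynomial
open scoped Manifold ContDiff Topology

noncomputable section

namespace Vale.Agent.P290

variable {X : Type} [TopologicalSpace X] [ChartedSpace C2 X] [IsManifold 𝓘(ℂ, C2) ω X]
  [T2Space X] [CompactSpace X] {σ : Form2 X} {π : X → P1} {S : X × (ℂ × ℂ) × ℂ → X}
  {X' : Type} [TopologicalSpace X'] [ChartedSpace C2 X'] [IsManifold 𝓘(ℂ, C2) ω X']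
  [T2Space X'] [CompactSpace X'] {σ' : Form2 X'} {π' : X' → P1} {S' : X' × (ℂ × ℂ) × ℂ → X'}
  {p : ℂ → ℂ × ℂ} {s : ℂ → X} {s' : ℂ → X'} {a : P1}

namespace Iso

omit [CompactSpace X] in
theorem ext (h : Ell σ π S) {Y : Type} [TopologicalSpace Y] [T2Space Y] {f g : X → Y} {x : X}
    (hf : ContinuousAt f x) (hg : ContinuousAt g x) (e : ∀ᶠ y in 𝓝 x, Reg π y → f y = g y) :
    f x = g x := by
  have := nhdsNE_neBot x
  have h1 : ∀ᶠ y in 𝓝 x, y ∉ {y | ¬ Reg π y} \ {x} :=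
    (h.fin.subset sdiff_subset).isClosed.isOpen_compl.mem_nhds fun hx => hx.2 rfl
  refine tendsto_nhds_unique_of_eventuallyEq (l := 𝓝[≠] x) (hf.tendsto.mono_left nhdsWithin_le_nhds)
    (hg.tendsto.mono_left nhdsWithin_le_nhds) ?_
  filter_upwards [mem_nhdsWithin_of_mem_nhds e, mem_nhdsWithin_of_mem_nhds h1,
    self_mem_nhdsWithin] with y h2 h3 h4
  exact h2 (not_not.1 fun h5 => h3 ⟨h5, h4⟩)

omit [IsManifold 𝓘(ℂ, C2) ω X] [T2Space X] [CompactSpace X] in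
theorem rep (hs : SecOn π p s univ) (z : ℂ) : Rep (p z) (π (s z)) :=
  (hs z (mem_univ z)).2.self_of_nhds

omit [T2Space X] [CompactSpace X] in
theorem par (h : Ell σ π S) (hp : Coord p) (hs : SecOn π p s univ) {y : X} {z : ℂ}
    (hz : Rep (p z) (π y)) (hy : Reg π y) : ∃ t, S (s z, p z, t) = y :=
  h.trans (s z) y (p z) (rep hs z) hz (hs.reg h.hol hp (mem_univ z)) hy

omit [CompactSpace X] [IsManifold 𝓘(ℂ, C2) ω X'] [T2Space X'] [CompactSpace X'] in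
theorem ov (h : Ell σ π S) (h' : Ell σ' π' S') (hp : Coord p) (hs : SecOn π p s univ)
    (hs' : SecOn π' p s' univ) {φ : X → X'}
    (h1 : ∀ x z, Rep (p z) (π x) → ContMDiffAt 𝓘(ℂ, C2) 𝓘(ℂ, C2) ω φ x)
    (h2 : ∀ z t, φ (S (s z, p z, t)) = S' (s' z, p z, t)) {x : X} {z : ℂ} (hz : Rep (p z) (π x)) :
    π' (φ x) = π x := by
  obtain ⟨b, hb⟩ := hp.exists_fun h.hol
  obtain ⟨b1, b2, b3⟩ := hb x z hz
  obtain ⟨l, l1, l2⟩ := h'.hol (φ x)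
  have c1 : ContinuousAt φ x := (h1 x z hz).continuousAt
  have c2 : ContinuousAt (fun y => l (φ y)) x := ContinuousAt.comp (f := φ) l1.continuousAt c1
  have c3 : ContinuousAt (fun y => p (b y)) x :=
    ContinuousAt.comp (f := b) (hp.analytic _).continuousAt b2.continuousAt
  refine (l2.self_of_nhds.eq_iff b3.self_of_nhds).2 ?_
  refine ext h (f := fun y => (l (φ y)).1 * (p (b y)).2) (g := fun y => (l (φ y)).2 * (p (b y)).1)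
    (c2.fst.mul c3.snd) (c2.snd.mul c3.fst) ?_
  filter_upwards [b3, c1.eventually l2] with y y1 y2 y3
  obtain ⟨t, ht⟩ := par h hp hs y1 y3
  refine (y2.eq_iff (rep hs' (b y))).1 ?_
  rw [← h'.spr.fib _ _ t (rep hs' (b y)), ← h2, ht]

omit [CompactSpace X] [IsManifold 𝓘(ℂ, C2) ω X'] [T2Space X'] [CompactSpace X'] in
theorem left (h : Ell σ π S) (h' : Ell σ' π' S') (hp : Coord p) (hs : SecOn π p s univ)
    (hs' : SecOn π' p s' univ) {φ : X → X'} {ψ : X' → X}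
    (h1 : ∀ x z, Rep (p z) (π x) → ContMDiffAt 𝓘(ℂ, C2) 𝓘(ℂ, C2) ω φ x)
    (h2 : ∀ z t, φ (S (s z, p z, t)) = S' (s' z, p z, t))
    (h3 : ∀ x z, Rep (p z) (π' x) → ContMDiffAt 𝓘(ℂ, C2) 𝓘(ℂ, C2) ω ψ x)
    (h4 : ∀ z t, ψ (S' (s' z, p z, t)) = S (s z, p z, t)) {x : X} {z : ℂ}
    (hz : Rep (p z) (π x)) : ψ (φ x) = x := by
  obtain ⟨b, hb⟩ := hp.exists_fun h.hol
  obtain ⟨-, -, b3⟩ := hb x z hz
  have c1 : ContinuousAt φ x := (h1 x z hz).continuousAt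
  have c2 : ContinuousAt ψ (φ x) :=
    (h3 _ z (by rw [ov h h' hp hs hs' h1 h2 hz]; exact hz)).continuousAt
  refine ext h (f := fun y => ψ (φ y)) (g := fun y => y) (ContinuousAt.comp (f := φ) c2 c1)
    continuousAt_id ?_
  filter_upwards [b3] with y y1 y3
  obtain ⟨t, ht⟩ := par h hp hs y1 y3
  calc ψ (φ y) = ψ (φ (S (s (b y), p (b y), t))) := by rw [ht]
    _ = y := by rw [h2, h4, ht]

theorem ne0 {a₀ : P1} (h : Rep (0, 1) a₀) (b : P1) : b ≠ a₀ ↔ ∃ z, Rep (1, z) b :=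
  ⟨fun hb => ⟨_, (rep_rep b).one_aff fun h1 => hb (((rep_rep b).eq_iff h).2 (by simp [h1]))⟩,
    fun ⟨_, hz⟩ e => by simpa using (hz.eq_iff h).1 e⟩

theorem ne1 {a₁ : P1} (h : Rep (1, 0) a₁) (b : P1) : b ≠ a₁ ↔ ∃ z, Rep (z, 1) b := by
  refine ⟨fun hb => ?_, fun ⟨_, hz⟩ e => by simpa using (hz.eq_iff h).1 e⟩
  have h2 : b.rep.2 ≠ 0 := fun h1 => hb (((rep_rep b).eq_iff h).2 (by simp [h1]))
  refine ⟨b.rep.2⁻¹ * b.rep.1, ?_⟩
  have h3 := (rep_rep b).smul (inv_ne_zero h2)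
  rwa [show b.rep.2⁻¹ • b.rep = (b.rep.2⁻¹ * b.rep.1, 1) from
    Prod.ext rfl (inv_mul_cancel₀ h2)] at h3

omit [IsManifold 𝓘(ℂ, C2) ω X] [T2Space X] [CompactSpace X] in
theorem chg (h : Ell σ π S) {s₀ s₁ : ℂ → X} {t z : ℂ} (h0 : SecOn π (fun z => (1, z)) s₀ univ)
    (hz : z ≠ 0) (e : s₁ z⁻¹ = S (s₀ z, (1, z), t / z)) (u : ℂ) :
    S (s₁ z⁻¹, (z⁻¹, 1), u) = S (s₀ z, (1, z), t / z + z⁻¹ ^ 2 * u) := by
  have r0 : Rep (1, z) (π (s₀ z)) := rep h0 z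
  have r1 : Rep (1, z) (π (s₁ z⁻¹)) := by
    rw [e, h.spr.fib _ _ _ r0]
    exact r0
  have e1 : ((z⁻¹, 1) : ℂ × ℂ) = z⁻¹ • ((1, z) : ℂ × ℂ) :=
    Prod.ext (mul_one _).symm (inv_mul_cancel₀ hz).symm
  rw [e1, h.spr.smul _ _ _ _ r1 (inv_ne_zero hz), e, h.spr.add _ _ _ _ r0]

end Iso

theorem iso_of_sec (h : Ell σ π S) (h' : Ell σ' π' S') (he : ∀ q, Per h.spr q = Per h'.spr q)
    (hp : Coord p) (hs : SecOn π p s univ) (hs' : SecOn π' p s' univ)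
    (ha : ∀ b, b ≠ a ↔ ∃ z, Rep (p z) b) : ∃ (φ : X → X') (ψ : X' → X), IsoOff π π' a φ ψ ∧
      ∀ z t, φ (S (s z, p z, t)) = S' (s' z, p z, t) := by
  obtain ⟨φ, h1, h2⟩ := map_of_sec h h' he hp hs hs'
  obtain ⟨ψ, h3, h4⟩ := map_of_sec h' h (fun q => (he q).symm) hp hs' hs
  refine ⟨φ, ψ, ⟨fun x hx => ?_, fun x hx => ?_, fun x hx => ?_, fun x hx => ?_, fun x hx => ?_,
    fun x hx => ?_⟩, h2⟩ <;> obtain ⟨z, hz⟩ := (ha _).1 hx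
  · exact h1 x z hz
  · exact h3 x z hz
  · exact Iso.ov h h' hp hs hs' h1 h2 hz
  · exact Iso.ov h' h hp hs' hs h3 h4 hz
  · exact Iso.left h h' hp hs hs' h1 h2 h3 h4 hz
  · exact Iso.left h' h hp hs' hs h3 h4 h1 h2 hz

theorem twist_of_data (h : Ell σ π S) (h' : Ell σ' π' S') (he : ∀ q, Per h.spr q = Per h'.spr q)
    (d : ∃ (t : ℂ) (s₀ s₁ : ℂ → X), SecOn π (fun z => (1, z)) s₀ univ ∧
      SecOn π (fun z => (z, 1)) s₁ univ ∧ ∀ z, z ≠ 0 → s₁ z⁻¹ = S (s₀ z, (1, z), t / z))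
    (d' : ∃ (t : ℂ) (s₀ s₁ : ℂ → X'), SecOn π' (fun z => (1, z)) s₀ univ ∧
      SecOn π' (fun z => (z, 1)) s₁ univ ∧ ∀ z, z ≠ 0 → s₁ z⁻¹ = S' (s₀ z, (1, z), t / z)) :
    Twist X X' := by
  obtain ⟨t, s₀, s₁, d0, d1, d2⟩ := d
  obtain ⟨t', s₀', s₁', d0', d1', d2'⟩ := d'
  obtain ⟨a₀, a0⟩ := exists_pt (p := (0, 1)) (by simp)
  obtain ⟨a₁, a1⟩ := exists_pt (p := (1, 0)) (by simp)
  have p0 : Coord fun z => (1, z) := Or.inl rfl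
  obtain ⟨φ₀, ψ₀, i0, e0⟩ := iso_of_sec h h' he p0 d0 d0' (Iso.ne0 a0)
  obtain ⟨φ₁, ψ₁, i1, e1⟩ := iso_of_sec h h' he (Or.inr rfl) d1 d1' (Iso.ne1 a1)
  refine ⟨σ', π, π', a₀, a₁, φ₀, φ₁, ψ₀, ψ₁, t' - t, h'.sym, h.hol, h'.hol, a0, a1, i0, i1,
    fun x x0 x1 => ?_⟩
  obtain ⟨z, hz⟩ := (Iso.ne0 a0 _).1 x0
  obtain ⟨b, hb⟩ := p0.exists_fun h.hol
  obtain ⟨b1, b2, b3⟩ := hb x z hz
  have hz0 : b x ≠ 0 := fun e => x1 (hz.inj (by rw [← b1, e]; exact a1))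
  have r : ∀ y, Rep (1, b y) (π y) → Rep (1, b y) (π' (φ₀ y)) := fun y hy => by
    rw [i0.ov y ((Iso.ne0 a0 _).2 ⟨_, hy⟩)]
    exact hy
  have rx := r x b3.self_of_nhds
  refine ⟨fun τ => S' (φ₀ x, (1, b x), τ), spray_hamCurve h'.hol h'.spr rx,
    h'.spr.zero _ _ rx, ?_⟩
  rw [hz.aff_eq, div_one, ← b1]
  have cb : ContinuousAt b x := b2.continuousAt
  have c1 : ContinuousAt (fun y => (φ₀ y, ((1 : ℂ), b y), (t' - t) / b y)) x :=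
    (i0.hol x x0).continuousAt.prodMk ((continuousAt_const.prodMk cb).prodMk
      (continuousAt_const.div cb hz0))
  have c2 : ContinuousAt (fun y => S' (φ₀ y, ((1 : ℂ), b y), (t' - t) / b y)) x :=
    (h'.spr.hol.cont _ rx).tendsto.comp
      (tendsto_nhdsWithin_iff.2 ⟨c1.tendsto, b3.mono fun y hy => r y hy⟩)
  refine Iso.ext h c2 (i1.hol x x1).continuousAt ?_
  filter_upwards [b3, cb.eventually_ne hz0] with y y1 y2 y3
  obtain ⟨c, hc⟩ := Iso.par h p0 d0 y1 y3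
  have k1 := Iso.chg h d0 y2 (d2 _ y2) (b y ^ 2 * (c - t / b y))
  have k2 := Iso.chg h' d0' y2 (d2' _ y2) (b y ^ 2 * (c - t / b y))
  have k3 : t / b y + (b y)⁻¹ ^ 2 * (b y ^ 2 * (c - t / b y)) = c := by
    field_simp
    ring
  have k4 : t' / b y + (b y)⁻¹ ^ 2 * (b y ^ 2 * (c - t / b y)) = c + (t' - t) / b y := by
    field_simp
    ring
  rw [k3, hc] at k1
  have k5 : φ₁ y = S' (s₀' (b y), (1, b y), c + (t' - t) / b y) := by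
    rw [← k4, ← k2, ← e1, k1]
  have k6 : φ₀ y = S' (s₀' (b y), (1, b y), c) := by rw [← e0, hc]
  rw [k5, k6, h'.spr.add _ _ _ _ (Iso.rep d0' _)]

end Vale.Agent.P290
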