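import Vale.Agent.P290G.EInv

/-! Removable singularities. -/

open Set Filter Metric Polynomial
open scoped Manifold ContDiff Topology

noncomputable section

namespace Vale.Agent.P290

variable {X : Type} [TopologicalSpace X] [ChartedSpace C2 X] [IsManifold 𝓘(ℂ, C2) ω X]
  {X' : Type} [TopologicalSpace X'] [ChartedSpace C2 X'] [IsManifold 𝓘(ℂ, C2) ω X']

namespace Rem

theorem rank : 1 < Module.rank ℝ C2 := by
  have h : Module.finrank ℝ C2 = 4 := by
    rw [(WithLp.linearEquiv 2 ℝ (Fin 2 → ℂ)).finrank_eq, Module.finrank_pi_fintype]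
    simp
  rw [← Module.finrank_eq_rank, h]
  norm_num

theorem punct (q₀ : C2) (r : ℝ) : IsPreconnected (ball q₀ r \ {q₀}) := by
  have h : ball q₀ r \ {q₀} =
      (fun v : ℝ × C2 => q₀ + v.1 • v.2) '' (Ioo 0 r ×ˢ sphere (0 : C2) 1) := by
    ext q
    constructor
    · rintro ⟨h1, h2⟩
      have h3 : 0 < ‖q - q₀‖ := norm_pos_iff.2 (sub_ne_zero.2 h2)
      refine ⟨(‖q - q₀‖, ‖q - q₀‖⁻¹ • (q - q₀)), ⟨⟨h3, mem_ball_iff_norm.1 h1⟩, ?_⟩, ?_⟩
      · rw [mem_sphere_zero_iff_norm, norm_smul, norm_inv, norm_norm, inv_mul_cancel₀ h3.ne']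
      · simp only [smul_smul, mul_inv_cancel₀ h3.ne', one_smul, add_sub_cancel]
    · rintro ⟨⟨t, u⟩, ⟨⟨h1, h2⟩, h3⟩, rfl⟩
      have h4 : ‖q₀ + t • u - q₀‖ = t := by
        rw [add_sub_cancel_left, norm_smul, mem_sphere_zero_iff_norm.1 h3, mul_one,
          Real.norm_of_nonneg h1.le]
      refine ⟨mem_ball_iff_norm.2 (h4.trans_lt h2), fun h5 => ?_⟩
      rw [show q₀ + t • u = q₀ from h5, sub_self, norm_zero] at h4
      exact h1.ne h4
  rw [h]
  exact (isPreconnected_Ioo.prod (isPreconnected_sphere rank 0 1)).image _ (by fun_prop)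

omit [IsManifold 𝓘(ℂ, C2) ω X] in
theorem small {x₀ : X} {A : Set X} (hA : A ∈ 𝓝[≠] x₀) :
    ∃ B ∈ 𝓝[≠] x₀, B ⊆ A ∧ IsPreconnected B := by
  let e := chartAt C2 x₀
  have hx : x₀ ∈ e.source := mem_chart_source C2 x₀
  have h1 : ∀ᶠ q in 𝓝 (e x₀), q ∈ e.target ∧ (e.symm q ≠ x₀ → e.symm q ∈ A) :=
    Eventually.and (e.open_target.mem_nhds (e.map_source hx))
      ((e.tendsto_symm hx).eventually (eventually_nhdsWithin_iff.1 hA))
  obtain ⟨r, hr, h2⟩ := Metric.eventually_nhds_iff_ball.1 h1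
  refine ⟨e.symm '' (ball (e x₀) r \ {e x₀}), ?_, ?_, (punct _ _).image _
    (e.continuousOn_symm.mono fun q hq => (h2 q hq.1).1)⟩
  · refine eventually_nhdsWithin_iff.2 ?_
    filter_upwards [e.open_source.mem_nhds hx, e.continuousAt hx (ball_mem_nhds _ hr)]
      with y h3 h4 h5
    exact ⟨e y, ⟨h4, fun h6 => h5 (e.injOn h3 hx h6)⟩, e.left_inv h3⟩
  · rintro _ ⟨q, hq, rfl⟩
    refine (h2 q hq.1).2 fun h3 => hq.2 ?_
    rw [← h3, e.right_inv (h2 q hq.1).1]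
    rfl

omit [ChartedSpace C2 X'] [IsManifold 𝓘(ℂ, C2) ω X'] in
theorem lim [T2Space X'] [CompactSpace X'] {φ : X → X'} {x₀ : X}
    (hφ : ∀ᶠ y in 𝓝[≠] x₀, ContinuousAt φ y) {F : Set X'} (hF : F.Finite)
    (hc : ∀ y' ∉ F, ∃ N ∈ 𝓝 y', ∀ᶠ y in 𝓝[≠] x₀, φ y ∉ N) :
    ∃ y', Tendsto φ (𝓝[≠] x₀) (𝓝 y') := by
  have h1 : ∀ V : Set X', IsOpen V → F ⊆ V → ∀ᶠ y in 𝓝[≠] x₀, φ y ∈ V := by
    intro V hV hFV
    have h2 := hV.isClosed_compl.isCompact.compl_mem_sets_of_nhdsWithin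
      (f := map φ (𝓝[≠] x₀)) fun y' hy' => by
        obtain ⟨N, hN, h3⟩ := hc y' fun h => hy' (hFV h)
        exact ⟨N, mem_nhdsWithin_of_mem_nhds hN, h3⟩
    rwa [compl_compl] at h2
  obtain ⟨U, hU, hd⟩ := hF.t2_separation
  have := nhdsNE_neBot x₀
  obtain ⟨B, hB, h2, h3⟩ := small (hφ.and (h1 (⋃ y ∈ F, U y)
    (isOpen_biUnion fun y _ => (hU y).2) fun y hy => mem_biUnion hy (hU y).1))
  obtain ⟨b, hb⟩ := Filter.nonempty_of_mem hB
  obtain ⟨y', hy', h4⟩ := mem_iUnion₂.1 (h2 hb).2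
  have h5 : Disjoint (U y') (⋃ y ∈ F \ {y'}, U y) :=
    disjoint_iUnion₂_right.2 fun y hy => hd hy' hy.1 (Ne.symm hy.2)
  have h6 : IsOpen (⋃ y ∈ F \ {y'}, U y) := isOpen_biUnion fun y _ => (hU y).2
  have h7 : φ '' B ⊆ U y' := by
    refine (h3.image φ fun y hy => (h2 hy).1.continuousWithinAt).subset_left_of_subset_union
      (hU y').2 h6 h5 ?_ ⟨φ b, mem_image_of_mem _ hb, h4⟩
    rintro _ ⟨y, hy, rfl⟩
    obtain ⟨z, hz, h8⟩ := mem_iUnion₂.1 (h2 hy).2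
    by_cases h9 : z = y'
    · exact Or.inl (h9 ▸ h8)
    · exact Or.inr (mem_biUnion ⟨hz, h9⟩ h8)
  refine ⟨y', (nhds_basis_opens y').tendsto_right_iff.2 fun V hV => ?_⟩
  filter_upwards [hB, h1 (V ∪ ⋃ y ∈ F \ {y'}, U y) (hV.2.union h6) fun z hz => by
    by_cases h9 : z = y'
    · exact Or.inl (h9 ▸ hV.1)
    · exact Or.inr (mem_biUnion ⟨hz, h9⟩ (hU z).1)] with y h8 h9
  exact h9.resolve_right (disjoint_left.1 h5 (h7 (mem_image_of_mem _ h8)))

end Rem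

theorem rem_fun {f : C2 → C2} {q₀ : C2} (hf : ∀ᶠ q in 𝓝[≠] q₀, AnalyticAt ℂ f q)
    (hc : ContinuousAt f q₀) : AnalyticAt ℂ f q₀ := by
  obtain ⟨R, hR, h1⟩ := Metric.eventually_nhds_iff_ball.1 (eventually_nhdsWithin_iff.1 hf)
  obtain ⟨e, he⟩ : ∃ e : C2, ‖e‖ = 1 := ⟨EuclideanSpace.single 0 1, by simp⟩
  have e0 : e ≠ 0 := norm_ne_zero_iff.1 (he ▸ one_ne_zero)
  have h2 : ∀ w ∈ ball q₀ (R / 2), ∀ z ∈ closedBall (0 : ℂ) (R / 2), w + z • e ∈ ball q₀ R := by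
    intro w hw z hz
    rw [mem_ball_iff_norm] at hw ⊢
    rw [add_sub_right_comm]
    refine (norm_add_le _ _).trans_lt ?_
    rw [norm_smul, he, mul_one]
    linarith [mem_closedBall_zero_iff.1 hz]
  have h3 : ∀ q ∈ ball q₀ R, ContinuousAt f q := fun q hq => by
    by_cases h : q = q₀
    · exact h ▸ hc
    · exact (h1 q hq h).continuousAt
  have h4 : AnalyticAt ℂ (fun w => ∮ z in C(0, R / 2), (z - 0)⁻¹ • f (w + z • e)) q₀ := by
    simp only [circleIntegral, deriv_circleMap]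
    refine analytic_integral (H := fun v : C2 × ℂ => (v.2 * Complex.I) • (v.2 - 0)⁻¹ •
      f (v.1 + v.2 • e)) (continuous_circleMap 0 (R / 2)) fun s _ => ?_
    have z0 : circleMap 0 (R / 2) s ≠ 0 := circleMap_ne_center (half_pos hR).ne'
    refine (analyticAt_snd.mul analyticAt_const).smul
      (((analyticAt_snd.sub analyticAt_const).inv (by simpa using z0)).smul ?_)
    refine AnalyticAt.comp_of_eq (h1 _ (h2 q₀ (mem_ball_self (half_pos hR)) _
      (circleMap_mem_closedBall 0 (half_pos hR).le s)) ?_)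
      (analyticAt_fst.add (analyticAt_snd.smul analyticAt_const)) rfl
    simp [z0, e0]
  refine (h4.const_smul (c := (2 * Real.pi * Complex.I : ℂ)⁻¹)).congr ?_
  filter_upwards [ball_mem_nhds q₀ (half_pos hR)] with w hw
  have h5 := Complex.circleIntegral_sub_center_inv_smul_of_differentiable_on_off_countable
    (half_pos hR) (f := fun z : ℂ => f (w + z • e)) (c := 0) (s := {z | w + z • e = q₀})
    (Set.Subsingleton.countable fun z hz z' hz' =>
      smul_left_injective ℂ e0 (add_left_cancel (hz.trans hz'.symm)))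
    (fun z hz => (ContinuousAt.comp (f := fun z : ℂ => w + z • e) (h3 _ (h2 w hw z hz))
      (by fun_prop)).continuousWithinAt)
    (fun z hz => DifferentiableAt.comp (f := fun z : ℂ => w + z • e) z
      (h1 _ (h2 w hw z (ball_subset_closedBall hz.1)) hz.2).differentiableAt (by fun_prop))
  simp only [Pi.smul_apply]
  rw [h5, smul_smul, inv_mul_cancel₀ Complex.two_pi_I_ne_zero, one_smul, zero_smul, add_zero]

theorem rem_sing [T2Space X'] [CompactSpace X'] {φ : X → X'} {x₀ : X}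
    (hφ : ∀ᶠ y in 𝓝[≠] x₀, ContMDiffAt 𝓘(ℂ, C2) 𝓘(ℂ, C2) ω φ y) {F : Set X'} (hF : F.Finite)
    (hc : ∀ y' ∉ F, ∃ N ∈ 𝓝 y', ∀ᶠ y in 𝓝[≠] x₀, φ y ∉ N) :
    ∃ φ' : X → X', ContMDiffAt 𝓘(ℂ, C2) 𝓘(ℂ, C2) ω φ' x₀ ∧ ∀ y, y ≠ x₀ → φ' y = φ y := by
  classical
  have := ChartedSpace.t1Space C2 X
  obtain ⟨y', hy'⟩ := Rem.lim (hφ.mono fun y hy => hy.continuousAt) hF hc
  refine ⟨Function.update φ x₀ y', ?_, fun y hy => Function.update_of_ne hy _ _⟩
  have h0 : Function.update φ x₀ y' x₀ = y' := Function.update_self _ _ _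
  have h1 : ContinuousAt (Function.update φ x₀ y') x₀ := continuousAt_update_same.2 hy'
  have h2 : ∀ᶠ y in 𝓝 x₀, y ≠ x₀ →
      ContMDiffAt 𝓘(ℂ, C2) 𝓘(ℂ, C2) ω (Function.update φ x₀ y') y := by
    filter_upwards [eventually_nhdsWithin_iff.1 hφ] with y h3 h4
    refine (h3 h4).congr_of_eventuallyEq ?_
    filter_upwards [isOpen_compl_singleton.mem_nhds h4] with z hz
    exact Function.update_of_ne hz _ _
  generalize Function.update φ x₀ y' = ψ at h0 h1 h2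
  let e := chartAt C2 x₀
  let e' := chartAt C2 y'
  have hx : x₀ ∈ e.source := mem_chart_source C2 x₀
  have hy : ψ x₀ ∈ e'.source := h0 ▸ mem_chart_source C2 y'
  have h3 : ∀ᶠ y in 𝓝 x₀, ψ y ∈ e'.source := h1 (e'.open_source.mem_nhds hy)
  have h4 : AnalyticAt ℂ (fun q => e' (ψ (e.symm q))) (e x₀) := by
    refine rem_fun (eventually_nhdsWithin_iff.2 ?_) ?_
    · filter_upwards [e.open_target.mem_nhds (e.map_source hx),
        (e.tendsto_symm hx).eventually (h2.and h3)] with q q1 q2 q3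
      refine (holF_chart y' q2.2).comp (f := fun q => ψ (e.symm q))
        ((q2.1 fun h5 => q3 ?_).comp q (hol_symm x₀ q1))
      rw [← h5, e.right_inv q1]
      rfl
    · have h5 : Tendsto (fun q => e' (ψ (e.symm q))) (𝓝 (e x₀)) (𝓝 (e' (ψ x₀))) :=
        (e'.continuousAt hy).tendsto.comp (h1.tendsto.comp (e.tendsto_symm hx))
      simpa only [ContinuousAt, e.left_inv hx] using h5
  have h5 : Hol (fun q => e'.symm (e' (ψ (e.symm q)))) (e x₀) :=
    Hol.comp (hol_symm y' (by rw [e.left_inv hx]; exact e'.map_source hy)) h4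
  refine (ContMDiffAt.comp x₀ h5 (holF_chart x₀ hx)).congr_of_eventuallyEq ?_
  filter_upwards [e.open_source.mem_nhds hx, h3] with y y1 y2
  simp only [Function.comp_apply]
  rw [e.left_inv y1, e'.left_inv y2]

end Vale.Agent.P290
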