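import Vale.Agent.P290G.EPer
import Vale.Agent.P290G.Rem

/-! Maps between fibrations with the same periods. -/

open Set Filter Metric Polynomial
open scoped Manifold ContDiff Topology

noncomputable section

namespace Vale.Agent.P290

variable {X : Type} [TopologicalSpace X] [ChartedSpace C2 X] [IsManifold 𝓘(ℂ, C2) ω X]
  [T2Space X] [CompactSpace X] {σ : Form2 X} {π : X → P1} {S : X × (ℂ × ℂ) × ℂ → X}
  {X' : Type} [TopologicalSpace X'] [ChartedSpace C2 X'] [IsManifold 𝓘(ℂ, C2) ω X']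
  [T2Space X'] [CompactSpace X'] {σ' : Form2 X'} {π' : X' → P1} {S' : X' × (ℂ × ℂ) × ℂ → X'}
  {p : ℂ → ℂ × ℂ} {s : ℂ → X} {s' : ℂ → X'} {a : P1}

namespace IsoM

omit [IsManifold 𝓘(ℂ, C2) ω X] [T2Space X] [CompactSpace X] in
theorem rep (hs : SecOn π p s univ) (z : ℂ) : Rep (p z) (π (s z)) :=
  (hs z trivial).2.self_of_nhds

omit [IsManifold 𝓘(ℂ, C2) ω X] [T2Space X] [CompactSpace X] in
theorem rep' (h : Ell σ π S) (hs : SecOn π p s univ) (z t : ℂ) :
    Rep (p z) (π (S (s z, p z, t))) := by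
  rw [h.spr.fib _ _ _ (rep hs z)]
  exact rep hs z

omit [T2Space X] [CompactSpace X] in
theorem hol (h : Ell σ π S) (hp : Coord p) (hs : SecOn π p s univ) (v : ℂ × ℂ) :
    Hol (fun v : ℂ × ℂ => S (s v.1, p v.1, v.2)) v :=
  RelHol.comp h.spr.hol (h := fun v : ℂ × ℂ => s v.1) (g := fun v : ℂ × ℂ => (p v.1, v.2))
    (Hol.comp (f := s) (g := Prod.fst) (hs v.1 trivial).1 analyticAt_fst)
    (((hp.analytic v.1).comp analyticAt_fst).prod analyticAt_snd)
    (Eventually.of_forall fun w => rep hs w.1)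

omit [T2Space X] [CompactSpace X] in
theorem reg (h : Ell σ π S) (hp : Coord p) (hs : SecOn π p s univ) (z t : ℂ) :
    Reg π (S (s z, p z, t)) :=
  Reg.flow h.sym h.hol h.spr (hs.reg h.hol hp (mem_univ z)) (rep hs z) t

omit [T2Space X] [CompactSpace X] in
theorem surj (h : Ell σ π S) (hp : Coord p) (hs : SecOn π p s univ) {x : X} {z : ℂ}
    (hz : Rep (p z) (π x)) (hx : Reg π x) : ∃ t, S (s z, p z, t) = x :=
  h.trans (s z) x (p z) (rep hs z) hz (hs.reg h.hol hp (mem_univ z)) hx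

omit [T2Space X] [CompactSpace X] [T2Space X'] [CompactSpace X'] in
theorem key (h : Ell σ π S) (h' : Ell σ' π' S') (he : ∀ q, Per h.spr q = Per h'.spr q)
    (hp : Coord p) (hs : SecOn π p s univ) (hs' : SecOn π' p s' univ) {z t w u : ℂ}
    (e : S (s z, p z, t) = S (s w, p w, u)) : S' (s' z, p z, t) = S' (s' w, p w, u) := by
  have h1 := rep' h hs z t
  rw [e] at h1
  obtain rfl := hp.inj h1 (rep' h hs w u)
  have h2 : S (s z, p z, t - u) = s z := by
    rw [sub_eq_add_neg, ← h.spr.add _ _ _ _ (rep hs z), e, h.spr.add _ _ _ _ (rep hs z),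
      add_neg_cancel, h.spr.zero _ _ (rep hs z)]
  have h3 := (h.mem_per (rep hs z) (hs.reg h.hol hp (mem_univ z))).2 h2
  rw [he] at h3
  have h4 := (h'.mem_per (rep hs' z) (hs'.reg h'.hol hp (mem_univ z))).1 h3
  have h5 := h'.spr.add _ _ (t - u) u (rep hs' z)
  rw [h4, sub_add_cancel] at h5
  exact h5.symm

omit [IsManifold 𝓘(ℂ, C2) ω X] [CompactSpace X] in
theorem ev_reg (h : Ell σ π S) (x : X) : ∀ᶠ y in 𝓝 x, y ≠ x → Reg π y := by
  have h1 : IsClosed ({y | ¬ Reg π y} \ {x}) := (h.fin.subset sdiff_subset).isClosed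
  filter_upwards [h1.isOpen_compl.mem_nhds fun hx => hx.2 rfl] with y hy hne
  by_contra h2
  exact hy ⟨h2, hne⟩

end IsoM

theorem map_reg (h : Ell σ π S) (h' : Ell σ' π' S') (he : ∀ q, Per h.spr q = Per h'.spr q)
    (hp : Coord p) (hs : SecOn π p s univ) (hs' : SecOn π' p s' univ) :
    ∃ φ : X → X', (∀ x z, Rep (p z) (π x) → Reg π x → ContMDiffAt 𝓘(ℂ, C2) 𝓘(ℂ, C2) ω φ x) ∧
      ∀ z t, φ (S (s z, p z, t)) = S' (s' z, p z, t) := by
  classical
  have hφ : ∃ φ : X → X', ∀ z t, φ (S (s z, p z, t)) = S' (s' z, p z, t) := by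
    refine ⟨fun x => if hx : ∃ v : ℂ × ℂ, S (s v.1, p v.1, v.2) = x then
      S' (s' hx.choose.1, p hx.choose.1, hx.choose.2) else s' 0, fun z t => ?_⟩
    have hx : ∃ v : ℂ × ℂ, S (s v.1, p v.1, v.2) = S (s z, p z, t) := ⟨(z, t), rfl⟩
    beta_reduce
    rw [dif_pos hx]
    exact IsoM.key h h' he hp hs hs' hx.choose_spec
  obtain ⟨φ, hφ⟩ := hφ
  refine ⟨φ, fun x z hz hx => ?_, hφ⟩
  obtain ⟨t, rfl⟩ := IsoM.surj h hp hs hz hx
  obtain ⟨H, h1, -, h2⟩ := loc_inv h.sym h.hol h.spr hp (s := s) (z₀ := z)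
    (fun w _ => hs w trivial) t
  refine (ContMDiffAt.comp _ (IsoM.hol h' hp hs' (H (S (s z, p z, t))))
    h1).congr_of_eventuallyEq ?_
  filter_upwards [h2] with y hy
  rw [Function.comp_apply, ← hφ, hy.2]

theorem map_of_sec (h : Ell σ π S) (h' : Ell σ' π' S') (he : ∀ q, Per h.spr q = Per h'.spr q)
    (hp : Coord p) (hs : SecOn π p s univ) (hs' : SecOn π' p s' univ) :
    ∃ φ : X → X', (∀ x z, Rep (p z) (π x) → ContMDiffAt 𝓘(ℂ, C2) 𝓘(ℂ, C2) ω φ x) ∧
      ∀ z t, φ (S (s z, p z, t)) = S' (s' z, p z, t) := by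
  obtain ⟨φ, h1, h2⟩ := map_reg h h' he hp hs hs'
  obtain ⟨ψ, h3, h4⟩ := map_reg h' h (fun q => (he q).symm) hp hs' hs
  obtain ⟨b, hb⟩ := hp.exists_fun h.hol
  have h5 : ∀ x₀ : X, ∃ φ' : X → X',
      (∀ z, Rep (p z) (π x₀) → ContMDiffAt 𝓘(ℂ, C2) 𝓘(ℂ, C2) ω φ' x₀) ∧
      (∀ y, y ≠ x₀ → φ' y = φ y) ∧ (Reg π x₀ → φ' x₀ = φ x₀) := by
    intro x₀
    by_cases hr : Reg π x₀
    · exact ⟨φ, fun z hz => h1 x₀ z hz hr, fun _ _ => rfl, fun _ => rfl⟩
    by_cases hz : ∃ z, Rep (p z) (π x₀)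
    swap
    · exact ⟨φ, fun z hz' => absurd ⟨z, hz'⟩ hz, fun _ _ => rfl, fun _ => rfl⟩
    obtain ⟨z₀, hz⟩ := hz
    obtain ⟨hb0, hb1, hb2⟩ := hb x₀ z₀ hz
    have h6 : ∀ᶠ y in 𝓝[≠] x₀, Rep (p (b y)) (π y) ∧ Reg π y := by
      filter_upwards [nhdsWithin_le_nhds hb2, nhdsWithin_le_nhds (IsoM.ev_reg h x₀),
        self_mem_nhdsWithin] with y hy1 hy2 hy3 using ⟨hy1, hy2 hy3⟩
    obtain ⟨φ', h7, h8⟩ := rem_sing (φ := φ) (x₀ := x₀)
      (h6.mono fun y hy => h1 y _ hy.1 hy.2) h'.fin fun y' hy' => by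
        have hy'' : Reg π' y' := not_not.1 hy'
        by_cases hz' : Rep (p z₀) (π' y')
        · obtain ⟨t, rfl⟩ := IsoM.surj h' hp hs' hz' hy''
          have h9 : ψ (S' (s' z₀, p z₀, t)) ≠ x₀ := by
            rw [h4]
            intro e
            exact hr (e ▸ IsoM.reg h hp hs z₀ t)
          obtain ⟨U, V, hU, hV, hUV⟩ := t2_separation_nhds h9
          refine ⟨ψ ⁻¹' U, (h3 _ _ hz' hy'').continuousAt hU, ?_⟩
          filter_upwards [h6, nhdsWithin_le_nhds hV] with y hy hyV hN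
          obtain ⟨u, hu⟩ := IsoM.surj h hp hs hy.1 hy.2
          have h10 : ψ (φ y) = y := by rw [← hu, h2, h4]
          rw [mem_preimage, h10] at hN
          exact disjoint_left.1 hUV hN hyV
        · obtain ⟨l, hl1, hl2⟩ := h'.hol y'
          obtain ⟨a, ha⟩ := exists_pt (hp.ne z₀)
          have hc : ContinuousAt (fun v : X' × ℂ =>
              (l v.1).1 * (p v.2).2 - (l v.1).2 * (p v.2).1) (y', z₀) := by
            have c1 : ContinuousAt (fun v : X' × ℂ => l v.1) (y', z₀) :=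
              ContinuousAt.comp (g := l) hl1.continuousAt continuousAt_fst
            have c2 : ContinuousAt (fun v : X' × ℂ => p v.2) (y', z₀) :=
              ContinuousAt.comp (g := p) (hp.analytic z₀).continuousAt continuousAt_snd
            exact (c1.fst.mul c2.snd).sub (c1.snd.mul c2.fst)
          have h9 := hc.eventually_ne (y := 0) fun e =>
            hz' ((hl2.self_of_nhds.eq_iff ha).2 (sub_eq_zero.1 e) ▸ ha)
          rw [nhds_prod_eq] at h9
          obtain ⟨N, hN, W, hW, h10⟩ := eventually_prod_iff.1 h9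
          refine ⟨{w | N w ∧ Rep (l w) (π' w)}, hN.and hl2, ?_⟩
          have h11 : ∀ᶠ y in 𝓝 x₀, W (b y) := hb1.continuousAt.eventually (hb0.symm ▸ hW)
          filter_upwards [h6, nhdsWithin_le_nhds h11] with y hy hyW hy2
          obtain ⟨u, hu⟩ := IsoM.surj h hp hs hy.1 hy.2
          have h12 : Rep (p (b y)) (π' (φ y)) := by
            have := IsoM.rep' h' hs' (b y) u
            rwa [← h2, hu] at this
          exact h10 hy2.1 hyW (sub_eq_zero.2 ((hy2.2.eq_iff h12).1 rfl))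
    exact ⟨φ', fun _ _ => h7, h8, fun hr' => absurd hr' hr⟩
  choose φ' h6 h7 h8 using h5
  refine ⟨fun x => φ' x x, fun x z hz => (h6 x z hz).congr_of_eventuallyEq ?_, fun z t => ?_⟩
  · filter_upwards [IsoM.ev_reg h x] with y hy
    by_cases e : y = x
    · rw [e]
    · rw [h8 y (hy e), h7 x y e]
  · rw [← h2]
    exact h8 _ (IsoM.reg h hp hs z t)

end Vale.Agent.P290
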