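import Vale.Agent.P290G.Defs

/-! Laurent splitting. -/

open Set Filter Metric Polynomial
open scoped Manifold ContDiff Topology

noncomputable section

namespace Vale.Agent.P290

namespace Laur

theorem an_circ {R : ℝ} (hR : 0 ≤ R) {G : ℂ × ℂ → ℂ} {z : ℂ}
    (h : ∀ ζ ∈ sphere (0 : ℂ) R, AnalyticAt ℂ G (z, ζ)) :
    AnalyticAt ℂ (fun w => ∮ ζ in C(0, R), G (w, ζ)) z := by
  have h1 := analytic_integral (H := fun v : ℂ × ℂ => (v.2 * Complex.I) • G v)
    (continuous_circleMap 0 R) (α := 0) (β := 2 * Real.pi) (z := z) fun s _ =>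
      (analyticAt_snd.mul analyticAt_const).smul (h _ (circleMap_mem_sphere 0 hR s))
  simpa only [circleIntegral, deriv_circleMap] using h1

theorem annulus {r : ℝ} (hr : 0 < r) {τ : ℂ → ℂ} (hτ : AnalyticOnNhd ℂ τ (sphere 0 r)) :
    ∃ δ : ℝ, 0 < δ ∧ δ < r ∧ ∀ z : ℂ, r - δ ≤ ‖z‖ → ‖z‖ ≤ r + δ → AnalyticAt ℂ τ z := by
  obtain ⟨δ, hδ, h⟩ := (isCompact_sphere (0 : ℂ) r).exists_cthickening_subset_open
    (isOpen_analyticAt ℂ τ) hτ
  refine ⟨min δ (r / 2), by positivity, (min_le_right _ _).trans_lt (by linarith),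
    fun z h1 h2 => h ?_⟩
  have h3 := min_le_left δ (r / 2)
  have h4 := min_le_right δ (r / 2)
  have hz : 0 < ‖z‖ := by linarith
  refine mem_cthickening_of_dist_le z (((r / ‖z‖ : ℝ) : ℂ) * z) δ _ ?_ ?_
  · rw [mem_sphere_zero_iff_norm, norm_mul, Complex.norm_real, Real.norm_of_nonneg (by positivity)]
    field_simp
  · have e : z - ((r / ‖z‖ : ℝ) : ℂ) * z = ((1 - r / ‖z‖ : ℝ) : ℂ) * z := by
      push_cast
      ring
    have e2 : (1 - r / ‖z‖) * ‖z‖ = ‖z‖ - r := by field_simp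
    rw [dist_eq_norm, e, norm_mul, Complex.norm_real, Real.norm_eq_abs, ← abs_of_pos hz, ← abs_mul,
      abs_of_pos hz, e2, abs_le]
    constructor <;> linarith

theorem cauchy {a b : ℝ} (ha : 0 < a) {τ : ℂ → ℂ}
    (hτ : ∀ z : ℂ, a ≤ ‖z‖ → ‖z‖ ≤ b → AnalyticAt ℂ τ z) {z : ℂ} (h1 : a < ‖z‖) (h2 : ‖z‖ < b) :
    (∮ ζ in C(0, b), (ζ - z)⁻¹ * τ ζ) - (∮ ζ in C(0, a), (ζ - z)⁻¹ * τ ζ) =
      2 * Real.pi * Complex.I * τ z := by
  have hab : a ≤ b := (h1.trans h2).le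
  have hb : 0 ≤ b := ha.le.trans hab
  have hz := hτ z h1.le h2.le
  have hd : ∀ ζ : ℂ, a ≤ ‖ζ‖ → ‖ζ‖ ≤ b → ContinuousAt (dslope τ z) ζ := fun ζ h3 h4 => by
    by_cases h : ζ = z
    · rw [h]
      exact continuousAt_dslope_same.2 hz.differentiableAt
    · exact (continuousAt_dslope_of_ne h).2 (hτ ζ h3 h4).continuousAt
  have key := Complex.circleIntegral_eq_of_differentiable_on_annulus_off_countable (c := 0) ha hab
    (f := dslope τ z) (countable_singleton z)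
    (fun ζ hζ => (hd ζ (by simpa using hζ.2) (by simpa using hζ.1)).continuousWithinAt)
    (fun ζ hζ => (differentiableAt_dslope_of_ne hζ.2).2
      (hτ ζ (le_of_lt (by simpa using hζ.1.2)) (le_of_lt (by simpa using hζ.1.1))).differentiableAt)
  have split : ∀ R : ℝ, a ≤ R → R ≤ b → R ≠ ‖z‖ → (∮ ζ in C(0, R), dslope τ z ζ) =
      (∮ ζ in C(0, R), (ζ - z)⁻¹ * τ ζ) - (∮ ζ in C(0, R), (ζ - z)⁻¹) * τ z := by
    intro R h3 h4 h5
    have hR : 0 ≤ R := ha.le.trans h3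
    have hne : ∀ ζ ∈ sphere (0 : ℂ) R, ζ ≠ z := fun ζ hζ e =>
      h5 (by rw [← e]; exact (mem_sphere_zero_iff_norm.1 hζ).symm)
    have c1 : ContinuousOn (fun ζ : ℂ => (ζ - z)⁻¹) (sphere 0 R) :=
      (continuousOn_id.sub continuousOn_const).inv₀ fun ζ hζ => sub_ne_zero.2 (hne ζ hζ)
    have c2 : ContinuousOn τ (sphere 0 R) := fun ζ hζ =>
      (hτ ζ (by rw [mem_sphere_zero_iff_norm.1 hζ]; exact h3)
        (by rw [mem_sphere_zero_iff_norm.1 hζ]; exact h4)).continuousAt.continuousWithinAt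
    have j1 : CircleIntegrable (fun ζ : ℂ => (ζ - z)⁻¹ * τ ζ) 0 R :=
      (c1.mul c2).circleIntegrable hR
    have j2 : CircleIntegrable (fun ζ : ℂ => (ζ - z)⁻¹ • τ z) 0 R :=
      (c1.smul continuousOn_const).circleIntegrable hR
    rw [← smul_eq_mul (∮ ζ in C(0, R), (ζ - z)⁻¹), ← circleIntegral.integral_smul_const,
      ← circleIntegral.integral_sub j1 j2]
    refine circleIntegral.integral_congr hR fun ζ hζ => ?_
    simp only [dslope_of_ne τ (hne ζ hζ), slope_def_field, smul_eq_mul]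
    ring
  have i1 : (∮ ζ in C(0, b), (ζ - z)⁻¹) = 2 * Real.pi * Complex.I :=
    circleIntegral.integral_sub_inv_of_mem_ball (mem_ball_zero_iff.2 h2)
  have hne : ∀ ζ ∈ closedBall (0 : ℂ) a, ζ - z ≠ 0 := fun ζ hζ e => by
    rw [sub_eq_zero.1 e, mem_closedBall_zero_iff] at hζ
    linarith
  have i2 : (∮ ζ in C(0, a), (ζ - z)⁻¹) = 0 :=
    Complex.circleIntegral_eq_zero_of_differentiable_on_off_countable ha.le countable_empty
      ((continuousOn_id.sub continuousOn_const).inv₀ hne) fun ζ hζ =>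
        (differentiableAt_id.sub_const z).inv (hne ζ (ball_subset_closedBall hζ.1))
  rw [split b hab le_rfl h2.ne', split a le_rfl hab h1.ne, i1, i2] at key
  linear_combination key

end Laur

theorem laurent {r : ℝ} (hr : 0 < r) {τ : ℂ → ℂ} (hτ : AnalyticOnNhd ℂ τ (sphere 0 r)) :
    ∃ (τ₀ τ₁ : ℂ → ℂ) (t : ℂ), AnalyticOnNhd ℂ τ₀ (closedBall 0 r) ∧
      AnalyticOnNhd ℂ τ₁ (closedBall 0 r⁻¹) ∧
      ∀ᶠ z in 𝓝ˢ (sphere (0 : ℂ) r), τ z = τ₀ z + t / z + τ₁ z⁻¹ / z ^ 2 := by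
  obtain ⟨δ, hδ, hδr, h⟩ := Laur.annulus hr hτ
  have ha : 0 < r - δ := by linarith
  have hb : 0 ≤ r + δ := by linarith
  have hI : (2 * Real.pi * Complex.I : ℂ) ≠ 0 := Complex.two_pi_I_ne_zero
  have ta : ∀ ζ ∈ sphere (0 : ℂ) (r - δ), AnalyticAt ℂ τ ζ := fun ζ hζ =>
    h ζ (mem_sphere_zero_iff_norm.1 hζ).ge (by rw [mem_sphere_zero_iff_norm.1 hζ]; linarith)
  have tb : ∀ ζ ∈ sphere (0 : ℂ) (r + δ), AnalyticAt ℂ τ ζ := fun ζ hζ =>
    h ζ (by rw [mem_sphere_zero_iff_norm.1 hζ]; linarith) (mem_sphere_zero_iff_norm.1 hζ).le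
  refine ⟨fun z => (2 * Real.pi * Complex.I)⁻¹ * ∮ ζ in C(0, r + δ), (ζ - z)⁻¹ * τ ζ,
    fun w => (2 * Real.pi * Complex.I)⁻¹ * ∮ ζ in C(0, r - δ), (1 - ζ * w)⁻¹ * (ζ * τ ζ),
    (2 * Real.pi * Complex.I)⁻¹ * ∮ ζ in C(0, r - δ), τ ζ, fun z hz => ?_, fun w hw => ?_, ?_⟩
  · refine analyticAt_const.mul (Laur.an_circ hb (G := fun v => (v.2 - v.1)⁻¹ * τ v.2)
      fun ζ hζ => ((analyticAt_snd.sub analyticAt_fst).inv fun e => ?_).mul
        ((tb ζ hζ).comp_of_eq analyticAt_snd rfl))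
    have e' : ζ = z := sub_eq_zero.1 e
    rw [e', mem_sphere_zero_iff_norm] at hζ
    rw [mem_closedBall_zero_iff] at hz
    linarith
  · refine analyticAt_const.mul (Laur.an_circ ha.le
      (G := fun v => (1 - v.2 * v.1)⁻¹ * (v.2 * τ v.2))
      fun ζ hζ => ((analyticAt_const.sub (analyticAt_snd.mul analyticAt_fst)).inv fun e => ?_).mul
        (analyticAt_snd.mul ((ta ζ hζ).comp_of_eq analyticAt_snd rfl)))
    have e' : 1 = ζ * w := sub_eq_zero.1 e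
    have e2 := congrArg norm e'
    rw [norm_one, norm_mul, mem_sphere_zero_iff_norm.1 hζ] at e2
    rw [mem_closedBall_zero_iff] at hw
    have h1 := mul_le_mul_of_nonneg_left hw ha.le
    rw [← e2, ← div_eq_mul_inv, one_le_div hr] at h1
    linarith
  · have ho : IsOpen {z : ℂ | r - δ < ‖z‖ ∧ ‖z‖ < r + δ} :=
      (isOpen_lt continuous_const continuous_norm).inter (isOpen_lt continuous_norm continuous_const)
    have hm : {z : ℂ | r - δ < ‖z‖ ∧ ‖z‖ < r + δ} ∈ 𝓝ˢ (sphere (0 : ℂ) r) :=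
      ho.mem_nhdsSet.2 fun z hz => by
        rw [mem_setOf_eq, mem_sphere_zero_iff_norm.1 hz]
        constructor <;> linarith
    filter_upwards [hm] with z hz
    have hz0 : z ≠ 0 := norm_pos_iff.1 (ha.trans hz.1)
    have hne : ∀ ζ ∈ sphere (0 : ℂ) (r - δ), ζ - z ≠ 0 := fun ζ hζ e => by
      rw [sub_eq_zero.1 e, mem_sphere_zero_iff_norm] at hζ
      linarith [hz.1]
    have hne2 : ∀ ζ ∈ sphere (0 : ℂ) (r - δ), 1 - ζ * z⁻¹ ≠ 0 := fun ζ hζ e => by
      refine hne ζ hζ ?_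
      field_simp at e
      linear_combination -e
    have c2 : ContinuousOn τ (sphere 0 (r - δ)) := fun ζ hζ =>
      (ta ζ hζ).continuousAt.continuousWithinAt
    have c3 : ContinuousOn (fun ζ : ℂ => (1 - ζ * z⁻¹)⁻¹ * (ζ * τ ζ)) (sphere 0 (r - δ)) :=
      ((continuousOn_const.sub (continuousOn_id.mul continuousOn_const)).inv₀ hne2).mul
        (continuousOn_id.mul c2)
    have e : (∮ ζ in C(0, r - δ), (ζ - z)⁻¹ * τ ζ) =
        -z⁻¹ * (∮ ζ in C(0, r - δ), τ ζ) -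
          (z ^ 2)⁻¹ * ∮ ζ in C(0, r - δ), (1 - ζ * z⁻¹)⁻¹ * (ζ * τ ζ) := by
      have j1 : CircleIntegrable (fun ζ : ℂ => -z⁻¹ * τ ζ) 0 (r - δ) :=
        (continuousOn_const.mul c2).circleIntegrable ha.le
      have j2 : CircleIntegrable
          (fun ζ : ℂ => (z ^ 2)⁻¹ * ((1 - ζ * z⁻¹)⁻¹ * (ζ * τ ζ))) 0 (r - δ) :=
        (continuousOn_const.mul c3).circleIntegrable ha.le
      rw [← circleIntegral.integral_const_mul, ← circleIntegral.integral_const_mul,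
        ← circleIntegral.integral_sub j1 j2]
      refine circleIntegral.integral_congr ha.le fun ζ hζ => ?_
      have h1 := hne ζ hζ
      have h2 : z - ζ ≠ 0 := fun e => h1 (by linear_combination -e)
      have h3 : 1 - ζ * z⁻¹ = (z - ζ) * z⁻¹ := by field_simp
      simp only [h3]
      field_simp
      ring
    have key := Laur.cauchy ha h hz.1 hz.2
    rw [e] at key
    have e3 : τ z = (2 * Real.pi * Complex.I)⁻¹ * (2 * Real.pi * Complex.I * τ z) := by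
      rw [inv_mul_cancel_left₀ hI]
    rw [e3, ← key]
    ring

end Vale.Agent.P290
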