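import Vale.Agent.P290G.WP2

/-! The duplication formula. -/

open Set Filter Metric Polynomial
open scoped Manifold ContDiff Topology

noncomputable section

namespace Vale.Agent.P290

namespace WP3

theorem half_notMem (L : PeriodPair) {v : ℂ} (hv : v ∉ L.lattice) : v / 2 ∉ L.lattice :=
  fun h => hv (by
    have := add_mem h h
    rwa [add_halves] at this)

theorem half_ne (L : PeriodPair) {v : ℂ} (hv : v ∉ L.lattice) :
    L.derivWeierstrassP (v / 2) ≠ 0 := fun h => hv (by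
  have := (wp'_zero L (half_notMem L hv)).1 h
  rwa [mul_div_cancel₀ v two_ne_zero] at this)

/-- the right hand side of the duplication formula -/
def Y (L : PeriodPair) (v : ℂ) : ℂ :=
  -2 * L.weierstrassP (v / 2) +
    (12 * L.weierstrassP (v / 2) ^ 2 - L.g₂) ^ 2 / (16 * L.derivWeierstrassP (v / 2) ^ 2)

theorem an_half (v : ℂ) : AnalyticAt ℂ (fun w : ℂ => w / 2) v :=
  analyticAt_id.div analyticAt_const two_ne_zero

theorem an_x (L : PeriodPair) {v : ℂ} (hv : v ∉ L.lattice) :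
    AnalyticAt ℂ (fun w => L.weierstrassP (w / 2)) v :=
  (L.analyticOnNhd_weierstrassP _ (half_notMem L hv)).comp_of_eq (an_half v) rfl

theorem an_y (L : PeriodPair) {v : ℂ} (hv : v ∉ L.lattice) :
    AnalyticAt ℂ (fun w => L.derivWeierstrassP (w / 2)) v :=
  (L.analyticOnNhd_derivWeierstrassP _ (half_notMem L hv)).comp_of_eq (an_half v) rfl

theorem an_Y (L : PeriodPair) : AnalyticOnNhd ℂ (Y L) (L.lattice : Set ℂ)ᶜ := fun _ hv =>
  (analyticAt_const.mul (an_x L hv)).add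
    ((((analyticAt_const.mul ((an_x L hv).pow 2)).sub analyticAt_const).pow 2).div
      (analyticAt_const.mul ((an_y L hv).pow 2))
      (mul_ne_zero (by norm_num) (pow_ne_zero 2 (half_ne L hv))))

theorem has_x (L : PeriodPair) {v : ℂ} (hv : v ∉ L.lattice) :
    HasDerivAt (fun w => L.weierstrassP (w / 2)) (L.derivWeierstrassP (v / 2) * (1 / 2)) v := by
  have h1 : HasDerivAt L.weierstrassP (L.derivWeierstrassP (v / 2)) (v / 2) := by
    have := (L.analyticOnNhd_weierstrassP _ (half_notMem L hv)).differentiableAt.hasDerivAt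
    rwa [L.deriv_weierstrassP] at this
  exact HasDerivAt.comp (h := fun w : ℂ => w / 2) v h1 ((hasDerivAt_id v).div_const 2)

theorem has_y (L : PeriodPair) {v : ℂ} (hv : v ∉ L.lattice) :
    HasDerivAt (fun w => L.derivWeierstrassP (w / 2))
      ((6 * L.weierstrassP (v / 2) ^ 2 - L.g₂ / 2) * (1 / 2)) v := by
  have h1 : HasDerivAt L.derivWeierstrassP (6 * L.weierstrassP (v / 2) ^ 2 - L.g₂ / 2) (v / 2) := by
    have := (L.analyticOnNhd_derivWeierstrassP _ (half_notMem L hv)).differentiableAt.hasDerivAt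
    rwa [wp_deriv2 L (half_notMem L hv)] at this
  exact HasDerivAt.comp (h := fun w : ℂ => w / 2) v h1 ((hasDerivAt_id v).div_const 2)

/-- the numerator of the derivative -/
def Q (g₂ x e : ℂ) : ℂ := -32 * e ^ 2 + 48 * (12 * x ^ 2 - g₂) * x * e - (12 * x ^ 2 - g₂) ^ 3

theorem deriv_Y (L : PeriodPair) {v : ℂ} (hv : v ∉ L.lattice) :
    deriv (Y L) v = Q L.g₂ (L.weierstrassP (v / 2)) (L.derivWeierstrassP (v / 2) ^ 2) /
      (32 * L.derivWeierstrassP (v / 2) ^ 3) := by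
  have h0 := half_ne L hv
  have h := ((has_x L hv).const_mul (-2)).add
    ((((((has_x L hv).pow 2).const_mul 12).sub_const L.g₂).pow 2).div
      (((has_y L hv).pow 2).const_mul 16) (mul_ne_zero (by norm_num) (pow_ne_zero 2 h0)))
  refine (HasDerivAt.deriv h).trans ?_
  simp only [Q, Pi.pow_apply]
  field_simp
  ring

theorem ode_Y (L : PeriodPair) {v : ℂ} (hv : v ∉ L.lattice) :
    deriv (Y L) v ^ 2 = 4 * Y L v ^ 3 - L.g₂ * Y L v - L.g₃ := by
  have h0 := half_ne L hv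
  have h1 := L.derivWeierstrassP_sq _ (half_notMem L hv)
  rw [deriv_Y L hv]
  simp only [Y, Q]
  generalize L.weierstrassP (v / 2) = x at *
  generalize L.derivWeierstrassP (v / 2) = y at *
  have h2 : L.g₃ = 4 * x ^ 3 - L.g₂ * x - y ^ 2 := by linear_combination h1
  rw [h2]
  field_simp
  ring

theorem exists_ne (g₂ g₃ : ℂ) :
    ∃ x : ℂ, (4 * x ^ 3 - g₂ * x - g₃) * Q g₂ x (4 * x ^ 3 - g₂ * x - g₃) ≠ 0 := by
  by_contra hc
  have h : ∀ x : ℂ, (4 * x ^ 3 - g₂ * x - g₃) * Q g₂ x (4 * x ^ 3 - g₂ * x - g₃) = 0 :=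
    fun x => by_contra fun h0 => hc ⟨x, h0⟩
  simp only [Q] at h
  have : (92897280 : ℂ) = 0 := by
    linear_combination -h 0 + 9 * h 1 - 36 * h 2 + 84 * h 3 - 126 * h 4 + 126 * h 5 - 84 * h 6 +
      36 * h 7 - 9 * h 8 + h 9
  norm_num at this

theorem nonconst (L : PeriodPair) : ∃ v ∉ (L.lattice : Set ℂ), deriv (Y L) v ≠ 0 := by
  obtain ⟨x, hx⟩ := exists_ne L.g₂ L.g₃
  obtain ⟨y, hy⟩ := IsAlgClosed.exists_pow_nat_eq (4 * x ^ 3 - L.g₂ * x - L.g₃) two_pos
  obtain ⟨a, ha, h1, h2⟩ := wp_surj L hy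
  rw [← hy] at hx
  have hy0 : y ≠ 0 := fun h => left_ne_zero_of_mul hx (by rw [h, zero_pow two_ne_zero])
  have h3 : 2 * a ∉ L.lattice := fun h => hy0 (h2.symm.trans ((wp'_zero L ha).2 h))
  refine ⟨2 * a, h3, ?_⟩
  rw [deriv_Y L h3, mul_div_cancel_left₀ a two_ne_zero, h1, h2]
  exact div_ne_zero (right_ne_zero_of_mul hx) (mul_ne_zero (by norm_num) (pow_ne_zero 3 hy0))

theorem Y_eq (L : PeriodPair) {v : ℂ} (hv : v ∉ L.lattice) : Y L v = L.weierstrassP v := by
  obtain ⟨a, ha⟩ := wp_match L L.isClosed_lattice (lattice_countable L) (an_Y L)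
    (fun _ h => ode_Y L h) (nonconst L)
  have h1 : a ∈ L.lattice := by_contra fun h =>
    (ha (-a) fun h' => h (neg_mem_iff.1 h')).1 (by
      rw [neg_add_cancel]
      exact zero_mem _)
  rw [(ha v hv).2]
  exact L.weierstrassP_add_coe v ⟨a, h1⟩

end WP3

theorem wp_dup (L : PeriodPair) {u : ℂ} (hu : 2 * u ∉ L.lattice) :
    16 * L.derivWeierstrassP u ^ 2 * (L.weierstrassP (2 * u) + 2 * L.weierstrassP u) =
      (12 * L.weierstrassP u ^ 2 - L.g₂) ^ 2 := by
  have h0 := WP3.half_ne L hu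
  have h1 := WP3.Y_eq L hu
  rw [WP3.Y] at h1
  rw [mul_div_cancel_left₀ u two_ne_zero] at h0 h1
  rw [← h1]
  field_simp
  ring

end Vale.Agent.P290
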