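import Vale.Agent.P290G.WP1

/-! A uniform bound. -/

open Set Filter Metric Polynomial
open scoped Manifold ContDiff Topology

noncomputable section

namespace Vale.Agent.P290

namespace WP4

/-- The odd integers attached to a point. -/
def cell (q : ℂ) : Fin 2 → ℤ := ![2 * ⌊q.re⌋ + 1, 2 * ⌊q.im⌋ + 1]

theorem odd_le (a : ℝ) : ‖2 * ⌊a⌋ + 1‖ ≤ 2 * |a| + 1 := by
  have h1 := Int.floor_le a
  have h2 := Int.lt_floor_add_one a
  have h3 := le_abs_self a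
  have h4 := neg_abs_le a
  rw [Int.norm_eq_abs, abs_le]
  push_cast
  constructor <;> linarith

theorem cell_le (q : ℂ) : ‖cell q‖ ≤ 2 * ‖q‖ + 1 := by
  refine (pi_norm_le_iff_of_nonneg (by positivity)).2 fun i => ?_
  fin_cases i
  · exact (odd_le q.re).trans (by linarith [Complex.abs_re_le_norm q])
  · exact (odd_le q.im).trans (by linarith [Complex.abs_im_le_norm q])

theorem cell_pos (q : ℂ) : 0 < ‖cell q‖ := by
  refine norm_pos_iff.2 fun h => ?_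
  have h1 : 2 * ⌊q.re⌋ + 1 = 0 := congrFun h 0
  omega

theorem cell_eq {p q : ℂ} (h : cell p = cell q) : ‖p - q‖ < 2 := by
  have h1 : 2 * ⌊p.re⌋ + 1 = 2 * ⌊q.re⌋ + 1 := congrFun h 0
  have h2 : 2 * ⌊p.im⌋ + 1 = 2 * ⌊q.im⌋ + 1 := congrFun h 1
  have h3 := Int.abs_sub_lt_one_of_floor_eq_floor (show ⌊p.re⌋ = ⌊q.re⌋ by omega)
  have h4 := Int.abs_sub_lt_one_of_floor_eq_floor (show ⌊p.im⌋ = ⌊q.im⌋ by omega)
  have h5 := Complex.norm_le_abs_re_add_abs_im (p - q)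
  rw [Complex.sub_re, Complex.sub_im] at h5
  linarith

theorem sep : ∃ S : ℝ, 0 ≤ S ∧ ∀ (L : PeriodPair) (ε : ℝ), 0 < ε →
    (∀ l ∈ L.lattice, l ≠ 0 → ε ≤ ‖l‖) → ∀ (c : ℂ) (f : L.lattice → ℂ) (K : ℝ), 0 ≤ K →
      (∀ l, f l = 0 ∨ (ε / 2 ≤ ‖c - l‖ ∧ ‖f l‖ ≤ K / ‖c - l‖ ^ 3)) →
        ‖∑' l, f l‖ ≤ K * S / ε ^ 3 := by
  have hs := EisensteinSeries.summable_one_div_norm_rpow (k := 3) (by norm_num)
  have h0 : ∀ x : Fin 2 → ℤ, 0 ≤ ‖x‖ ^ (-3 : ℝ) := fun x => by positivity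
  refine ⟨216 * ∑' x : Fin 2 → ℤ, ‖x‖ ^ (-3 : ℝ), mul_nonneg (by norm_num) (tsum_nonneg h0),
    fun L ε hε hL c f K hK hf => ?_⟩
  have hn : ∀ w : ℂ, ‖((2 / ε : ℝ) : ℂ) * w‖ = 2 / ε * ‖w‖ := fun w => by
    rw [norm_mul, Complex.norm_real, Real.norm_of_nonneg (by positivity)]
  have hi : Function.Injective fun l : L.lattice => cell (((2 / ε : ℝ) : ℂ) * (c - l)) := by
    intro a b hab
    by_contra h
    have h1 := cell_eq hab
    have h2 := hL _ (sub_mem b.2 a.2) fun h3 => h (Subtype.ext (sub_eq_zero.1 h3).symm)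
    rw [← mul_sub, sub_sub_sub_cancel_left, hn, div_mul_eq_mul_div, div_lt_iff₀ hε] at h1
    linarith
  refine (tsum_of_norm_bounded
    ((hs.comp_injective hi).mul_left (216 * K / ε ^ 3)).hasSum fun l => ?_).trans ?_
  · obtain h | ⟨h1, h2⟩ := hf l
    · rw [h, norm_zero]
      exact mul_nonneg (by positivity) (h0 _)
    · refine h2.trans ?_
      have h3 := cell_le (((2 / ε : ℝ) : ℂ) * (c - l))
      have h4 := cell_pos (((2 / ε : ℝ) : ℂ) * (c - l))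
      rw [hn] at h3
      simp only [Function.comp_apply]
      generalize ‖cell (((2 / ε : ℝ) : ℂ) * (c - l))‖ = x at h3 h4
      generalize ‖c - l‖ = y at h1 h3
      have hy : 0 < y := by linarith
      have h5 : x * ε ≤ 6 * y := by
        have h6 := mul_le_mul_of_nonneg_right h3 hε.le
        rw [add_mul, show 2 * (2 / ε * y) * ε = 4 * y by field_simp; norm_num] at h6
        linarith
      have h6 := mul_le_mul_of_nonneg_left (pow_le_pow_left₀ (by positivity) h5 3) hK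
      rw [Real.rpow_neg h4.le, ← div_eq_mul_inv, div_div, div_le_div_iff₀ (by positivity)
        (by positivity), show (3 : ℝ) = (3 : ℕ) by norm_num, Real.rpow_natCast]
      linarith
  · rw [tsum_mul_left]
    refine (mul_le_mul_of_nonneg_left (tsum_comp_le_tsum_of_inj hs h0 hi) (by positivity)).trans_eq
      ?_
    ring

theorem G_le {S : ℝ} {L : PeriodPair} {ε : ℝ} (hε : 0 < ε)
    (hL : ∀ l ∈ L.lattice, l ≠ 0 → ε ≤ ‖l‖)
    (h : ∀ (c : ℂ) (f : L.lattice → ℂ) (K : ℝ), 0 ≤ K →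
      (∀ l, f l = 0 ∨ (ε / 2 ≤ ‖c - l‖ ∧ ‖f l‖ ≤ K / ‖c - l‖ ^ 3)) →
        ‖∑' l, f l‖ ≤ K * S / ε ^ 3) (n : ℕ) : ‖L.G (n + 3)‖ ≤ S / ε ^ (n + 3) := by
  refine (h 0 _ (ε ^ n)⁻¹ (by positivity) fun l => ?_).trans_eq (by field_simp; ring)
  by_cases hl : (l : ℂ) = 0
  · left
    simp [hl]
  · have h1 := hL l l.2 hl
    refine Or.inr ⟨by rw [zero_sub, norm_neg]; linarith, ?_⟩
    rw [zero_sub, norm_neg, norm_inv, norm_pow, pow_add, mul_inv, div_eq_mul_inv]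
    gcongr

end WP4

theorem wp_bound : ∃ C : ℝ, ∀ (L : PeriodPair) (ε : ℝ), 0 < ε →
    (∀ l ∈ L.lattice, l ≠ 0 → ε ≤ ‖l‖) → ∀ c : ℂ, (∀ l ∈ L.lattice, ε / 2 ≤ ‖c - l‖) →
      ‖L.weierstrassP c‖ ≤ C / ε ^ 2 := by
  obtain ⟨S, hS, h⟩ := WP4.sep
  refine ⟨1 + S ^ 2 + 50 * S, fun L ε hε hL c hc => ?_⟩
  have h4 : ‖L.G 4‖ ≤ S / ε ^ 4 := WP4.G_le hε hL (h L ε hε hL) 1
  have h6 : ‖L.G 6‖ ≤ S / ε ^ 6 := WP4.G_le hε hL (h L ε hε hL) 3
  have h1 : ‖L.derivWeierstrassP c‖ ≤ 2 * S / ε ^ 3 := by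
    rw [PeriodPair.derivWeierstrassP, norm_neg]
    refine h L ε hε hL c _ 2 zero_le_two fun l => Or.inr ⟨hc l l.2, ?_⟩
    rw [norm_div, norm_pow, Complex.norm_ofNat]
  have h2 := L.derivWeierstrassP_sq c fun h3 => by
    have h5 := hc c h3
    rw [sub_self, norm_zero] at h5
    linarith
  have h3 : 4 * ‖L.weierstrassP c‖ ^ 3 ≤ ‖L.derivWeierstrassP c‖ ^ 2 +
      60 * ‖L.G 4‖ * ‖L.weierstrassP c‖ + 140 * ‖L.G 6‖ := by
    have h5 : 4 * L.weierstrassP c ^ 3 =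
        L.derivWeierstrassP c ^ 2 + 60 * L.G 4 * L.weierstrassP c + 140 * L.G 6 := by
      rw [h2, PeriodPair.g₂, PeriodPair.g₃]
      ring
    have h7 := (congrArg norm h5).trans_le norm_add₃_le
    simpa only [norm_mul, norm_pow, Complex.norm_ofNat] using h7
  rw [le_div_iff₀ (by positivity)] at h1 h4 h6 ⊢
  have h5 := pow_le_pow_left₀ (by positivity) h1 2
  have h7 := mul_le_mul_of_nonneg_right h3 (pow_pos hε 6).le
  have h8 : 0 ≤ ‖L.weierstrassP c‖ * ε ^ 2 := by positivity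
  have h9 := mul_le_mul_of_nonneg_right h4 h8
  obtain ⟨y, hy⟩ : ∃ y, y = ‖L.weierstrassP c‖ * ε ^ 2 := ⟨_, rfl⟩
  have h10 : y ^ 3 ≤ S ^ 2 + 15 * S * y + 35 * S := by
    rw [hy]
    linarith
  rw [← hy]
  by_contra h11
  rw [not_le] at h11
  have h12 : 1 ≤ y := by nlinarith
  have h13 : y * y ≤ y ^ 3 := by nlinarith [mul_nonneg (sq_nonneg y) (sub_nonneg.2 h12)]
  have h14 := mul_lt_mul_of_pos_right h11 (zero_lt_one.trans_le h12)
  nlinarith [mul_nonneg (sq_nonneg S) (sub_nonneg.2 h12), mul_nonneg hS (sub_nonneg.2 h12)]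

end Vale.Agent.P290
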