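import Vale.Agent.P290G.NT1
import Vale.Agent.P290G.WP3
import Vale.Agent.P290G.WP4
import Vale.Agent.P290G.WP5

/-! There are no torsion sections. -/

open Set Filter Metric Polynomial
open scoped Manifold ContDiff Topology

noncomputable section

namespace Vale.Agent.P290

variable {Λ : ℂ → AddSubgroup ℂ} {ω₁ ω₂ η₁ η₂ ν ν' : ℂ → ℂ} {K : Set ℂ}

namespace NT2

theorem poly_bound (R : ℂ[X]) : ∃ C : ℝ, ∀ z : ℂ, ‖R.eval z‖ ≤ C * (1 + ‖z‖) ^ R.natDegree := by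
  refine ⟨∑ i ∈ Finset.range (R.natDegree + 1), ‖R.coeff i‖, fun z => ?_⟩
  rw [eval_eq_sum_range, Finset.sum_mul]
  refine (norm_sum_le _ _).trans (Finset.sum_le_sum fun i hi => ?_)
  rw [norm_mul, norm_pow]
  refine mul_le_mul_of_nonneg_left ?_ (norm_nonneg _)
  refine (pow_le_pow_left₀ (norm_nonneg _) (le_add_of_nonneg_left zero_le_one) i).trans ?_
  exact pow_le_pow_right₀ (le_add_of_nonneg_right (norm_nonneg _))
    (Nat.lt_succ_iff.1 (Finset.mem_range.1 hi))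

theorem mul_notMem {G : AddSubgroup ℂ} {p k : ℕ} (hp : p.Prime) (hk : ¬ p ∣ k) {t : ℂ}
    (h1 : (p : ℂ) * t ∈ G) (h2 : t ∉ G) : (k : ℂ) * t ∉ G := by
  intro h3
  obtain ⟨a, b, hab⟩ := Nat.isCoprime_iff_coprime.2 ((Nat.Prime.coprime_iff_not_dvd hp).2 hk)
  have h4 : (a : ℂ) * p + b * k = 1 := by exact_mod_cast congrArg (Int.cast (R := ℂ)) hab
  refine h2 ?_
  have h5 : t = a • ((p : ℂ) * t) + b • ((k : ℂ) * t) := by
    simp only [zsmul_eq_mul]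
    linear_combination -t * h4
  rw [h5]
  exact G.add_mem (G.zsmul_mem h1 a) (G.zsmul_mem h3 b)

theorem analytic {D : Set ℂ} (hD : D.Finite) (hT : LocTriv Λ Dᶜ) {L : ℂ → PeriodPair}
    (hL : ∀ z ∉ D, (Λ z : Set ℂ) = (L z).lattice) {P : ℂ → ℂ} (hP : ASec Λ P Dᶜ) (k : ℕ)
    (hk : ∀ z ∉ D, (k : ℂ) * P z ∉ Λ z) :
    AnalyticOnNhd ℂ (fun z => (L z).weierstrassP (k * P z)) Dᶜ ∧
      AnalyticOnNhd ℂ (fun z => (L z).derivWeierstrassP (k * P z)) Dᶜ := by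
  have key : ∀ z ∈ Dᶜ, AnalyticAt ℂ (fun z => (L z).weierstrassP (k * P z)) z ∧
      AnalyticAt ℂ (fun z => (L z).derivWeierstrassP (k * P z)) z := by
    intro z hz
    obtain ⟨c, hc, hev⟩ := hP z hz
    obtain ⟨ω₁, ω₂, hb⟩ := hT z hz
    have h1 : ∀ᶠ w in 𝓝 z, (Λ w : Set ℂ) = (L w).lattice :=
      Filter.mem_of_superset (hD.isClosed.isOpen_compl.mem_nhds hz) fun w hw => hL w hw
    have h2 : ∀ w, P w - c w ∈ Λ w → (k : ℂ) * P w - k * c w ∈ Λ w := fun w hw => by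
      simpa [mul_sub] using (Λ w).nsmul_mem hw k
    have h3 : (k : ℂ) * c z ∉ Λ z := fun h => hk z hz (by
      simpa using (Λ z).add_mem (h2 z hev.self_of_nhds) h)
    obtain ⟨a1, a2⟩ := wp_analytic hb h1 (c := fun w => (k : ℂ) * c w)
      (analyticAt_const.mul hc) h3
    have h4 : ∀ᶠ w in 𝓝 z, ∃ l : (L w).lattice, (k : ℂ) * P w = k * c w + l := by
      filter_upwards [hev, h1] with w a b
      have h5 : (k : ℂ) * P w - k * c w ∈ ((L w).lattice : Set ℂ) := b ▸ h2 w a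
      exact ⟨⟨_, h5⟩, by simp⟩
    refine ⟨a1.congr ?_, a2.congr ?_⟩
    · filter_upwards [h4] with w ⟨l, hl⟩
      rw [hl, PeriodPair.weierstrassP_add_coe]
    · filter_upwards [h4] with w ⟨l, hl⟩
      rw [hl, PeriodPair.derivWeierstrassP_add_coe]
  exact ⟨fun z hz => (key z hz).1, fun z hz => (key z hz).2⟩

theorem bound {ε : ℝ} (hε : 0 < ε) {p : ℕ} (hp : 0 < p) : ∃ C : ℝ, ∀ (z t : ℂ) (G : AddSubgroup ℂ)
    (L : PeriodPair), (G : Set ℂ) = L.lattice → (∀ s ∈ G, s ≠ 0 → ε ≤ (1 + ‖z‖) ^ 2 * ‖s‖) →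
      (p : ℂ) * t ∈ G → t ∉ G → ‖L.weierstrassP t‖ ≤ C * (1 + ‖z‖) ^ 4 := by
  obtain ⟨C, hC⟩ := wp_bound
  refine ⟨C * p ^ 2 / ε ^ 2, fun z t G L hG hs h1 h2 => ?_⟩
  have hm : ∀ l, l ∈ L.lattice → l ∈ G := fun l hl => by
    have : l ∈ (G : Set ℂ) := hG ▸ hl
    exact this
  have hz : 0 < (1 + ‖z‖) ^ 2 := by positivity
  have hp1 : (1 : ℝ) ≤ p := by exact_mod_cast hp
  have h3 : ∀ s ∈ G, s ≠ 0 → ε / (1 + ‖z‖) ^ 2 ≤ ‖s‖ := fun s a b => by
    rw [div_le_iff₀' hz]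
    exact hs s a b
  have hδ : 0 < ε / (1 + ‖z‖) ^ 2 := div_pos hε hz
  have h4 := hC L (ε / (1 + ‖z‖) ^ 2 / p) (by positivity)
    (fun l a b => (div_le_self hδ.le hp1).trans (h3 l (hm l a) b)) t fun l a => by
      have h5 : (p : ℂ) * (t - l) ∈ G := by
        simpa [mul_sub] using G.sub_mem h1 (G.nsmul_mem (hm l a) p)
      have h6 : (p : ℂ) * (t - l) ≠ 0 := mul_ne_zero (by exact_mod_cast hp.ne')
        (sub_ne_zero.2 fun h => h2 (h ▸ hm l a))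
      have h7 := h3 _ h5 h6
      rw [norm_mul, Complex.norm_natCast] at h7
      refine (half_le_self (by positivity)).trans ?_
      rwa [div_le_iff₀' (by positivity)]
  refine h4.trans (le_of_eq ?_)
  field_simp

end NT2

theorem no_tors {A B : ℂ[X]} (hA : A.natDegree ≤ 8) (hB : B.natDegree ≤ 12)
    (hd : (disc A B).natDegree = 24) (hs : WSm A B) (hI : Inv Λ A B)
    (hT : LocTriv Λ {z | (disc A B).eval z = 0}ᶜ) {ε : ℝ} (hε : 0 < ε)
    (hsh : ∀ z, ∀ t ∈ Λ z, t ≠ 0 → ε ≤ (1 + ‖z‖) ^ 2 * ‖t‖) {p : ℕ} (hp : p.Prime) (P : ℂ → ℂ) :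
    ¬ Tors Λ {z | (disc A B).eval z = 0} p P := by
  intro hP
  have hD := disc_finite hd
  obtain ⟨z₀, hz₀⟩ := hD.infinite_compl.nonempty
  have : Nonempty PeriodPair := ⟨(hI z₀ hz₀).choose⟩
  choose! L h2 h3 hL using hI
  obtain ⟨C, hC⟩ := NT2.bound hε hp.pos
  have hx : ∀ k : ℕ, ¬ p ∣ k → ∃ Q : ℂ[X], Q.natDegree ≤ 4 ∧
      ∀ z ∉ {z | (disc A B).eval z = 0}, Q.eval z = (L z).weierstrassP (k * P z) := by
    intro k hk
    have h4 := fun z hz => NT2.mul_notMem hp hk (hP.2 z hz).1 (hP.2 z hz).2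
    refine poly_of_growth hD (NT2.analytic hD hT hL hP.1 k h4).1 (C := C) fun z hz =>
      hC z _ _ _ (hL z hz) (hsh z) ?_ (h4 z hz)
    simpa [mul_left_comm] using (Λ z).nsmul_mem (hP.2 z hz).1 k
  have hn : ∀ z ∉ {z | (disc A B).eval z = 0}, ∀ t, t ∈ (L z).lattice ↔ t ∈ Λ z := fun z hz t => by
    rw [← SetLike.mem_coe, ← hL z hz, SetLike.mem_coe]
  obtain ⟨x, hx1, hx2⟩ := hx 1 hp.not_dvd_one
  simp only [Nat.cast_one, one_mul] at hx2
  have hy : ∀ z ∉ {z | (disc A B).eval z = 0}, (L z).derivWeierstrassP (P z) ^ 2 =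
      (4 * x ^ 3 - A * x - B).eval z := fun z hz => by
    rw [(L z).derivWeierstrassP_sq _ fun h => (hP.2 z hz).2 ((hn z hz _).1 h), h2 z hz, h3 z hz,
      ← hx2 z hz]
    simp
  by_cases h2p : p ∣ 2
  · obtain rfl := (Nat.prime_dvd_prime_iff_eq hp Nat.prime_two).1 h2p
    refine no_tors_two hA hB hd hs hx1 (eq_of_infinite_eval_eq _ _ (hD.infinite_compl.mono ?_))
    intro z hz
    have h5 := (wp'_zero (L z) fun h => (hP.2 z hz).2 ((hn z hz _).1 h)).2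
      ((hn z hz _).2 (by simpa using (hP.2 z hz).1))
    have h6 := hy z hz
    rw [h5] at h6
    simpa using h6.symm
  · obtain ⟨x₂, hx3, hx4⟩ := hx 2 h2p
    obtain ⟨C', hC'⟩ := NT2.poly_bound (4 * x ^ 3 - A * x - B)
    have h4 := (NT2.analytic hD hT hL hP.1 1 fun z hz => by simpa using (hP.2 z hz).2).2
    simp only [Nat.cast_one, one_mul] at h4
    obtain ⟨y, -, hy2⟩ := poly_of_growth hD h4 (C := 1 + C')
      (k := (4 * x ^ 3 - A * x - B).natDegree) fun z hz => by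
        have h5 := hC' z
        rw [← hy z hz, norm_pow] at h5
        have h6 : 1 ≤ (1 + ‖z‖) ^ (4 * x ^ 3 - A * x - B).natDegree :=
          one_le_pow₀ (le_add_of_nonneg_right (norm_nonneg _))
        nlinarith [sq_nonneg (‖(L z).derivWeierstrassP (P z)‖ - 1)]
    refine no_tors_odd hA hB hd hs hx1 hx3 (y := y)
      (eq_of_infinite_eval_eq _ _ (hD.infinite_compl.mono fun z hz => ?_))
      (eq_of_infinite_eval_eq _ _ (hD.infinite_compl.mono fun z hz => ?_))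
    · change eval z _ = eval z _
      rw [← hy z hz, eval_pow, hy2 z hz]
    · have h5 := wp_dup (L z) (u := P z) fun h =>
        NT2.mul_notMem hp h2p (hP.2 z hz).1 (hP.2 z hz).2 (by simpa using (hn z hz _).1 h)
      have h6 := hx4 z hz
      rw [Nat.cast_ofNat] at h6
      rw [← h6, ← hx2 z hz, ← hy2 z hz, h2 z hz] at h5
      simpa using h5

end Vale.Agent.P290
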