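import Vale.Agent.P290G.QInv
import Vale.Agent.P290G.NT1

/-! Forms with smooth Jacobian surface. -/

open Set Filter Metric Polynomial
open scoped Manifold ContDiff Topology

noncomputable section

namespace Vale.Agent.P290

namespace QAlg

/-- Degree at most `n` with top coefficient `a`. -/
def Top (n : ℕ) (p : ℂ[X]) (a : ℂ) : Prop := p.natDegree ≤ n ∧ p.coeff n = a

theorem Top.mul {m n : ℕ} {p q : ℂ[X]} {a b : ℂ} (h : Top m p a) (h' : Top n q b) :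
    Top (m + n) (p * q) (a * b) :=
  ⟨natDegree_mul_le.trans (add_le_add h.1 h'.1), by
    rw [coeff_mul_add_eq_of_natDegree_le h.1 h'.1, h.2, h'.2]⟩

theorem Top.add {n : ℕ} {p q : ℂ[X]} {a b : ℂ} (h : Top n p a) (h' : Top n q b) :
    Top n (p + q) (a + b) :=
  ⟨(natDegree_add_le _ _).trans (max_le h.1 h'.1), by rw [coeff_add, h.2, h'.2]⟩

theorem Top.cmul {n : ℕ} {p : ℂ[X]} {a : ℂ} (h : Top n p a) (t : ℂ) : Top n (C t * p) (t * a) :=
  ⟨(natDegree_C_mul_le _ _).trans h.1, by rw [coeff_C_mul, h.2]⟩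

theorem Top.congr {n : ℕ} {p q : ℂ[X]} {a b : ℂ} (h : Top n p a) (e : ∀ z, q.eval z = p.eval z)
    (e' : b = a) : Top n q b := by
  rwa [Polynomial.funext e, e']

theorem top_cof (c : Fin 5 → Fin 5 → ℂ) (i : Fin 5) :
    ∃ P : ℂ[X], Top 4 P (cof c (0, 1) i) ∧ ∀ z, P.eval z = cof c (1, z) i := by
  refine ⟨∑ j : Fin 5, C (c i j) * X ^ (4 - (j : ℕ)), ⟨?_, ?_⟩, fun z => ?_⟩
  · exact natDegree_sum_le_of_forall_le _ _ fun j _ =>
      (natDegree_C_mul_X_pow_le _ _).trans (Nat.sub_le _ _)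
  · simp [Fin.sum_univ_five, cof, qf, coeff_X_pow, coeff_X]
  · simp [Fin.sum_univ_five, cof, qf]

theorem inf {c : Fin 5 → Fin 5 → ℂ} {A B : ℂ[X]}
    (hA : ∀ z, A.eval z = inv2 (cof c (1, z))) (hB : ∀ z, B.eval z = inv3 (cof c (1, z)))
    (hd : (disc A B).natDegree = 24) {r : ℂ × ℂ} (hr : r ≠ 0) :
    fderiv ℂ (qf (cof c (0, 1))) r ≠ 0 := by
  choose P h1 h2 using top_cof c
  have a1 : Top 8 A (inv2 (cof c (0, 1))) :=
    ((((h1 0).mul (h1 4)).add (((h1 1).mul (h1 3)).cmul (-1 / 4))).add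
      (((h1 2).mul (h1 2)).cmul (1 / 12))).congr
      (fun z => by simp only [hA, inv2, eval_add, eval_mul, eval_C, h2]; ring)
      (by unfold inv2; ring)
  have a2 : Top 12 B (inv3 (cof c (0, 1))) :=
    ((((((((h1 0).mul (h1 2)).mul (h1 4)).cmul (1 / 6)).add
      ((((h1 1).mul (h1 2)).mul (h1 3)).cmul (1 / 48))).add
      ((((h1 2).mul (h1 2)).mul (h1 2)).cmul (-1 / 216))).add
      ((((h1 0).mul (h1 3)).mul (h1 3)).cmul (-1 / 16))).add
      ((((h1 1).mul (h1 1)).mul (h1 4)).cmul (-1 / 16))).congr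
      (fun z => by simp only [hB, inv3, eval_add, eval_mul, eval_C, h2]; ring)
      (by unfold inv3; ring)
  have a3 : Top 24 (disc A B) (inv2 (cof c (0, 1)) ^ 3 - 27 * inv3 (cof c (0, 1)) ^ 2) :=
    (((a1.mul a1).mul a1).add ((a2.mul a2).cmul (-27))).congr
      (fun z => by simp [disc]; ring) (by ring)
  intro h
  have a4 := a3.2
  rw [mult_disc hr h, ← hd, coeff_natDegree, leadingCoeff_eq_zero] at a4
  rw [a4] at hd
  simp at hd

theorem cof_smul (c : Fin 5 → Fin 5 → ℂ) (t : ℂ) (q : ℂ × ℂ) :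
    cof c (t • q) = t ^ 4 • cof c q := funext fun _ => qf_smul _ _ _

theorem qf_smul' (a : Fin 5 → ℂ) (t : ℂ) (r : ℂ × ℂ) : qf (t • a) r = t * qf a r := by
  simp [qf, Finset.mul_sum, mul_assoc]

theorem fd_smul' {a : Fin 5 → ℂ} {t : ℂ} (ht : t ≠ 0) {r : ℂ × ℂ} :
    fderiv ℂ (qf (t • a)) r = 0 ↔ fderiv ℂ (qf a) r = 0 := by
  have h : ∀ v, fderiv ℂ (qf (t • a)) r v = t * fderiv ℂ (qf a) r v := fun v => by
    simp only [qf_fderiv, Pi.smul_apply, smul_eq_mul]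
    ring
  simp only [ContinuousLinearMap.ext_iff, h, zero_apply, mul_eq_zero, ht,
    false_or]

theorem cases_q {q : ℂ × ℂ} (hq : q ≠ 0) :
    ∃ t : ℂ, t ≠ 0 ∧ (q = t • (0, 1) ∨ ∃ z, q = t • (1, z)) := by
  by_cases h : q.1 = 0
  · exact ⟨q.2, fun h' => hq (Prod.ext h h'), .inl (Prod.ext (by simp [h]) (by simp))⟩
  · exact ⟨q.1, h, .inr ⟨q.2 / q.1, Prod.ext (by simp) (by simp [mul_div_cancel₀ _ h])⟩⟩

theorem exists_root (a : Fin 5 → ℂ) : ∃ r : ℂ × ℂ, r ≠ 0 ∧ qf a r = 0 := by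
  by_cases h : a 4 = 0
  · exact ⟨(1, 0), by simp, by simp [qf, Fin.sum_univ_five, h]⟩
  · have h1 : (pol a).coeff 4 ≠ 0 := by
      simpa [pol, Fin.sum_univ_five, coeff_X_pow, coeff_X, coeff_one] using h
    obtain ⟨x, hx⟩ := Complex.exists_root
      (lt_of_lt_of_le (by norm_num) (le_degree_of_ne_zero h1))
    refine ⟨(x, 1), by simp, ?_⟩
    simpa [pol, qf, Fin.sum_univ_five] using hx

theorem exists_quad {b0 b1 b2 : ℂ} (h : 4 * b0 * b2 - b1 ^ 2 ≠ 0) :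
    ∃ α, b0 + b1 * α + b2 * α ^ 2 = 0 := by
  by_cases h2 : b2 = 0
  · have h1 : b1 ≠ 0 := fun h1 => h (by simp [h1, h2])
    exact ⟨-b0 / b1, by rw [h2]; field_simp; ring⟩
  · obtain ⟨x, hx⟩ := exists_quadratic_eq_zero (b := b1) (c := b0) h2
      (IsAlgClosed.exists_eq_mul_self _)
    exact ⟨x, by linear_combination hx⟩

/-- The analysis at a multiple root. -/
theorem loc {c : Fin 5 → Fin 5 → ℂ} {A B : ℂ[X]}
    (hA : ∀ z, A.eval z = inv2 (cof c (1, z))) (hB : ∀ z, B.eval z = inv3 (cof c (1, z)))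
    (hs : WSm A B) {z : ℂ} {r : ℂ × ℂ} (hr : r ≠ 0) (h : fderiv ℂ (qf (cof c (1, z))) r = 0) :
    qf (fun i => fderiv ℂ (qf (c i)) (1, z) (0, 1)) r ≠ 0 ∧
      (∀ p, fderiv ℂ (qf (cof c (1, z))) p = 0 → ∃ s : ℂ, p = s • r) ∧
      ∃ p, qf (cof c (1, z)) p = 0 ∧ fderiv ℂ (qf (cof c (1, z))) p ≠ 0 := by
  obtain ⟨v, hv⟩ := exists_frame hr
  obtain ⟨M, hM⟩ := qf_frame hv
  have d0 : HasDerivAt (fun w => cof c (1, w)) (fun i => fderiv ℂ (qf (c i)) (1, z) (0, 1)) z :=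
    hasDerivAt_pi.2 fun i => (qf_analytic (c i) (1, z)).differentiableAt.hasFDerivAt.comp_hasDerivAt
      z ((hasDerivAt_const z (1 : ℂ)).prodMk (hasDerivAt_id z))
  generalize (fun i => fderiv ℂ (qf (c i)) (1, z) (0, 1)) = a' at d0 ⊢
  have d1 := hasDerivAt_pi.1 (M.toContinuousLinearMap.hasFDerivAt.comp_hasDerivAt z d0)
  simp only [Function.comp, LinearMap.coe_toContinuousLinearMap'] at d1
  have e4 : M (cof c (1, z)) 4 = 0 := by
    have h1 := qf_euler (cof c (1, z)) r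
    rw [h] at h1
    rw [(hM _).2.2.2.1]
    simpa using h1.symm
  have e3 : M (cof c (1, z)) 3 = 0 := by
    rw [(hM _).2.2.2.2, h]
    rfl
  have dA := (A.hasDerivAt z).unique
    (((((d1 0).fun_mul (d1 4)).fun_sub (((d1 1).fun_mul (d1 3)).div_const 4)).fun_add
      (((d1 2).fun_pow 2).div_const 12)).congr_of_eventuallyEq
      (Eventually.of_forall fun w => (hA w).trans (hM _).2.1.symm))
  have dB := (B.hasDerivAt z).unique
    (((((((((d1 0).fun_mul (d1 2)).fun_mul (d1 4)).div_const 6).fun_add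
      ((((d1 1).fun_mul (d1 2)).fun_mul (d1 3)).div_const 48)).fun_sub
      (((d1 2).fun_pow 3).div_const 216)).fun_sub
      (((d1 0).fun_mul ((d1 3).fun_pow 2)).div_const 16)).fun_sub
      ((((d1 1).fun_pow 2).fun_mul (d1 4)).div_const 16)).congr_of_eventuallyEq
      (Eventually.of_forall fun w => (hB w).trans (hM _).2.2.1.symm))
  have hq := (hM (cof c (1, z))).1
  have vA := (hA z).trans (hM _).2.1.symm
  have vB := (hB z).trans (hM _).2.2.1.symm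
  have h4 := (hM a').2.2.2.1
  generalize M (cof c (1, z)) = b at *
  generalize cof c (1, z) = a at *
  simp only [inv2, inv3, e3, e4] at vA vB dA dB
  have k := hs z (b 2 / 12) (by rw [vA, vB]; ring) (by rw [vA]; ring)
  have k1 : A.derivative.eval z * (b 2 / 12) + B.derivative.eval z =
      M a' 4 * (4 * b 0 * b 2 - b 1 ^ 2) / 16 := by
    rw [dA, dB]
    norm_num
    ring
  rw [k1] at k
  have k2 : 4 * b 0 * b 2 - b 1 ^ 2 ≠ 0 := fun h0 => k (by rw [h0]; simp)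
  have u : ∀ α β : ℂ, fderiv ℂ (qf a) (α • r + β • v) = 0 → β = 0 := by
    intro α β h0
    let Lm : ℂ × ℂ →L[ℂ] ℂ × ℂ := (ContinuousLinearMap.fst ℂ ℂ ℂ).smulRight r +
      (ContinuousLinearMap.snd ℂ ℂ ℂ).smulRight v
    have h1 : HasFDerivAt (qf a ∘ Lm) ((fderiv ℂ (qf a) (α • r + β • v)).comp Lm) (α, β) :=
      (qf_analytic a _).differentiableAt.hasFDerivAt.comp (α, β) Lm.hasFDerivAt
    have h2 : qf a ∘ Lm = qf b := funext fun x => hq x.1 x.2
    rw [h2, h0] at h1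
    have h5 := qf_fderiv b (α, β) (1, 0)
    have h6 := qf_fderiv b (α, β) (0, 1)
    rw [h1.fderiv] at h5 h6
    simp only [e3, e4, ContinuousLinearMap.zero_comp, zero_apply] at h5 h6
    have h7 : (4 * b 0 * b 2 - b 1 ^ 2) * β ^ 4 = 0 := by
      linear_combination (-b 2 * β) * h6 + (b 1 * β + b 2 * α) * h5
    exact pow_eq_zero_iff (by norm_num) |>.1 ((mul_eq_zero.1 h7).resolve_left k2)
  refine ⟨fun h0 => k (by rw [h4, h0]; simp), fun p hp => ?_, ?_⟩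
  · have h1 : p = (p.1 * v.2 - p.2 * v.1) • r + (r.1 * p.2 - r.2 * p.1) • v := by
      refine Prod.ext ?_ ?_
      · simp only [Prod.fst_add, Prod.smul_fst, smul_eq_mul]
        linear_combination -p.1 * hv
      · simp only [Prod.snd_add, Prod.smul_snd, smul_eq_mul]
        linear_combination -p.2 * hv
    refine ⟨p.1 * v.2 - p.2 * v.1, ?_⟩
    have h2 := u _ _ (h1 ▸ hp)
    rwa [h2, zero_smul, add_zero] at h1
  · obtain ⟨α, hα⟩ := exists_quad k2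
    refine ⟨α • r + (1 : ℂ) • v, ?_, fun h0 => one_ne_zero (u _ _ h0)⟩
    rw [hq]
    simp only [qf, Fin.sum_univ_five, e3, e4]
    simpa using hα

end QAlg

theorem quart_of {c : Fin 5 → Fin 5 → ℂ} {A B : ℂ[X]}
    (hA : ∀ z, A.eval z = inv2 (cof c (1, z))) (hB : ∀ z, B.eval z = inv3 (cof c (1, z)))
    (hd : (disc A B).natDegree = 24) (hs : WSm A B) :
    Quart c ∧ ∀ r : ℂ × ℂ, r ≠ 0 → fderiv ℂ (qf (cof c (0, 1))) r ≠ 0 := by
  classical
  have hinf := fun r => QAlg.inf hA hB hd (r := r)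
  have red : ∀ p q : ℂ × ℂ, p ≠ 0 → q ≠ 0 → fderiv ℂ (qf (cof c q)) p = 0 →
      ∃ t z : ℂ, t ≠ 0 ∧ q = t • (1, z) ∧ fderiv ℂ (qf (cof c (1, z))) p = 0 := by
    intro p q hp hq h
    obtain ⟨t, ht, rfl | ⟨z, rfl⟩⟩ := QAlg.cases_q hq
    · rw [QAlg.cof_smul, QAlg.fd_smul' (pow_ne_zero 4 ht)] at h
      exact absurd h (hinf p hp)
    · rw [QAlg.cof_smul, QAlg.fd_smul' (pow_ne_zero 4 ht)] at h
      exact ⟨t, z, ht, rfl, h⟩
  refine ⟨⟨fun w hp hq _ h => ?_, ?_, fun q hq => ?_⟩, hinf⟩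
  · have h1 : fderiv ℂ (qf (cof c (w 2, w 3))) (w 0, w 1) = 0 := by
      refine ContinuousLinearMap.ext fun u => ?_
      have h2 := bi_fderiv c w ![u.1, u.2, 0, 0, 0]
      rw [h] at h2
      simpa [qf, Prod.mk_zero_zero] using h2.symm
    obtain ⟨t, z, ht, h2, h3⟩ := red _ _ hp hq h1
    refine (QAlg.loc hA hB hs hp h3).1 ?_
    have h4 := bi_fderiv c w ![0, 0, 0, 1, 0]
    have h5 : (fun i => fderiv ℂ (qf (c i)) (t • ((1 : ℂ), z)) (0, 1)) =
        t ^ 3 • fun i => fderiv ℂ (qf (c i)) (1, z) (0, 1) := by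
      funext i
      simp only [qf_fderiv, Pi.smul_apply, smul_eq_mul, Prod.smul_fst, Prod.smul_snd]
      ring
    rw [h, h1, h2] at h4
    simp only [zero_apply, zero_add, Matrix.cons_val] at h4
    rw [h5, QAlg.qf_smul'] at h4
    exact (mul_eq_zero.1 h4.symm).resolve_left (pow_ne_zero 3 ht)
  · refine ⟨(fun z => (if h : ∃ r : ℂ × ℂ, r ≠ 0 ∧ fderiv ℂ (qf (cof c (1, z))) r = 0 then
      h.choose else 0, z)) '' {z | (disc A B).eval z = 0}, (disc_finite hd).image _,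
      fun p q hp hq h => ?_⟩
    obtain ⟨t, z, -, h2, h3⟩ := red _ _ hp hq h
    have h4 : ∃ r : ℂ × ℂ, r ≠ 0 ∧ fderiv ℂ (qf (cof c (1, z))) r = 0 := ⟨p, hp, h3⟩
    obtain ⟨s, hs'⟩ := (QAlg.loc hA hB hs h4.choose_spec.1 h4.choose_spec.2).2.1 p h3
    refine ⟨_, ⟨z, ?_, rfl⟩, s, t, by simpa only [dif_pos h4] using hs', h2⟩
    simpa [disc, hA, hB] using mult_disc hp h3
  · obtain ⟨r, hr, h0⟩ := QAlg.exists_root (cof c q)
    by_cases h : fderiv ℂ (qf (cof c q)) r = 0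
    · obtain ⟨t, z, ht, rfl, h3⟩ := red _ _ hr hq h
      obtain ⟨p, h4, h5⟩ := (QAlg.loc hA hB hs hr h3).2.2
      refine ⟨p, ?_, ?_⟩
      · rw [QAlg.cof_smul, QAlg.qf_smul', h4, mul_zero]
      · rwa [QAlg.cof_smul, Ne, QAlg.fd_smul' (pow_ne_zero 4 ht)]
    · exact ⟨r, h0, h⟩

end Vale.Agent.P290
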