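import Vale.Agent.P290G.Defs

/-! The differential equation of the Weierstrass function. -/

open Set Filter Metric Polynomial
open scoped Manifold ContDiff Topology

noncomputable section

namespace Vale.Agent.P290

theorem ode2_uniq {f g : ℂ → ℂ} {U : Set ℂ} (hU : IsOpen U) (hc : IsPreconnected U)
    (hf : AnalyticOnNhd ℂ f U) (hg : AnalyticOnNhd ℂ g U) {a : ℂ}
    (hf' : ∀ z ∈ U, deriv (deriv f) z = 6 * f z ^ 2 - a)
    (hg' : ∀ z ∈ U, deriv (deriv g) z = 6 * g z ^ 2 - a) {z₀ : ℂ} (hz : z₀ ∈ U)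
    (h0 : f z₀ = g z₀) (h1 : deriv f z₀ = deriv g z₀) : EqOn f g U := by
  have hh := hf.sub hg
  have e1 : ∀ z ∈ U, deriv (f - g) z = (deriv f - deriv g) z := fun z hz =>
    deriv_sub (hf z hz).differentiableAt (hg z hz).differentiableAt
  have e2 : deriv (deriv (f - g)) =ᶠ[𝓝 z₀] (fun z => 6 * (f z + g z)) * (f - g) := by
    filter_upwards [hU.mem_nhds hz] with z hz
    rw [EventuallyEq.deriv_eq (eventually_of_mem (hU.mem_nhds hz) e1),
      deriv_sub (hf.deriv z hz).differentiableAt (hg.deriv z hz).differentiableAt, hf' z hz,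
      hg' z hz]
    simp only [Pi.mul_apply, Pi.sub_apply]
    ring
  have o1 := (hh z₀ hz).analyticOrderAt_deriv_add_one
  have o2 := (hh.deriv z₀ hz).analyticOrderAt_deriv_add_one
  rw [e1 z₀ hz] at o2
  simp only [Pi.sub_apply f g z₀, Pi.sub_apply (deriv f) (deriv g) z₀, h0, h1, sub_self,
    sub_zero] at o1 o2
  rw [analyticOrderAt_congr e2, analyticOrderAt_mul (f := fun z => 6 * (f z + g z))
    (analyticAt_const.mul ((hf z₀ hz).add (hg z₀ hz))) (hh z₀ hz)] at o2
  have o3 : analyticOrderAt (f - g) z₀ = ⊤ := by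
    by_contra hn
    change _ = analyticOrderAt (f - g) z₀ at o1
    change _ = analyticOrderAt (deriv (f - g)) z₀ at o2
    rw [← o2] at o1
    generalize analyticOrderAt (f - g) z₀ = n at o1 hn
    generalize analyticOrderAt (fun z => 6 * (f z + g z)) z₀ = k at o1
    lift n to ℕ using hn
    induction k using ENat.recTopCoe with
    | top => simp at o1
    | coe k =>
      norm_cast at o1
      omega
  exact fun z hz' => sub_eq_zero.1 (hh.eqOn_zero_of_preconnected_of_eventuallyEq_zero hc hz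
    (analyticOrderAt_eq_top.1 o3) hz')

theorem ode2_of_ode1 {f : ℂ → ℂ} {U : Set ℂ} (hU : IsOpen U) (hc : IsPreconnected U)
    (hf : AnalyticOnNhd ℂ f U) {g₂ g₃ : ℂ}
    (h : ∀ z ∈ U, deriv f z ^ 2 = 4 * f z ^ 3 - g₂ * f z - g₃) (hn : ∃ z ∈ U, deriv f z ≠ 0) :
    ∀ z ∈ U, deriv (deriv f) z = 6 * f z ^ 2 - g₂ / 2 := by
  have h1 : AnalyticOnNhd ℂ (fun z => deriv (deriv f) z - (6 * f z ^ 2 - g₂ / 2)) U :=
    hf.deriv.deriv.sub ((analyticOnNhd_const.mul (hf.pow 2)).sub analyticOnNhd_const)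
  obtain ⟨w, hw, h3⟩ := hn
  refine fun z hz => sub_eq_zero.1 ((hf.deriv.eq_zero_or_eq_zero_of_mul_eq_zero h1
    (fun z hz => ?_) hc).resolve_left (fun h2 => h3 (h2 w hw)) z hz)
  have d0 := (hf z hz).differentiableAt.hasDerivAt
  have d1 := (hf.deriv z hz).differentiableAt.hasDerivAt.fun_pow 2
  have d2 := (((d0.fun_pow 3).const_mul 4).fun_sub (d0.const_mul g₂)).sub_const g₃
  have d3 := d1.unique (d2.congr_of_eventuallyEq (eventually_of_mem (hU.mem_nhds hz) h))
  norm_num at d3
  linear_combination d3 / 2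

theorem wp_tendsto (L : PeriodPair) {l : ℂ} (hl : l ∈ L.lattice) :
    Tendsto (fun z => ‖L.weierstrassP z‖) (𝓝[≠] l) atTop := by
  refine tendsto_norm_atTop_iff_cobounded.2 (tendsto_cobounded_of_meromorphicOrderAt_neg ?_)
  rw [L.order_weierstrassP l hl]
  decide

theorem WP1.surj (L : PeriodPair) (x : ℂ) : ∃ a, a ∉ L.lattice ∧ L.weierstrassP a = x := by
  classical
  by_contra! hn
  let h : ℂ → ℂ := fun z => if z ∈ L.lattice then 0 else (L.weierstrassP z - x)⁻¹
  have h1 : ∀ z ∉ L.lattice, DifferentiableAt ℂ h z := by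
    intro z hz
    refine (((L.analyticOnNhd_weierstrassP z hz).differentiableAt.sub_const x).fun_inv
      (sub_ne_zero.2 (hn z hz))).congr_of_eventuallyEq ?_
    filter_upwards [L.isClosed_lattice.isOpen_compl.mem_nhds hz] with w hw
    exact if_neg hw
  have hd : Differentiable ℂ h := by
    intro z
    by_cases hz : z ∈ L.lattice
    swap
    · exact h1 z hz
    have e : ∀ᶠ w in 𝓝[≠] z, w ∉ L.lattice := by
      filter_upwards [self_mem_nhdsWithin,
        mem_nhdsWithin_of_mem_nhds (L.compl_lattice_sdiff_singleton_mem_nhds z)] with w a b c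
      exact b ⟨c, a⟩
    refine (Complex.analyticAt_of_differentiable_on_punctured_nhds_of_continuousAt
      (e.mono h1) ?_).differentiableAt
    rw [← continuousWithinAt_compl_self, ContinuousWithinAt, show h z = 0 from if_pos hz]
    refine Tendsto.congr' (e.mono fun w hw => (if_neg hw).symm) ?_
    rw [tendsto_zero_iff_norm_tendsto_zero]
    simp only [norm_inv]
    exact tendsto_inv_atTop_zero.comp (tendsto_atTop_mono (fun w => norm_sub_norm_le _ _)
      (tendsto_atTop_add_const_right _ (-‖x‖) (wp_tendsto L hz)))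
  have := hd.apply_eq_apply_of_bounded (IsZLattice.isCompact_range_of_periodic L.lattice _
    hd.continuous fun z w hw => by
      lift w to L.lattice using hw
      simp only [h, L.weierstrassP_add_coe, L.lattice.add_mem_iff_left w.2]).isBounded
    (L.ω₁ / 2) 0
  simp only [h, if_neg L.ω₁_div_two_notMem_lattice, zero_mem, if_true, inv_eq_zero,
    sub_eq_zero] at this
  exact hn _ L.ω₁_div_two_notMem_lattice this

theorem wp_surj (L : PeriodPair) {x y : ℂ} (h : y ^ 2 = 4 * x ^ 3 - L.g₂ * x - L.g₃) :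
    ∃ a, a ∉ L.lattice ∧ L.weierstrassP a = x ∧ L.derivWeierstrassP a = y := by
  obtain ⟨a, ha, rfl⟩ := WP1.surj L x
  rw [← L.derivWeierstrassP_sq a ha] at h
  rcases sq_eq_sq_iff_eq_or_eq_neg.1 h with rfl | rfl
  · exact ⟨a, ha, rfl, rfl⟩
  · exact ⟨-a, fun h => ha (neg_mem_iff.1 h), L.weierstrassP_neg a, L.derivWeierstrassP_neg a⟩

theorem lattice_countable (L : PeriodPair) : (L.lattice : Set ℂ).Countable :=
  (countable_range fun p : ℤ × ℤ => p.1 * L.ω₁ + p.2 * L.ω₂).mono fun _ hx => by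
    obtain ⟨m, n, h⟩ := PeriodPair.mem_lattice.1 hx
    exact mem_range.2 ⟨(m, n), h⟩

theorem wp_deriv2 (L : PeriodPair) {z : ℂ} (hz : z ∉ L.lattice) :
    deriv L.derivWeierstrassP z = 6 * L.weierstrassP z ^ 2 - L.g₂ / 2 := by
  have hU := L.isClosed_lattice.isOpen_compl
  have hc := ((lattice_countable L).isConnected_compl_of_one_lt_rank (by simp)).isPreconnected
  rw [← L.deriv_weierstrassP]
  refine ode2_of_ode1 hU hc L.analyticOnNhd_weierstrassP (g₃ := L.g₃) (fun w hw => ?_) ?_ z hz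
  · rw [L.deriv_weierstrassP]
    exact L.derivWeierstrassP_sq w hw
  · by_contra! hn
    obtain ⟨c, h⟩ := hU.exists_is_const_of_deriv_eq_zero hc L.differentiableOn_weierstrassP hn
    obtain ⟨a, ha, h'⟩ := WP1.surj L (c + 1)
    simp [h a ha] at h'

end Vale.Agent.P290
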