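import Vale.Agent.P290G.WF
import Vale.Agent.P290G.WP1

/-! The invariants are determined by a Weierstrass function. -/

open Set Filter Metric Polynomial
open scoped Manifold ContDiff Topology

noncomputable section

namespace Vale.Agent.P290

variable {X : Type} [TopologicalSpace X] [ChartedSpace C2 X] [IsManifold 𝓘(ℂ, C2) ω X]
  {σ : Form2 X} {π : X → P1} {S : X × (ℂ × ℂ) × ℂ → X} {p : ℂ → ℂ × ℂ} {s s' : ℂ → X}
  {K : Set ℂ}

namespace WInv

theorem ord_le {P Q : ℂ → ℂ} (hP : ContinuousAt P 0) (hQ : ContinuousAt Q 0) (h0 : P 0 ≠ 0)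
    {a b : ℕ} (h : ∀ᶠ u in 𝓝[≠] (0 : ℂ), u ^ a * P u = u ^ b * Q u) : b ≤ a := by
  by_contra hn
  obtain ⟨c, rfl⟩ := Nat.exists_eq_add_of_lt (not_le.1 hn)
  have h1 : Tendsto (fun u : ℂ => u ^ (c + 1) * Q u) (𝓝[≠] 0) (𝓝 (0 ^ (c + 1) * Q 0)) :=
    (((continuous_pow _).tendsto 0).mul hQ).mono_left nhdsWithin_le_nhds
  refine h0 (tendsto_nhds_unique (hP.tendsto.mono_left nhdsWithin_le_nhds)
    (Tendsto.congr' (l₁ := 𝓝[≠] 0) ?_ (by simpa using h1)))
  filter_upwards [h, self_mem_nhdsWithin] with u hu h2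
  refine mul_left_cancel₀ (pow_ne_zero a h2) ?_
  rw [hu]
  ring

theorem pole {Y : ℂ → ℂ} (hY : ∀ᶠ u in 𝓝[≠] (0 : ℂ), DifferentiableAt ℂ Y u)
    (hp : Tendsto (fun u => ‖Y u‖) (𝓝[≠] 0) atTop) :
    ∃ (n : ℕ) (D : ℂ → ℂ), AnalyticAt ℂ D 0 ∧ D 0 ≠ 0 ∧
      ∀ᶠ u in 𝓝[≠] (0 : ℂ), Y u = D u / u ^ (n + 1) := by
  have e : ∀ᶠ u in 𝓝[≠] (0 : ℂ), Y u ≠ 0 :=
    (hp.eventually_gt_atTop 0).mono fun u hu => norm_pos_iff.1 hu
  have hW : AnalyticAt ℂ (Function.update (fun u => (Y u)⁻¹) 0 0) 0 := by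
    refine Complex.analyticAt_of_differentiable_on_punctured_nhds_of_continuousAt ?_ ?_
    · filter_upwards [hY, e, self_mem_nhdsWithin] with u h1 h2 h3
      refine (h1.fun_inv h2).congr_of_eventuallyEq ?_
      filter_upwards [isOpen_compl_singleton.mem_nhds h3] with w hw
      exact Function.update_of_ne hw _ _
    · rw [continuousAt_update_same, tendsto_zero_iff_norm_tendsto_zero]
      simp only [norm_inv]
      exact tendsto_inv_atTop_zero.comp hp
  obtain ⟨n, C, h1, h2, h3⟩ := hW.exists_eventuallyEq_pow_smul_nonzero_iff.2 fun h => by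
    obtain ⟨u, k1, k2, k3⟩ :=
      (e.and ((h.filter_mono nhdsWithin_le_nhds).and self_mem_nhdsWithin)).exists
    rw [Function.update_of_ne k3] at k2
    exact inv_ne_zero k1 k2
  cases n with
  | zero => exact absurd (by simpa using h3.self_of_nhds.symm) h2
  | succ n =>
    refine ⟨n, fun u => (C u)⁻¹, h1.fun_inv h2, inv_ne_zero h2, ?_⟩
    filter_upwards [mem_nhdsWithin_of_mem_nhds h3, self_mem_nhdsWithin] with u k1 k2
    rw [Function.update_of_ne k2, sub_zero, smul_eq_mul, inv_eq_iff_eq_inv] at k1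
    rw [k1, mul_inv_rev, div_eq_mul_inv]

theorem lim {Y : ℂ → ℂ} {g₂ g₃ : ℂ} (hY : ∀ᶠ u in 𝓝[≠] (0 : ℂ), DifferentiableAt ℂ Y u)
    (h : ∀ᶠ u in 𝓝[≠] (0 : ℂ), deriv Y u ^ 2 = 4 * Y u ^ 3 - g₂ * Y u - g₃)
    (hp : Tendsto (fun u => ‖Y u‖) (𝓝[≠] 0) atTop) :
    ∃ c, Tendsto (fun u => Y u - 1 / u ^ 2) (𝓝[≠] 0) (𝓝 c) := by
  obtain ⟨n, D, h1, h2, h3⟩ := pole hY hp
  have hP : AnalyticAt ℂ (fun u => (u * deriv D u - (n + 1) * D u) ^ 2) 0 :=
    ((analyticAt_id.mul h1.deriv).sub (analyticAt_const.mul h1)).pow 2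
  have hQ : AnalyticAt ℂ
      (fun u => 4 * D u ^ 3 - g₂ * D u * u ^ (2 * n + 2) - g₃ * u ^ (3 * n + 3)) 0 :=
    ((analyticAt_const.mul (h1.pow 3)).sub ((analyticAt_const.mul h1).mul
      (analyticAt_id.pow _))).sub (analyticAt_const.mul (analyticAt_id.pow _))
  have h4 : ∀ᶠ u in 𝓝[≠] (0 : ℂ), u ^ (n + 1) * (u * deriv D u - (n + 1) * D u) ^ 2 =
      u ^ 2 * (4 * D u ^ 3 - g₂ * D u * u ^ (2 * n + 2) - g₃ * u ^ (3 * n + 3)) := by
    filter_upwards [h, h3, eventually_eventually_nhdsWithin.2 h3, self_mem_nhdsWithin,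
      mem_nhdsWithin_of_mem_nhds h1.eventually_analyticAt] with u k1 k2 k3 k4 k5
    have k6 : u ≠ 0 := k4
    rw [nhdsWithin_eq_nhds.2 (isOpen_compl_singleton.mem_nhds k4)] at k3
    have k7 := (k5.differentiableAt.hasDerivAt.fun_div (hasDerivAt_pow (n + 1) u)
      (pow_ne_zero _ k6)).deriv
    rw [Filter.EventuallyEq.deriv_eq k3, k7, k2] at k1
    simp only [Nat.add_sub_cancel, Nat.cast_add, Nat.cast_one] at k1
    field_simp at k1
    refine mul_left_cancel₀ (pow_ne_zero n k6) ?_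
    linear_combination u * k1
  have n1 : ((n : ℂ) + 1) ≠ 0 := Nat.cast_add_one_ne_zero n
  have h5 := ord_le hP.continuousAt hQ.continuousAt (by simp [n1, h2]) h4
  have h6 := ord_le hQ.continuousAt hP.continuousAt (by simp [h2]) (h4.mono fun u hu => hu.symm)
  obtain rfl : n = 1 := by omega
  have h7 := (hP.frequently_eq_iff_eventually_eq hQ).1 (Eventually.frequently (by
    filter_upwards [h4, self_mem_nhdsWithin] with u k1 k2
    exact mul_left_cancel₀ (pow_ne_zero 2 k2) k1))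
  have h8 : D 0 = 1 := by
    have := h7.self_of_nhds
    refine mul_left_cancel₀ (mul_ne_zero (by norm_num : (4 : ℂ) ≠ 0) (pow_ne_zero 2 h2)) ?_
    simp only [zero_mul, zero_sub, Nat.cast_one] at this
    linear_combination -this
  have d1 := h1.differentiableAt.hasDerivAt
  have d2 := h1.deriv.differentiableAt.hasDerivAt
  have h9 : deriv D 0 = 0 := by
    have k1 := (((hasDerivAt_id (0 : ℂ)).fun_mul d2).fun_sub
      (d1.const_mul (((1 : ℕ) : ℂ) + 1))).fun_pow 2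
    have k2 := (((d1.fun_pow 3).const_mul 4).fun_sub ((d1.const_mul g₂).fun_mul
      (hasDerivAt_pow (2 * 1 + 2) (0 : ℂ)))).fun_sub
      ((hasDerivAt_pow (3 * 1 + 3) (0 : ℂ)).const_mul g₃)
    have := (k1.congr_of_eventuallyEq (Filter.EventuallyEq.symm h7)).unique k2
    simp only [h8, id] at this
    norm_num at this
    linear_combination (-1 / 8) * this
  obtain ⟨p, hp'⟩ := h1
  refine ⟨dslope (dslope D 0) 0 0, Tendsto.congr' ?_
    (hp'.has_fpower_series_dslope_fslope.has_fpower_series_dslope_fslope.continuousAt.mono_left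
      nhdsWithin_le_nhds)⟩
  filter_upwards [h3, self_mem_nhdsWithin] with u k1 k2
  have k3 : u ≠ 0 := k2
  rw [dslope_of_ne _ k3, slope_def_field, dslope_of_ne _ k3, slope_def_field, dslope_same, h9, h8,
    k1]
  field_simp
  ring

end WInv

theorem wp_inv (L : PeriodPair) {Y : ℂ → ℂ} {g₂ g₃ : ℂ}
    (hY : AnalyticOnNhd ℂ Y (L.lattice : Set ℂ)ᶜ)
    (hper : ∀ l ∈ L.lattice, ∀ u, Y (u + l) = Y u)
    (h : ∀ u ∉ L.lattice, deriv Y u ^ 2 = 4 * Y u ^ 3 - g₂ * Y u - g₃)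
    (hp : Tendsto (fun u => ‖Y u‖) (𝓝[≠] 0) atTop) : L.g₂ = g₂ ∧ L.g₃ = g₃ := by
  classical
  have e : ∀ z, ∀ᶠ w in 𝓝[≠] z, w ∉ L.lattice := fun z => by
    filter_upwards [self_mem_nhdsWithin,
      mem_nhdsWithin_of_mem_nhds (L.compl_lattice_sdiff_singleton_mem_nhds z)] with w a b c
    exact b ⟨c, a⟩
  obtain ⟨c, hc⟩ := WInv.lim ((e 0).mono fun u hu => (hY u hu).differentiableAt)
    ((e 0).mono h) hp
  have t0 : Tendsto (fun u => Y u - L.weierstrassP u) (𝓝[≠] 0)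
      (𝓝 (c - L.weierstrassPExcept 0 0)) := by
    refine (hc.sub ((L.analyticAt_weierstrassPExcept 0).continuousAt.mono_left
      nhdsWithin_le_nhds)).congr fun u => ?_
    rw [← L.weierstrassPExcept_add 0 u]
    simp [sub_sub, add_comm]
  let f : ℂ → ℂ := fun z =>
    if z ∈ L.lattice then c - L.weierstrassPExcept 0 0 else Y z - L.weierstrassP z
  have hf : ∀ z, ∀ w ∈ L.lattice, f (z + w) = f z := fun z w hw => by
    lift w to L.lattice using hw
    simp only [f, L.weierstrassP_add_coe, L.lattice.add_mem_iff_left w.2, hper _ w.2]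
  have h1 : ∀ z ∉ L.lattice, DifferentiableAt ℂ f z := by
    intro z hz
    refine ((hY z hz).differentiableAt.fun_sub
      (L.analyticOnNhd_weierstrassP z hz).differentiableAt).congr_of_eventuallyEq ?_
    filter_upwards [L.isClosed_lattice.isOpen_compl.mem_nhds hz] with w hw
    exact if_neg hw
  have h0 : DifferentiableAt ℂ f 0 := by
    refine (Complex.analyticAt_of_differentiable_on_punctured_nhds_of_continuousAt
      ((e 0).mono h1) ?_).differentiableAt
    rw [← continuousWithinAt_compl_self, ContinuousWithinAt, show f 0 = _ from if_pos (zero_mem _)]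
    exact t0.congr' ((e 0).mono fun w hw => (if_neg hw).symm)
  have hd : Differentiable ℂ f := by
    intro z
    by_cases hz : z ∈ L.lattice
    · have k : f = fun w => f (w + -z) := funext fun w => (hf w _ (neg_mem hz)).symm
      rw [k]
      exact DifferentiableAt.comp (f := fun w => w + -z) z (by rwa [add_neg_cancel])
        (differentiableAt_id.add_const _)
    · exact h1 z hz
  have hb := (IsZLattice.isCompact_range_of_periodic L.lattice _ hd.continuous hf).isBounded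
  have h2 : ∀ z ∉ L.lattice, Y z = L.weierstrassP z + f 0 := fun z hz => by
    rw [← hd.apply_eq_apply_of_bounded hb z 0, show f z = _ from if_neg hz, add_sub_cancel]
  have h3 : ∀ x : ℂ, 4 * x ^ 3 - L.g₂ * x - L.g₃ = 4 * (x + f 0) ^ 3 - g₂ * (x + f 0) - g₃ := by
    intro x
    obtain ⟨a, ha, rfl⟩ := WP1.surj L x
    have k : Y =ᶠ[𝓝 a] fun z => L.weierstrassP z + f 0 :=
      mem_of_superset (L.isClosed_lattice.isOpen_compl.mem_nhds ha) h2
    rw [← h2 a ha, ← h a ha, k.deriv_eq, deriv_add_const, L.deriv_weierstrassP,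
      L.derivWeierstrassP_sq a ha]
  have h4 : f 0 = 0 := by linear_combination (1 / 12) * h3 0 - (1 / 24) * (h3 1 + h3 (-1))
  rw [h4] at h3
  exact ⟨by linear_combination h3 0 - h3 1, by linear_combination -h3 0⟩

theorem WFun.inv [T2Space X] (h : Ell σ π S) {q : ℂ × ℂ} {g₂ g₃ : ℂ} {x₀ : X} {Y : X → ℂ}
    (hY : WFun π S q g₂ g₃ x₀ Y) {L : PeriodPair} (hL : (Per h.spr q : Set ℂ) = L.lattice) :
    L.g₂ = g₂ ∧ L.g₃ = g₃ := by
  have hS := h.spr
  have hm : ∀ t, t ∈ L.lattice ↔ S (x₀, q, t) = x₀ := fun t =>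
    (Set.ext_iff.1 hL t).symm.trans (h.mem_per hY.rep hY.reg)
  have hne : ∀ u ∉ L.lattice, S (x₀, q, u) ≠ x₀ := fun u hu e => hu ((hm u).2 e)
  refine wp_inv L (Y := fun t => Y (S (x₀, q, t))) (fun u hu => ?_) (fun l hl u => ?_)
    (fun u hu => ?_) ?_
  · exact HolF.comp (f := fun t => S (x₀, q, t)) (hY.hol _ (WF.rep hS hY.rep u) (hne u hu))
      (Orb.hol hS hY.rep u)
  · rw [add_comm, ← hS.add x₀ q l u hY.rep, (hm l).1 hl]
  · have h1 := dfn_comp (f := fun t => S (x₀, q, t)) (hY.hol _ (WF.rep hS hY.rep u) (hne u hu))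
      (Orb.hol hS hY.rep u) (1 : ℂ)
    rw [fderiv_apply_one_eq_deriv] at h1
    have h2 : dif (fun t => S (x₀, q, t)) u 1 = tv S (S (x₀, q, u)) q := hS.vel_eq hY.rep u
    rw [h1, h2]
    exact hY.ode _ (WF.rep hS hY.rep u) (hY.reg.flow h.sym h.hol hS hY.rep u) (hne u hu)
  · refine hY.pole.comp (tendsto_nhdsWithin_iff.2 ⟨?_, ?_⟩)
    · have h1 := ((WF.cont hS hY.rep).tendsto 0).mono_left
        (nhdsWithin_le_nhds (s := ({0} : Set ℂ)ᶜ))
      rwa [hS.zero x₀ q hY.rep] at h1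
    · filter_upwards [self_mem_nhdsWithin,
        mem_nhdsWithin_of_mem_nhds (L.compl_lattice_sdiff_singleton_mem_nhds 0)] with w a b
      exact ⟨WF.rep hS hY.rep w, hne w fun c => b ⟨c, a⟩⟩

end Vale.Agent.P290
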