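import Vale.Agent.P290G.XEll

/-! The elliptic fibration of a double cover, with its Weierstrass functions. -/

open Set Filter Metric Polynomial
open scoped Manifold ContDiff Topology

noncomputable section

namespace Vale.Agent.P290

variable {X : Type} [TopologicalSpace X] [ChartedSpace C2 X] [IsManifold 𝓘(ℂ, C2) ω X]
  {σ : Form2 X} {π : X → P1} {S : X × (ℂ × ℂ) × ℂ → X} {c : Fin 5 → Fin 5 → ℂ}
  {ρ : (Fin 5 → ℂ) → X}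

theorem dbl_ell' [T2Space X] [CompactSpace X] (hc : Quart c) (h : QD D44.dd (D44.ZZ c) ρ) :
    ∃ (σ : Form2 X) (π : X → P1) (S : X × (ℂ × ℂ) × ℂ → X), Ell σ π S ∧
      (∀ q : ℂ × ℂ, q ≠ 0 → ∃ x₀ Y, WFun π S q (inv2 (cof c q)) (inv3 (cof c q)) x₀ Y) ∧
      ∀ q : ℂ × ℂ, (∀ r : ℂ × ℂ, r ≠ 0 → fderiv ℂ (qf (cof c q)) r ≠ 0) →
        ∀ x, Rep q (π x) → Reg π x := by
  obtain ⟨σ, hσ, hf⟩ := dbl_sympl hc h
  obtain ⟨π, hπ, hp⟩ := h.pencil (D44.pen23 c)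
  have hr : ∀ w ∈ D44.ZZ c, Rep (w 2, w 3) (π (ρ w)) := fun w hw => (hp w hw).1 hw.2.1
  obtain ⟨S, hS⟩ := exists_spray hσ hπ
  have hE : Ell σ π S := by
    refine ⟨hσ, hπ, hS, XEll.fin_crit hc h hr, fun a => ?_, fun x y p hx hy hx' hy' => ?_⟩
    · obtain ⟨x₀, Y, hY⟩ := dbl_wfun hc h hσ hf hS hr (rep_rep a).ne
      exact ⟨x₀, hY.rep.inj (rep_rep a), hY.reg⟩
    · obtain ⟨x₀, Y, hY⟩ := dbl_wfun hc h hσ hf hS hr hx.ne
      obtain ⟨t₁, h₁⟩ := hY.orbit hσ hπ hS hx hx'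
      obtain ⟨t₂, h₂⟩ := hY.orbit hσ hπ hS hy hy'
      refine ⟨t₁ + -t₂, ?_⟩
      rw [← hS.add x p t₁ (-t₂) hx, h₁, ← h₂, hS.add y p t₂ (-t₂) hy, add_neg_cancel,
        hS.zero y p hy]
  refine ⟨σ, π, S, hE, fun q hq => dbl_wfun hc h hσ hf hS hr hq, fun q hq x hx => ?_⟩
  · obtain ⟨w, hw, rfl⟩ := XEll.ex_pt h x
    rw [dbl_reg hc h hr hw]
    right
    obtain ⟨t, ht, e⟩ := hx.ratio (hr w hw)
    rw [e, XEll.qf_cof_smul, fderiv_const_smul_field, Pi.smul_apply]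
    exact smul_ne_zero (pow_ne_zero 4 ht) (hq _ hw.1)

end Vale.Agent.P290
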