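import Vale.Agent.P290G.XMfd

/-! Existence of the double cover. -/

open Set Filter Metric Polynomial
open scoped Manifold ContDiff Topology

noncomputable section

namespace Vale.Agent.P290

namespace XEx

open D44 ComplexConjugate

/-- The first pair of coordinates. -/
def pa (w : Fin 5 → ℂ) : Fin 2 → ℂ := ![w 0, w 1]

/-- The second pair of coordinates. -/
def qa (w : Fin 5 → ℂ) : Fin 2 → ℂ := ![w 2, w 3]

/-- The squared length. -/
def nn (p : Fin 2 → ℂ) : ℂ := p 0 * conj (p 0) + p 1 * conj (p 1)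

/-- The projector on the line. -/
def prj (p : Fin 2 → ℂ) : Fin 2 → Fin 2 → ℂ := fun i j => p i * conj (p j) / nn p

/-- The ambient space. -/
abbrev Amb : Type := (Fin 2 → Fin 2 → ℂ) × (Fin 2 → Fin 2 → ℂ) × (Fin 2 → Fin 2 → ℂ)

/-- The invariant embedding. -/
def Phi (w : Fin 5 → ℂ) : Amb := (prj (pa w), prj (qa w), fun i j =>
  w 4 * conj (pa w i) ^ 2 * conj (qa w j) ^ 2 / (nn (pa w) ^ 2 * nn (qa w) ^ 2))

/-- Affine coordinates on the ambient space. -/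
def ll (i j : Fin 2) (y : Amb) : Fin 3 → ℂ :=
  ![y.1 i.rev i / y.1 i i, y.2.1 j.rev j / y.2.1 j j, y.2.2 i j / (y.1 i i ^ 2 * y.2.1 j j ^ 2)]

/-- Affine coordinates on the cone. -/
def nrm (i j : Fin 2) (w : Fin 5 → ℂ) : Fin 3 → ℂ :=
  ![pa w i.rev / pa w i, qa w j.rev / qa w j, w 4 / (pa w i ^ 2 * qa w j ^ 2)]

/-- The linear part of the section. -/
def dl (i j : Fin 2) : (Fin 3 → ℂ) →ₗ[ℂ] Fin 5 → ℂ where
  toFun v := ![if 0 = i then 0 else v 0, if 1 = i then 0 else v 0, if 0 = j then 0 else v 1,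
    if 1 = j then 0 else v 1, v 2]
  map_add' u v := by
    refine vec_ext ?_ ?_ ?_ ?_ ?_ <;> simp <;> split_ifs <;> simp
  map_smul' a v := by
    refine vec_ext ?_ ?_ ?_ ?_ ?_ <;> simp

/-- The section. -/
def sec (i j : Fin 2) (u : Fin 3 → ℂ) : Fin 5 → ℂ :=
  ![if 0 = i then 1 else 0, if 1 = i then 1 else 0, if 0 = j then 1 else 0,
    if 1 = j then 1 else 0, 0] + dl i j u

theorem nn_eq (p : Fin 2 → ℂ) : nn p = ((‖p 0‖ ^ 2 + ‖p 1‖ ^ 2 : ℝ) : ℂ) := by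
  unfold nn
  rw [Complex.mul_conj', Complex.mul_conj']
  push_cast
  rfl

theorem pos {p : Fin 2 → ℂ} {i : Fin 2} (h : p i ≠ 0) : 0 < ‖p 0‖ ^ 2 + ‖p 1‖ ^ 2 := by
  have h1 : 0 < ‖p i‖ ^ 2 := by positivity
  have h0 := sq_nonneg ‖p 0‖
  have h2 := sq_nonneg ‖p 1‖
  fin_cases i
  · exact add_pos_of_pos_of_nonneg h1 h2
  · exact add_pos_of_nonneg_of_pos h0 h1

theorem nn_ne {p : Fin 2 → ℂ} {i : Fin 2} (h : p i ≠ 0) : nn p ≠ 0 := by
  rw [nn_eq]
  exact_mod_cast (pos h).ne'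

theorem prj_ne {p : Fin 2 → ℂ} {i : Fin 2} : prj p i i ≠ 0 ↔ p i ≠ 0 := by
  refine ⟨fun h h0 => h (by simp [prj, h0]), fun h => ?_⟩
  exact div_ne_zero (mul_ne_zero h ((_root_.map_ne_zero _).2 h)) (nn_ne h)

theorem ex {c : Fin 5 → Fin 5 → ℂ} {w : Fin 5 → ℂ} (hw : w ∈ ZZ c) :
    ∃ i j, pa w i ≠ 0 ∧ qa w j ≠ 0 := by
  rcases ex01 hw.1 with h | h <;> rcases ex23 hw.2.1 with h' | h'
  exacts [⟨0, 0, h, h'⟩, ⟨0, 1, h, h'⟩, ⟨1, 0, h, h'⟩, ⟨1, 1, h, h'⟩]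

theorem ne01 {w : Fin 5 → ℂ} {i : Fin 2} (h : pa w i ≠ 0) : (w 0, w 1) ≠ 0 := fun e => by
  have h0 : w 0 = 0 := congrArg Prod.fst e
  have h1 : w 1 = 0 := congrArg Prod.snd e
  fin_cases i
  exacts [h h0, h h1]

theorem ne23 {w : Fin 5 → ℂ} {i : Fin 2} (h : qa w i ≠ 0) : (w 2, w 3) ≠ 0 := fun e => by
  have h0 : w 2 = 0 := congrArg Prod.fst e
  have h1 : w 3 = 0 := congrArg Prod.snd e
  fin_cases i
  exacts [h h0, h h1]

theorem pa_tact (s : Fin 2 → ℂ) (w : Fin 5 → ℂ) (i : Fin 2) : pa (tact dd s w) i = s 0 * pa w i := by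
  fin_cases i
  exacts [tact0 s w, tact1 s w]

theorem qa_tact (s : Fin 2 → ℂ) (w : Fin 5 → ℂ) (i : Fin 2) : qa (tact dd s w) i = s 1 * qa w i := by
  fin_cases i
  exacts [tact2 s w, tact3 s w]

theorem pa_orb (s : Fin 2 → ℂ) (w : Fin 5 → ℂ) (i : Fin 2) : pa (orb dd s w) i = s 0 * pa w i := by
  fin_cases i
  exacts [orb0 s w, orb1 s w]

theorem qa_orb (s : Fin 2 → ℂ) (w : Fin 5 → ℂ) (i : Fin 2) : qa (orb dd s w) i = s 1 * qa w i := by
  fin_cases i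
  exacts [orb2 s w, orb3 s w]

theorem nn_mul {p p' : Fin 2 → ℂ} {s : ℂ} (h : ∀ i, p' i = s * p i) :
    nn p' = s * conj s * nn p := by
  unfold nn
  rw [h, h, map_mul, map_mul]
  ring

theorem prj_mul {p p' : Fin 2 → ℂ} {s : ℂ} (hs : s ≠ 0) (h : ∀ i, p' i = s * p i) :
    prj p' = prj p := by
  funext i j
  have hs' : conj s ≠ 0 := (_root_.map_ne_zero _).2 hs
  unfold prj
  rw [nn_mul h, h, h, map_mul, ← mul_div_mul_left (p i * conj (p j)) (nn p) (mul_ne_zero hs hs')]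
  congr 1
  ring

theorem Phi_tact {s : Fin 2 → ℂ} (hs : ∀ k, s k ≠ 0) (w : Fin 5 → ℂ) :
    Phi (tact dd s w) = Phi w := by
  unfold Phi
  rw [prj_mul (hs 0) (pa_tact s w), prj_mul (hs 1) (qa_tact s w)]
  congr 2
  funext i j
  have h0 : conj (s 0) ≠ 0 := (_root_.map_ne_zero _).2 (hs 0)
  have h1 : conj (s 1) ≠ 0 := (_root_.map_ne_zero _).2 (hs 1)
  rw [nn_mul (pa_tact s w), nn_mul (qa_tact s w), pa_tact, qa_tact, tact4, map_mul, map_mul,
    ← mul_div_mul_left (w 4 * conj (pa w i) ^ 2 * conj (qa w j) ^ 2) _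
      (mul_ne_zero (pow_ne_zero 2 (mul_ne_zero (hs 0) h0)) (pow_ne_zero 2 (mul_ne_zero (hs 1) h1)))]
  congr 1 <;> ring

theorem tact_mem {c : Fin 5 → Fin 5 → ℂ} {s : Fin 2 → ℂ} (hs : ∀ k, s k ≠ 0) {w : Fin 5 → ℂ}
    (hw : w ∈ ZZ c) : tact dd s w ∈ ZZ c := by
  obtain ⟨i, j, hi, hj⟩ := ex hw
  refine ⟨ne01 (i := i) ?_, ne23 (i := j) ?_, ?_⟩
  · rw [pa_tact]; exact mul_ne_zero (hs 0) hi
  · rw [qa_tact]; exact mul_ne_zero (hs 1) hj
  · rw [bi_scale c (tact0 s w) (tact1 s w) (tact2 s w) (tact3 s w), tact4, ← hw.2.2]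
    ring

theorem ll_Phi {w : Fin 5 → ℂ} {i j : Fin 2} (hi : pa w i ≠ 0) (hj : qa w j ≠ 0) :
    ll i j (Phi w) = nrm i j w := by
  have h1 := nn_ne hi
  have h2 := nn_ne hj
  have h3 : conj (pa w i) ≠ 0 := (_root_.map_ne_zero _).2 hi
  have h4 : conj (qa w j) ≠ 0 := (_root_.map_ne_zero _).2 hj
  unfold ll nrm Phi prj
  congr 1
  · field_simp
  · congr 1
    · field_simp
    · congr 1
      field_simp

theorem sec_nrm {w : Fin 5 → ℂ} {i j : Fin 2} (hi : pa w i ≠ 0) (hj : qa w j ≠ 0) :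
    sec i j (nrm i j w) = tact dd ![(pa w i)⁻¹, (qa w j)⁻¹] w := by
  refine vec_ext ?_ ?_ ?_ ?_ ?_
  · rw [tact0]
    fin_cases i <;> simp_all [sec, dl, nrm, pa, div_eq_inv_mul, Fin.rev]
  · rw [tact1]
    fin_cases i <;> simp_all [sec, dl, nrm, pa, div_eq_inv_mul, Fin.rev]
  · rw [tact2]
    fin_cases j <;> simp_all [sec, dl, nrm, qa, div_eq_inv_mul, Fin.rev]
  · rw [tact3]
    fin_cases j <;> simp_all [sec, dl, nrm, qa, div_eq_inv_mul, Fin.rev]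
  · rw [tact4]
    simp [sec, dl, nrm, div_eq_inv_mul, mul_comm]

theorem pa_sec (i j : Fin 2) (u : Fin 3 → ℂ) : pa (sec i j u) i = 1 ∧ pa (sec i j u) i.rev = u 0 := by
  fin_cases i <;> simp [sec, dl, pa, Fin.rev]

theorem qa_sec (i j : Fin 2) (u : Fin 3 → ℂ) : qa (sec i j u) j = 1 ∧ qa (sec i j u) j.rev = u 1 := by
  fin_cases j <;> simp [sec, dl, qa, Fin.rev]

theorem sec4 (i j : Fin 2) (u : Fin 3 → ℂ) : sec i j u 4 = u 2 := by simp [sec, dl]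

theorem pa_dl (i j : Fin 2) (u : Fin 3 → ℂ) : pa (dl i j u) i = 0 ∧ pa (dl i j u) i.rev = u 0 := by
  fin_cases i <;> simp [dl, pa, Fin.rev]

theorem qa_dl (i j : Fin 2) (u : Fin 3 → ℂ) : qa (dl i j u) j = 0 ∧ qa (dl i j u) j.rev = u 1 := by
  fin_cases j <;> simp [dl, qa, Fin.rev]

theorem dl4 (i j : Fin 2) (u : Fin 3 → ℂ) : dl i j u 4 = u 2 := by simp [dl]

theorem vec3 {u v : Fin 3 → ℂ} (h0 : u 0 = v 0) (h1 : u 1 = v 1) (h2 : u 2 = v 2) : u = v := by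
  funext i
  fin_cases i
  exacts [h0, h1, h2]

theorem nrm_sec (i j : Fin 2) (u : Fin 3 → ℂ) : nrm i j (sec i j u) = u := by
  unfold nrm
  rw [(pa_sec i j u).1, (pa_sec i j u).2, (qa_sec i j u).1, (qa_sec i j u).2, sec4]
  refine vec3 ?_ ?_ ?_ <;> simp

theorem ll_sec (i j : Fin 2) (u : Fin 3 → ℂ) : ll i j (Phi (sec i j u)) = u := by
  rw [ll_Phi (by rw [(pa_sec i j u).1]; exact one_ne_zero)
    (by rw [(qa_sec i j u).1]; exact one_ne_zero), nrm_sec]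

theorem hasF_sec (i j : Fin 2) (u : Fin 3 → ℂ) :
    HasFDerivAt (sec i j) (dl i j).toContinuousLinearMap u :=
  (dl i j).toContinuousLinearMap.hasFDerivAt.const_add _

theorem an_sec (i j : Fin 2) (u : Fin 3 → ℂ) : AnalyticAt ℂ (sec i j) u :=
  analyticAt_const.add ((dl i j).toContinuousLinearMap.analyticAt u)

theorem an_pa (i : Fin 2) (w : Fin 5 → ℂ) : AnalyticAt ℂ (fun w => pa w i) w := by
  fin_cases i
  exacts [an_co 0 w, an_co 1 w]

theorem an_qa (i : Fin 2) (w : Fin 5 → ℂ) : AnalyticAt ℂ (fun w => qa w i) w := by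
  fin_cases i
  exacts [an_co 2 w, an_co 3 w]

theorem an_nrm {w : Fin 5 → ℂ} {i j : Fin 2} (hi : pa w i ≠ 0) (hj : qa w j ≠ 0) :
    AnalyticAt ℂ (nrm i j) w := by
  refine AnalyticAt.pi fun m => ?_
  fin_cases m
  · exact (an_pa _ w).div (an_pa _ w) hi
  · exact (an_qa _ w).div (an_qa _ w) hj
  · exact (an_co 4 w).div (((an_pa _ w).pow 2).mul ((an_qa _ w).pow 2))
      (mul_ne_zero (pow_ne_zero 2 hi) (pow_ne_zero 2 hj))

theorem sec_mem {c : Fin 5 → Fin 5 → ℂ} {i j : Fin 2} {u : Fin 3 → ℂ} :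
    sec i j u ∈ ZZ c ↔ ff c (sec i j u) 0 = 0 := by
  refine ⟨fun h => sub_eq_zero.2 h.2.2, fun h => ⟨ne01 (i := i) ?_, ne23 (i := j) ?_, ?_⟩⟩
  · rw [(pa_sec i j u).1]; exact one_ne_zero
  · rw [(qa_sec i j u).1]; exact one_ne_zero
  · exact sub_eq_zero.1 h

theorem split (i j : Fin 2) (u : Fin 3 → ℂ) (ξ : Fin 5 → ℂ) :
    ∃ s v, ξ = orb dd s (sec i j u) + dl i j v := by
  refine ⟨![pa ξ i, qa ξ j], ![pa ξ i.rev - pa ξ i * u 0, qa ξ j.rev - qa ξ j * u 1,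
    ξ 4 - (pa ξ i * 2 + qa ξ j * 2) * u 2], vec_ext ?_ ?_ ?_ ?_ ?_⟩
  · rw [Pi.add_apply, orb0]
    fin_cases i <;> simp [sec, dl, pa, Fin.rev]
  · rw [Pi.add_apply, orb1]
    fin_cases i <;> simp [sec, dl, pa, Fin.rev]
  · rw [Pi.add_apply, orb2]
    fin_cases j <;> simp [sec, dl, qa, Fin.rev]
  · rw [Pi.add_apply, orb3]
    fin_cases j <;> simp [sec, dl, qa, Fin.rev]
  · rw [Pi.add_apply, orb4, sec4, dl4]
    simp

theorem smooth {c : Fin 5 → Fin 5 → ℂ}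
    (hc : ∀ w : Fin 5 → ℂ, (w 0, w 1) ≠ 0 → (w 2, w 3) ≠ 0 → bi c w = 0 → fderiv ℂ (bi c) w ≠ 0)
    (i j : Fin 2) (u : Fin 3 → ℂ) (h : ff c (sec i j u) 0 = 0) :
    fderiv ℂ (fun u => ff c (sec i j u) 0) u ≠ 0 := by
  intro h0
  have hw := sec_mem.2 h
  have hE := eqs c hc
  obtain ⟨ξ, hξ⟩ := hE.surj _ hw fun _ => 1
  obtain ⟨s, v, rfl⟩ := split i j u ξ
  rw [map_add, hE.euler hw, zero_add] at hξ
  have h1 := ((hE.an (sec i j u) trivial).differentiableAt.hasFDerivAt.comp u (hasF_sec i j u))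
  have h2 := hasFDerivAt_pi'.1 h1 0
  have h3 : fderiv ℂ (fun u => ff c (sec i j u) 0) u = _ := h2.fderiv
  rw [h0] at h3
  have h4 : (0 : ℂ) = fderiv ℂ (ff c) (sec i j u) (dl i j v) 0 :=
    congrArg (fun T : (Fin 3 → ℂ) →L[ℂ] ℂ => T v) h3
  rw [hξ] at h4
  exact zero_ne_one h4

theorem cont_nn : Continuous nn := by
  unfold nn
  fun_prop

theorem cont_pa : Continuous pa := continuous_pi fun i =>
  continuous_iff_continuousAt.2 fun w => (an_pa i w).continuousAt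

theorem cont_qa : Continuous qa := continuous_pi fun i =>
  continuous_iff_continuousAt.2 fun w => (an_qa i w).continuousAt

theorem cont_Phi (c : Fin 5 → Fin 5 → ℂ) : ContinuousOn Phi (ZZ c) := by
  have h1 : ∀ w ∈ ZZ c, nn (pa w) ≠ 0 := fun w hw => by
    obtain ⟨i, j, hi, hj⟩ := ex hw
    exact nn_ne hi
  have h2 : ∀ w ∈ ZZ c, nn (qa w) ≠ 0 := fun w hw => by
    obtain ⟨i, j, hi, hj⟩ := ex hw
    exact nn_ne hj
  have c1 := cont_pa
  have c2 := cont_qa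
  have c3 := cont_nn
  refine ContinuousOn.prodMk ?_ (ContinuousOn.prodMk ?_ ?_)
  · exact continuousOn_pi.2 fun i => continuousOn_pi.2 fun j =>
      ContinuousOn.div (by fun_prop) (by fun_prop) h1
  · exact continuousOn_pi.2 fun i => continuousOn_pi.2 fun j =>
      ContinuousOn.div (by fun_prop) (by fun_prop) h2
  · exact continuousOn_pi.2 fun i => continuousOn_pi.2 fun j =>
      ContinuousOn.div (by fun_prop) (by fun_prop) fun w hw =>
        mul_ne_zero (pow_ne_zero 2 (h1 w hw)) (pow_ne_zero 2 (h2 w hw))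

theorem unit {a b : ℂ} (h : 0 < ‖a‖ ^ 2 + ‖b‖ ^ 2) :
    ∃ s : ℂ, s ≠ 0 ∧ ‖s * a‖ ^ 2 + ‖s * b‖ ^ 2 = 1 := by
  have h1 := Real.sqrt_pos.2 h
  refine ⟨((√(‖a‖ ^ 2 + ‖b‖ ^ 2))⁻¹ : ℝ), by exact_mod_cast (inv_pos.2 h1).ne', ?_⟩
  rw [norm_mul, norm_mul, mul_pow, mul_pow, ← mul_add, Complex.norm_real, Real.norm_eq_abs, sq_abs,
    inv_pow, Real.sq_sqrt h.le, inv_mul_cancel₀ h.ne']

theorem compact (c : Fin 5 → Fin 5 → ℂ) : IsCompact (Phi '' ZZ c) := by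
  set K : Set (Fin 5 → ℂ) := {w | ‖w 0‖ ^ 2 + ‖w 1‖ ^ 2 = 1 ∧ ‖w 2‖ ^ 2 + ‖w 3‖ ^ 2 = 1 ∧
    w 4 ^ 2 = bi c w} with hK
  have cb : Continuous (bi c) := continuous_iff_continuousAt.2 fun w => (an_bi c w).continuousAt
  have hcl : IsClosed K :=
    (isClosed_eq (by fun_prop) continuous_const).inter
      ((isClosed_eq (by fun_prop) continuous_const).inter (isClosed_eq (by fun_prop) cb))
  obtain ⟨M, hM⟩ := (isCompact_closedBall (0 : Fin 5 → ℂ) 1).exists_bound_of_continuousOn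
    cb.continuousOn
  have hM0 : 0 ≤ M := (norm_nonneg _).trans (hM 0 (mem_closedBall_self zero_le_one))
  have hb : K ⊆ closedBall 0 (M + 1) := by
    rintro w ⟨h1, h2, h3⟩
    have a0 : ‖w 0‖ ≤ 1 := by nlinarith [norm_nonneg (w 0), sq_nonneg ‖w 1‖]
    have a1 : ‖w 1‖ ≤ 1 := by nlinarith [norm_nonneg (w 1), sq_nonneg ‖w 0‖]
    have a2 : ‖w 2‖ ≤ 1 := by nlinarith [norm_nonneg (w 2), sq_nonneg ‖w 3‖]
    have a3 : ‖w 3‖ ≤ 1 := by nlinarith [norm_nonneg (w 3), sq_nonneg ‖w 2‖]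
    have h4 := hM ![w 0, w 1, w 2, w 3, 0] (by
      rw [mem_closedBall_zero_iff, pi_norm_le_iff_of_nonneg zero_le_one]
      intro i
      fin_cases i
      exacts [a0, a1, a2, a3, by simp])
    rw [bi_congr c (w := ![w 0, w 1, w 2, w 3, 0]) (w' := w) rfl rfl rfl rfl, ← h3, norm_pow] at h4
    have a4 : ‖w 4‖ ≤ M + 1 := by nlinarith [norm_nonneg (w 4)]
    rw [mem_closedBall_zero_iff, pi_norm_le_iff_of_nonneg (by positivity)]
    intro i
    fin_cases i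
    exacts [a0.trans (by linarith), a1.trans (by linarith), a2.trans (by linarith),
      a3.trans (by linarith), a4]
  have hsub : K ⊆ ZZ c := by
    rintro w ⟨h1, h2, h3⟩
    refine ⟨fun e => ?_, fun e => ?_, h3⟩
    · have h0 : w 0 = 0 := congrArg Prod.fst e
      have h0' : w 1 = 0 := congrArg Prod.snd e
      simp [h0, h0'] at h1
    · have h0 : w 2 = 0 := congrArg Prod.fst e
      have h0' : w 3 = 0 := congrArg Prod.snd e
      simp [h0, h0'] at h2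
  have hc := ((isCompact_closedBall _ _).of_isClosed_subset hcl hb).image_of_continuousOn
    ((cont_Phi c).mono hsub)
  have e : Phi '' ZZ c = Phi '' K := by
    refine Subset.antisymm ?_ (image_mono hsub)
    rintro _ ⟨w, hw, rfl⟩
    obtain ⟨i, j, hi, hj⟩ := ex hw
    obtain ⟨s, hs, es⟩ := unit (pos hi)
    obtain ⟨t, ht, et⟩ := unit (pos hj)
    have hst : ∀ k, (![s, t] : Fin 2 → ℂ) k ≠ 0 := fun k => by
      fin_cases k
      exacts [hs, ht]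
    refine ⟨tact dd ![s, t] w, ⟨?_, ?_, (tact_mem hst hw).2.2⟩, Phi_tact hst w⟩
    · rw [tact0, tact1]; exact es
    · rw [tact2, tact3]; exact et
  rwa [e]

theorem nonempty (c : Fin 5 → Fin 5 → ℂ) : (ZZ c).Nonempty := by
  obtain ⟨z, hz⟩ := IsAlgClosed.exists_pow_nat_eq (bi c ![1, 0, 1, 0, 0]) two_pos
  refine ⟨![1, 0, 1, 0, z], by simp, by simp, ?_⟩
  rw [bi_congr c (w := ![1, 0, 1, 0, z]) (w' := ![1, 0, 1, 0, 0]) rfl rfl rfl rfl, ← hz]
  rfl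

theorem inv_ne {a b : ℂ} (ha : a ≠ 0) (hb : b ≠ 0) (k : Fin 2) : (![a⁻¹, b⁻¹] : Fin 2 → ℂ) k ≠ 0 := by
  fin_cases k
  exacts [inv_ne_zero ha, inv_ne_zero hb]

theorem sec_ll {c : Fin 5 → Fin 5 → ℂ} {y : Amb} (hy : y ∈ Phi '' ZZ c) {i j : Fin 2}
    (hi : y.1 i i ≠ 0) (hj : y.2.1 j j ≠ 0) :
    sec i j (ll i j y) ∈ ZZ c ∧ Phi (sec i j (ll i j y)) = y := by
  obtain ⟨w, hw, rfl⟩ := hy
  have hi' : pa w i ≠ 0 := prj_ne.1 hi
  have hj' : qa w j ≠ 0 := prj_ne.1 hj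
  rw [ll_Phi hi' hj', sec_nrm hi' hj']
  exact ⟨tact_mem (inv_ne hi' hj') hw, Phi_tact (inv_ne hi' hj') w⟩

theorem fib {c : Fin 5 → Fin 5 → ℂ} {w w' : Fin 5 → ℂ} (hw : w ∈ ZZ c) (h : Phi w = Phi w') :
    ∃ s : Fin 2 → ℂ, (∀ k, s k ≠ 0) ∧ w' = tact dd s w := by
  obtain ⟨i, j, hi, hj⟩ := ex hw
  have e1 : prj (pa w) = prj (pa w') := congrArg Prod.fst h
  have e2 : prj (qa w) = prj (qa w') := congrArg (fun y : Amb => y.2.1) h
  have hi' : pa w' i ≠ 0 := prj_ne.1 (e1 ▸ prj_ne.2 hi)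
  have hj' : qa w' j ≠ 0 := prj_ne.1 (e2 ▸ prj_ne.2 hj)
  have e := sec_nrm hi hj
  rw [← ll_Phi hi hj, h, ll_Phi hi' hj', sec_nrm hi' hj'] at e
  refine ⟨![pa w' i / pa w i, qa w' j / qa w j], fun k => ?_, ?_⟩
  · fin_cases k
    exacts [div_ne_zero hi' hi, div_ne_zero hj' hj]
  · have a0 := congrFun e 0
    have a1 := congrFun e 1
    have a2 := congrFun e 2
    have a3 := congrFun e 3
    have a4 := congrFun e 4
    rw [tact0, tact0] at a0
    rw [tact1, tact1] at a1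
    rw [tact2, tact2] at a2
    rw [tact3, tact3] at a3
    rw [tact4, tact4] at a4
    simp only [Matrix.cons_val_zero, Matrix.cons_val_one] at a0 a1 a2 a3 a4
    field_simp at a0 a1 a2 a3 a4
    refine vec_ext ?_ ?_ ?_ ?_ ?_
    · rw [tact0]; simp only [Matrix.cons_val_zero]; field_simp; linear_combination a0
    · rw [tact1]; simp only [Matrix.cons_val_zero]; field_simp; linear_combination a1
    · rw [tact2]; simp only [Matrix.cons_val_zero, Matrix.cons_val_one]; field_simp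
      linear_combination a2
    · rw [tact3]; simp only [Matrix.cons_val_zero, Matrix.cons_val_one]; field_simp
      linear_combination a3
    · rw [tact4]; simp only [Matrix.cons_val_zero, Matrix.cons_val_one]; field_simp
      linear_combination a4

theorem cont_ll (i j : Fin 2) : ContinuousOn (ll i j) {y | y.1 i i ≠ 0 ∧ y.2.1 j j ≠ 0} := by
  refine continuousOn_pi.2 fun m => ?_
  fin_cases m
  · exact ContinuousOn.div (f := fun y : Amb => y.1 i.rev i) (g := fun y : Amb => y.1 i i)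
      (by fun_prop) (by fun_prop) fun y hy => hy.1
  · exact ContinuousOn.div (f := fun y : Amb => y.2.1 j.rev j) (g := fun y : Amb => y.2.1 j j)
      (by fun_prop) (by fun_prop) fun y hy => hy.2
  · exact ContinuousOn.div (f := fun y : Amb => y.2.2 i j)
      (g := fun y : Amb => y.1 i i ^ 2 * y.2.1 j j ^ 2) (by fun_prop) (by fun_prop) fun y hy =>
        mul_ne_zero (pow_ne_zero 2 hy.1) (pow_ne_zero 2 hy.2)

theorem imm {i j : Fin 2} {u v : Fin 3 → ℂ} {s : Fin 2 → ℂ}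
    (h : dl i j v = orb dd s (sec i j u)) : v = 0 := by
  have h0 : s 0 = 0 := by
    have := (pa_dl i j v).1
    rwa [h, pa_orb, (pa_sec i j u).1, mul_one] at this
  have h1 : s 1 = 0 := by
    have := (qa_dl i j v).1
    rwa [h, qa_orb, (qa_sec i j u).1, mul_one] at this
  refine vec3 ?_ ?_ ?_
  · rw [← (pa_dl i j v).2, h, pa_orb, h0, zero_mul]; rfl
  · rw [← (qa_dl i j v).2, h, qa_orb, h1, zero_mul]; rfl
  · rw [← dl4 i j v, h, orb4, h0, h1]; simp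

end XEx

open XEx D44 in
theorem exists_double {c : Fin 5 → Fin 5 → ℂ}
    (hc : ∀ w : Fin 5 → ℂ, (w 0, w 1) ≠ 0 → (w 2, w 3) ≠ 0 → bi c w = 0 → fderiv ℂ (bi c) w ≠ 0) :
    ∃ (X : Type) (_ : MetricSpace X) (_ : CompactSpace X) (_ : ChartedSpace C2 X),
      IsManifold 𝓘(ℂ, C2) ω X ∧ IsQuot X D44.dd (D44.ZZ c) := by
  classical
  let X : Type := Phi '' ZZ c
  have hcpt : CompactSpace X := isCompact_iff_compactSpace.1 (XEx.compact c)
  obtain ⟨w0, hw0⟩ := XEx.nonempty c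
  let ρ : (Fin 5 → ℂ) → X := fun w => if h : w ∈ ZZ c then ⟨Phi w, w, h, rfl⟩ else ⟨_, w0, hw0, rfl⟩
  have hρ : ∀ w ∈ ZZ c, (ρ w).1 = Phi w := fun w hw => by simp only [ρ, dif_pos hw]
  let U : Fin 2 × Fin 2 → Set X := fun a => {x | x.1.1 a.1 a.1 ≠ 0 ∧ x.1.2.1 a.2 a.2 ≠ 0}
  have hU : ∀ a, IsOpen (U a) := fun a =>
    (isOpen_ne_fun (by fun_prop) continuous_const).inter (isOpen_ne_fun (by fun_prop) continuous_const)
  have cov : ∀ x : X, ∃ a, x ∈ U a := by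
    rintro ⟨_, w, hw, rfl⟩
    obtain ⟨i, j, hi, hj⟩ := XEx.ex hw
    exact ⟨(i, j), prj_ne.2 hi, prj_ne.2 hj⟩
  have hsec : ∀ a, ∀ x ∈ U a, sec a.1 a.2 (ll a.1 a.2 x.1) ∈ ZZ c ∧
      ρ (sec a.1 a.2 (ll a.1 a.2 x.1)) = x := fun a x hx => by
    obtain ⟨h1, h2⟩ := sec_ll x.2 hx.1 hx.2
    exact ⟨h1, Subtype.ext ((hρ _ h1).trans h2)⟩
  obtain ⟨inst, hM, hH⟩ := exists_surface U (fun a x => ll a.1 a.2 x.1)
    (fun a u => ff c (sec a.1 a.2 u) 0) (fun a u => ρ (sec a.1 a.2 u)) hU cov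
    (fun a u _ => AnalyticAt.comp (g := fun w => ff c w 0) (f := sec a.1 a.2)
      (((an_co 4 _).pow 2).sub (an_bi c _)) (an_sec _ _ u))
    (fun a => (cont_ll a.1 a.2).comp continuous_subtype_val.continuousOn fun x hx => hx)
    (fun a x hx => ⟨sec_mem.1 (hsec a x hx).1, (hsec a x hx).2⟩)
    (fun a => by
      refine Topology.IsInducing.subtypeVal.continuousOn_iff.2 ?_
      refine ((cont_Phi c).comp (f := sec a.1 a.2)
        (fun u _ => (an_sec _ _ u).continuousAt.continuousWithinAt)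
        fun u hu => sec_mem.2 hu).congr fun u hu => hρ _ (sec_mem.2 hu))
    (fun a u hu => by
      have h1 := hρ _ (sec_mem.2 hu)
      refine ⟨⟨?_, ?_⟩, ?_⟩
      · rw [h1]
        exact prj_ne.2 (by rw [(pa_sec _ _ u).1]; exact one_ne_zero)
      · rw [h1]
        exact prj_ne.2 (by rw [(qa_sec _ _ u).1]; exact one_ne_zero)
      · simp only [h1, ll_sec])
    (fun a u hu => XEx.smooth hc a.1 a.2 u hu)
    (fun a b x hx => by
      have key : ∀ y ∈ U a ∩ U b, pa (sec a.1 a.2 (ll a.1 a.2 y.1)) b.1 ≠ 0 ∧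
          qa (sec a.1 a.2 (ll a.1 a.2 y.1)) b.2 ≠ 0 := fun y hy => by
        have h2 := (sec_ll y.2 hy.1.1 hy.1.2).2
        have h3 := hy.2.1
        have h4 := hy.2.2
        rw [← h2] at h3 h4
        exact ⟨prj_ne.1 h3, prj_ne.1 h4⟩
      refine ⟨fun u => nrm b.1 b.2 (sec a.1 a.2 u), AnalyticAt.comp (f := sec a.1 a.2)
        (an_nrm (key x hx).1 (key x hx).2) (an_sec _ _ _), ?_⟩
      filter_upwards [((hU a).inter (hU b)).mem_nhds hx] with y hy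
      rw [← ll_Phi (key y hy).1 (key y hy).2, (sec_ll y.2 hy.1.1 hy.1.2).2])
  refine ⟨X, inferInstance, hcpt, inst, hM, ρ, fun w hw w' hw' => ⟨fun h => ?_, ?_⟩, fun x => ?_⟩
  · exact XEx.fib hw (by rw [← hρ w hw, ← hρ w' hw', h])
  · rintro ⟨s, hs, rfl⟩
    exact Subtype.ext (by rw [hρ w hw, hρ _ hw', Phi_tact hs])
  · obtain ⟨a, ha⟩ := cov x
    obtain ⟨h1, h2⟩ := hH a x ha
    refine ⟨fun y => sec a.1 a.2 (ll a.1 a.2 y.1), h1.post (an_sec _ _ _), ?_, fun v s hv => ?_⟩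
    · filter_upwards [(hU a).mem_nhds ha] with y hy
      exact hsec a y hy
    · have h3 := dfn_post (g := sec a.1 a.2) h1 (an_sec _ _ _) v
      rw [(hasF_sec _ _ _).fderiv] at h3
      have h4 := XEx.imm (h3.symm.trans hv)
      exact h2 (h4.trans (map_zero _).symm)

end Vale.Agent.P290
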