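import Vale.Agent.P290G.SD
import Vale.Agent.P290G.Iso
import Vale.Agent.P290G.XEll2
import Vale.Agent.P290G.XEx
import Vale.Agent.P290G.QAlg
import Vale.Agent.P290G.Dom
import Vale.Agent.P290G.NT2
import Vale.Agent.P290G.HInv
import Vale.Agent.P290G.WInv
import Vale.Agent.P290G.GenP

/-! A general elliptic K3 surface is Oka. -/

open Set Filter Metric Polynomial
open scoped Manifold ContDiff Topology

noncomputable section

namespace Vale.Agent.P290

section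

variable {X : Type} [TopologicalSpace X] [ChartedSpace C2 X]

/-- An elliptic fibration with irreducible fibres. -/
structure IsEll (σ : Form2 X) (π : X → P1) : Prop where
  sym : IsSympl σ
  hol : HolP π
  fin : {x | ¬ Reg π x}.Finite
  conn : ∀ a, IsConnected {x | π x = a ∧ Reg π x}

/-- The period lattices of the smooth fibres have invariants `A`, `B`. -/
def HasInv (σ : Form2 X) (π : X → P1) (A B : ℂ → ℂ) : Prop :=
  ∀ z, (∀ x, Rep (1, z) (π x) → Reg π x) → ∃ L : PeriodPair, L.g₂ = A z ∧ L.g₃ = B z ∧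
    ∀ γ, HamCurve σ (fun y => aff (π y)) γ → Rep (1, z) (π (γ 0)) →
      ∀ t, γ t = γ 0 ↔ t ∈ L.lattice

variable [IsManifold 𝓘(ℂ, C2) ω X] {σ : Form2 X} {π : X → P1} {S : X × (ℂ × ℂ) × ℂ → X}

theorem IsEll.ell [T2Space X] [CompactSpace X] (h : IsEll σ π) : ∃ S, Ell σ π S := by
  obtain ⟨S, hS⟩ := exists_spray h.sym h.hol
  exact ⟨S, h.sym, h.hol, hS, h.fin, fun a => (h.conn a).1,
    trans_of_conn h.sym h.hol hS fun a => (h.conn a).2⟩

theorem Ell.isEll (h : Ell σ π S) : IsEll σ π := by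
  refine ⟨h.sym, h.hol, h.fin, fun a => ?_⟩
  obtain ⟨x, hx, hr⟩ := h.ex a
  obtain ⟨q, hq⟩ := exists_rep a
  have hq' : Rep q (π x) := hx ▸ hq
  have e : {x | π x = a ∧ Reg π x} = range fun t => S (x, q, t) := by
    ext y
    constructor
    · rintro ⟨hy, hy'⟩
      exact h.trans x y q hq' (hy ▸ hq) hr hy'
    · rintro ⟨t, rfl⟩
      exact ⟨(h.spr.fib x q t hq').trans hx, hr.flow h.sym h.hol h.spr hq' t⟩
  rw [e]
  exact isConnected_range (continuous_iff_continuousAt.2 fun t => (Orb.hol h.spr hq' t).cont)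

theorem Ell.hasInv_iff (h : Ell σ π S) {A B : ℂ → ℂ} : HasInv σ π A B ↔
    ∀ z, (∀ x, Rep (1, z) (π x) → Reg π x) → ∃ L : PeriodPair, L.g₂ = A z ∧ L.g₃ = B z ∧
      (Per h.spr (1, z) : Set ℂ) = L.lattice := by
  refine forall₂_congr fun z hz => exists_congr fun L => and_congr_right fun _ =>
    and_congr_right fun _ => ⟨fun H => ?_, fun H γ hγ h0 t => ?_⟩
  · obtain ⟨a, ha⟩ := exists_pt (p := ((1 : ℂ), z)) (by simp)
    obtain ⟨x, hx, hr⟩ := h.ex a
    have hq : Rep (1, z) (π x) := hx ▸ ha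
    have h0 := h.spr.zero x _ hq
    ext t
    have := H _ (spray_hamCurve h.hol h.spr hq) (by rw [h0]; exact hq) t
    rw [h0] at this
    rw [SetLike.mem_coe, h.mem_per hq hr]
    exact this
  · have e : aff (π (γ 0)) = z := by rw [h0.aff_eq]; simp
    have := h.spr.uniq γ hγ (by rw [e]; exact h0) t
    rw [e] at this
    rw [this, ← h.mem_per h0 (hz _ h0), ← SetLike.mem_coe, H, SetLike.mem_coe]

end

/-- The double cover with given Weierstrass data. -/
theorem exists_model {c : Fin 5 → Fin 5 → ℂ} {A B : ℂ[X]}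
    (hA : ∀ z, A.eval z = inv2 (cof c (1, z))) (hB : ∀ z, B.eval z = inv3 (cof c (1, z)))
    (hd : (disc A B).natDegree = 24) (hs : WSm A B) :
    ∃ (X : Type) (_ : MetricSpace X) (_ : CompactSpace X) (_ : ChartedSpace C2 X)
      (_ : IsManifold 𝓘(ℂ, C2) ω X) (σ : Form2 X) (π : X → P1) (S : X × (ℂ × ℂ) × ℂ → X)
      (h : Ell σ π S), IsOka X ∧ HasInv σ π A.eval B.eval ∧ Inv (fun z => Per h.spr (1, z)) A B ∧
      ∃ L : PeriodPair, (Per h.spr (0, 1) : Set ℂ) = L.lattice := by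
  obtain ⟨hc, hinf⟩ := quart_of hA hB hd hs
  obtain ⟨X, i1, i2, i3, i4, hq⟩ := exists_double hc.smooth
  obtain ⟨ρ, hρ⟩ := IsQuot.qd hq (D44.free c)
  obtain ⟨σ, π, S, h, hW, hr⟩ := dbl_ell' hc hρ
  have key : ∀ z, (∀ x, Rep (1, z) (π x) → Reg π x) → ∃ L : PeriodPair, L.g₂ = A.eval z ∧
      L.g₃ = B.eval z ∧ (Per h.spr (1, z) : Set ℂ) = L.lattice := fun z hz => by
    obtain ⟨L, hL⟩ := h.per_lattice (q := (1, z)) (by simp) hz
    obtain ⟨x₀, Y, hY⟩ := hW (1, z) (by simp)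
    obtain ⟨e₂, e₃⟩ := hY.inv h hL
    exact ⟨L, by rw [e₂, hA], by rw [e₃, hB], hL⟩
  refine ⟨X, i1, i2, i3, i4, σ, π, S, h, oka_double ⟨c, hc.smooth, hq⟩, h.hasInv_iff.2 key,
    fun z hz => key z (hr _ fun r hr0 h0 => hz ?_), h.per_lattice (by simp) (hr _ hinf)⟩
  have := mult_disc hr0 h0
  rw [← hA, ← hB] at this
  simpa [disc] using this

theorem per_eq_of_inv {X X' : Type} [MetricSpace X] [CompactSpace X] [ChartedSpace C2 X]
    [IsManifold 𝓘(ℂ, C2) ω X] [MetricSpace X'] [CompactSpace X'] [ChartedSpace C2 X']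
    [IsManifold 𝓘(ℂ, C2) ω X'] {σ : Form2 X} {π : X → P1} {S : X × (ℂ × ℂ) × ℂ → X}
    {σ' : Form2 X'} {π' : X' → P1} {S' : X' × (ℂ × ℂ) × ℂ → X'} (h : Ell σ π S)
    (h' : Ell σ' π' S') {A B : ℂ → ℂ} (hI : HasInv σ π A B) (hI' : HasInv σ' π' A B)
    (uq : ∀ L L' : PeriodPair, L.g₂ = L'.g₂ → L.g₃ = L'.g₃ → (L.lattice : Set ℂ) = L'.lattice)
    (q : ℂ × ℂ) : Per h.spr q = Per h'.spr q := by
  refine per_eq h h' (h.crit_finite.union h'.crit_finite) (fun z hz => ?_) q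
  simp only [mem_union, mem_ofPred_eq, not_or, not_not] at hz
  obtain ⟨L, h2, h3, hL⟩ := h.hasInv_iff.1 hI z hz.1
  obtain ⟨L', h2', h3', hL'⟩ := h'.hasInv_iff.1 hI' z hz.2
  exact SetLike.coe_injective (by rw [hL, hL']; exact uq L L' (h2.trans h2'.symm) (h3.trans h3'.symm))

/-- A lattice is determined by its invariants. -/
theorem lattice_uniq (L L' : PeriodPair) (h2 : L.g₂ = L'.g₂) (h3 : L.g₃ = L'.g₃) :
    (L.lattice : Set ℂ) = L'.lattice := by
  refine wp_poles L' L.isClosed_lattice (lattice_countable L) L.analyticOnNhd_weierstrassP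
    (fun u hu => ?_) ?_ (fun d hd => ?_) L.lattice.zero_mem
  · rw [L.deriv_weierstrassP, L.derivWeierstrassP_sq u hu, h2, h3]
  · by_contra hn
    push Not at hn
    have h4 : L.ω₁ / 4 ∉ L.lattice := fun h => L.ω₁_div_two_notMem_lattice (by
      have := L.lattice.add_mem h h
      convert this using 1
      ring)
    have := hn _ h4
    rw [L.deriv_weierstrassP, wp'_zero L h4] at this
    refine L.ω₁_div_two_notMem_lattice ?_
    convert this using 1
    ring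
  · refine (wp_tendsto L hd).mono_left (nhdsWithin_mono _ fun u hu h => hu ?_)
    rw [mem_singleton_iff.1 h]
    exact hd

theorem oka_of_inv {c : Fin 5 → Fin 5 → ℂ} {A B : ℂ[X]} (hA' : A.natDegree ≤ 8)
    (hB' : B.natDegree ≤ 12) (hA : ∀ z, A.eval z = inv2 (cof c (1, z)))
    (hB : ∀ z, B.eval z = inv3 (cof c (1, z))) (hd : (disc A B).natDegree = 24) (hs : WSm A B)
    {X : Type} [MetricSpace X] [CompactSpace X] [ChartedSpace C2 X] [IsManifold 𝓘(ℂ, C2) ω X]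
    {σ : Form2 X} {π : X → P1} (hX : IsEll σ π) (hI : HasInv σ π A.eval B.eval) : IsOka X := by
  obtain ⟨S, h⟩ := hX.ell
  obtain ⟨X', _, _, _, _, σ', π', S', h', hO, hI', hV, hinf⟩ := exists_model hA hB hd hs
  have he := per_eq_of_inv h h' hI hI' lattice_uniq
  have hT : LocTriv (fun z => Per h'.spr (1, z)) {z | (disc A B).eval z = 0}ᶜ := fun z hz => by
    obtain ⟨L, -, -, hL⟩ := hV z hz
    exact h'.loc_triv (p := fun z => (1, z)) (Or.inl rfl) hL
  obtain ⟨ε, hε, hsh⟩ := h'.short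
  have hno : ∀ k : ℕ, k.Prime → ∀ P,
      ¬ Tors (fun z => Per h'.spr (1, z)) {z | (disc A B).eval z = 0} k P := fun k hk P =>
    no_tors hA' hB' hd hs hV hT hε hsh hk P
  have d' := h'.sec_data (disc_finite hd) hT hinf hno
  have ef : (fun z => Per h.spr (1, z)) = fun z => Per h'.spr (1, z) := funext fun z => he _
  have d := h.sec_data (disc_finite hd) (ef ▸ hT) (by rw [he]; exact hinf) (ef ▸ hno)
  exact (main.2.1 X X' (twist_of_data h h' he d d')).2 hO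

theorem oka_generic : ∃ P : MvPolynomial (Fin 9 ⊕ Fin 13) ℂ, P ≠ 0 ∧
    (∀ (X : Type) [MetricSpace X] [CompactSpace X] [ChartedSpace C2 X]
      [IsManifold 𝓘(ℂ, C2) ω X] (σ : Form2 X) (π : X → P1), IsEll σ π →
      (∃ (α : Fin 9 → ℂ) (β : Fin 13 → ℂ), HasInv σ π (pol α).eval (pol β).eval) ∧
      ∀ (α : Fin 9 → ℂ) (β : Fin 13 → ℂ), HasInv σ π (pol α).eval (pol β).eval →
        MvPolynomial.eval (Sum.elim α β) P ≠ 0 → IsOka X) ∧
    ∀ (α : Fin 9 → ℂ) (β : Fin 13 → ℂ), MvPolynomial.eval (Sum.elim α β) P ≠ 0 →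
      ∃ (X : Type) (_ : MetricSpace X) (_ : CompactSpace X) (_ : ChartedSpace C2 X),
        IsManifold 𝓘(ℂ, C2) ω X ∧ ∃ (σ : Form2 X) (π : X → P1), IsEll σ π ∧
          HasInv σ π (pol α).eval (pol β).eval := by
  obtain ⟨P, hP, hdom⟩ := dominance
  obtain ⟨Q, hQ, hgen⟩ := generic_wsm
  refine ⟨P * Q, mul_ne_zero hP hQ, fun X _ _ _ _ σ π hX => ⟨?_, fun α β hI h0 => ?_⟩,
    fun α β h0 => ?_⟩
  · obtain ⟨S, h⟩ := hX.ell
    obtain ⟨α, β, H⟩ := h.has_inv
    exact ⟨α, β, h.hasInv_iff.2 H⟩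
  · rw [map_mul, mul_ne_zero_iff] at h0
    obtain ⟨c, hc⟩ := hdom α β h0.1
    obtain ⟨hd, hs⟩ := hgen α β h0.2
    exact oka_of_inv (pol_natDegree α) (pol_natDegree β) (fun z => (hc z).1) (fun z => (hc z).2)
      hd hs hX hI
  · rw [map_mul, mul_ne_zero_iff] at h0
    obtain ⟨c, hc⟩ := hdom α β h0.1
    obtain ⟨hd, hs⟩ := hgen α β h0.2
    obtain ⟨X, i1, i2, i3, i4, σ, π, S, h, -, hI, -⟩ :=
      exists_model (fun z => (hc z).1) (fun z => (hc z).2) hd hs
    exact ⟨X, i1, i2, i3, i4, σ, π, h.isEll, hI⟩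

end Vale.Agent.P290
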