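import Vale.Agent.P290G.PF2

/-! Classes on a circle. -/

open Set Filter Metric Polynomial
open scoped Manifold ContDiff Topology

noncomputable section

namespace Vale.Agent.P290

variable {Λ : ℂ → AddSubgroup ℂ} {ω₁ ω₂ η₁ η₂ ν ν' : ℂ → ℂ} {K : Set ℂ}

namespace PF3

theorem log_neg {z : ℂ} (hz : z.re < 0) :
    Complex.log z = Complex.log (-z) + Real.pi * Complex.I ∨
      Complex.log z = Complex.log (-z) - Real.pi * Complex.I := by
  rcases lt_or_ge z.im 0 with h | h
  · right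
    rw [Complex.log, Complex.log, norm_neg, Complex.arg_neg_eq_arg_add_pi_of_im_neg h]
    push_cast
    ring
  · left
    have h1 : Complex.arg (-z) = Complex.arg z - Real.pi :=
      Complex.arg_neg_eq_arg_sub_pi_iff.2 (h.eq_or_lt.elim (fun e => Or.inr ⟨e.symm, hz⟩) Or.inl)
    rw [Complex.log, Complex.log, norm_neg, h1]
    push_cast
    ring

theorem bas_exp (hb : Bas Λ ω₁ ω₂ K) {K' : Set ℂ} (h : ∀ w ∈ K', Complex.exp w ∈ K) :
    Bas (fun w => Λ (Complex.exp w)) (fun w => ω₁ (Complex.exp w)) (fun w => ω₂ (Complex.exp w))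
      K' := fun w hw => by
  obtain ⟨h1, h2, h3⟩ := hb _ (h w hw)
  exact ⟨h1.comp analyticAt_cexp, h2.comp analyticAt_cexp,
    Complex.continuous_exp.continuousAt.eventually h3⟩

theorem asec_exp (hb : ASec Λ ν K) {K' : Set ℂ} (h : ∀ w ∈ K', Complex.exp w ∈ K) :
    ASec (fun w => Λ (Complex.exp w)) (fun w => ν (Complex.exp w)) K' := fun w hw => by
  obtain ⟨c, h1, h2⟩ := hb _ (h w hw)
  exact ⟨fun w => c (Complex.exp w), h1.comp analyticAt_cexp,
    Complex.continuous_exp.continuousAt.eventually h2⟩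

/-- The vertical segment over the circle. -/
def seg (r : ℝ) : Set ℂ := {Real.log r} ×ℂ Icc (-Real.pi) Real.pi

theorem seg_compact (r : ℝ) : IsCompact (seg r) := isCompact_singleton.reProdIm isCompact_Icc

theorem seg_convex (r : ℝ) : Convex ℝ (seg r) :=
  ((convex_singleton _).is_linear_preimage Complex.reLm.isLinear).inter
    ((convex_Icc _ _).is_linear_preimage Complex.imLm.isLinear)

theorem seg_exp {r : ℝ} (hr : 0 < r) : ∀ w ∈ seg r, Complex.exp w ∈ sphere (0 : ℂ) r := by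
  intro w hw
  have h1 : w.re = Real.log r := hw.1
  rw [mem_sphere_zero_iff_norm, Complex.norm_exp, h1, Real.exp_log hr]

theorem log_mem {r : ℝ} {z : ℂ} (hz : z ∈ sphere (0 : ℂ) r) : Complex.log z ∈ seg r := by
  rw [mem_sphere_zero_iff_norm] at hz
  refine ⟨?_, ?_⟩
  · change (Complex.log z).re = Real.log r
    rw [Complex.log_re, hz]
  · exact ⟨(Complex.neg_pi_lt_log_im z).le, Complex.log_im_le_pi z⟩

theorem top_mem (r : ℝ) : (Real.log r : ℂ) + Real.pi * Complex.I ∈ seg r := by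
  refine ⟨by simp [-Complex.natCast_log, -Complex.ofReal_log], ?_⟩
  simp [Real.pi_pos.le]

theorem bot_mem (r : ℝ) : (Real.log r : ℂ) - Real.pi * Complex.I ∈ seg r := by
  refine ⟨by simp [-Complex.natCast_log, -Complex.ofReal_log], ?_⟩
  simp [Real.pi_pos.le]

theorem cases_sphere {r : ℝ} (hr : 0 < r) {z : ℂ} (hz : z ∈ sphere (0 : ℂ) r) :
    z ∈ Complex.slitPlane ∨ z = -(r : ℂ) := by
  rw [mem_sphere_zero_iff_norm] at hz
  by_cases h : z ∈ Complex.slitPlane
  · exact Or.inl h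
  · right
    rw [Complex.mem_slitPlane_iff, not_or, not_lt, not_not] at h
    have e : z = (z.re : ℂ) := Complex.ext rfl (by simp [h.2])
    rw [e, Complex.norm_real, Real.norm_eq_abs, abs_of_nonpos h.1] at hz
    rw [e, ← hz]
    simp

theorem an_neg {r : ℝ} (hr : 0 < r) : AnalyticAt ℂ (fun z => Complex.log (-z)) (-(r : ℂ)) :=
  analyticAt_id.neg.clog (by simp [hr])

theorem log_at {r : ℝ} (hr : 0 < r) : Complex.log (-(-(r : ℂ))) = Real.log r := by
  rw [neg_neg, Complex.ofReal_log hr.le]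

theorem ev_neg {r : ℝ} (hr : 0 < r) : ∀ᶠ z in 𝓝 (-(r : ℂ)), z.re < 0 :=
  Complex.continuous_re.continuousAt.eventually_lt continuousAt_const (by simp [hr])

theorem tend_top {r : ℝ} (hr : 0 < r) :
    Tendsto (fun z => Complex.log (-z) + Real.pi * Complex.I) (𝓝 (-(r : ℂ)))
      (𝓝 ((Real.log r : ℂ) + Real.pi * Complex.I)) :=
  log_at hr ▸ (an_neg hr).continuousAt.tendsto.add_const _

theorem tend_bot {r : ℝ} (hr : 0 < r) :
    Tendsto (fun z => Complex.log (-z) - Real.pi * Complex.I) (𝓝 (-(r : ℂ)))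
      (𝓝 ((Real.log r : ℂ) - Real.pi * Complex.I)) :=
  log_at hr ▸ (an_neg hr).continuousAt.tendsto.sub_const _

theorem ev_log {r : ℝ} (hr : 0 < r) {P : ℂ → Prop} (h : ∀ᶠ w in 𝓝ˢ (seg r), P w) :
    ∀ᶠ z in 𝓝ˢ (sphere (0 : ℂ) r), P (Complex.log z) := by
  rw [eventually_nhdsSet_iff_forall] at h ⊢
  intro z hz
  rcases cases_sphere hr hz with h1 | rfl
  · exact (continuousAt_clog h1).eventually (h _ (log_mem hz))
  · filter_upwards [ev_neg hr, (tend_top hr).eventually (h _ (top_mem r)),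
      (tend_bot hr).eventually (h _ (bot_mem r))] with z h1 h2 h3
    rcases log_neg h1 with e | e
    · rwa [e]
    · rwa [e]

theorem an_log {r : ℝ} (hr : 0 < r) {g : ℂ → ℂ} (hg : AnalyticOnNhd ℂ g (seg r))
    (h : ∀ᶠ w in 𝓝 ((Real.log r : ℂ) - Real.pi * Complex.I),
      g (w + 2 * Real.pi * Complex.I) = g w) :
    AnalyticOnNhd ℂ (fun z => g (Complex.log z)) (sphere 0 r) := by
  intro z hz
  rcases cases_sphere hr hz with h1 | rfl
  · exact (hg _ (log_mem hz)).comp (analyticAt_clog h1)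
  · have h2 : AnalyticAt ℂ (fun z => g (Complex.log (-z) + Real.pi * Complex.I)) (-(r : ℂ)) :=
      AnalyticAt.comp (f := fun z => Complex.log (-z) + Real.pi * Complex.I)
        (by rw [log_at hr]; exact hg _ (top_mem r)) ((an_neg hr).add analyticAt_const)
    refine h2.congr ?_
    filter_upwards [ev_neg hr, (tend_bot hr).eventually h] with z h1 h3
    rcases log_neg h1 with e | e
    · rw [e]
    · rw [e, ← h3]
      exact congrArg g (by ring)

end PF3

theorem asec_cls {r : ℝ} (hr : 0 < r) (hb : Bas Λ ω₁ ω₂ (sphere 0 r))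
    (hν : ASec Λ ν (sphere 0 r)) : ∃ (m n : ℤ) (τ : ℂ → ℂ), AnalyticOnNhd ℂ τ (sphere 0 r) ∧
      ∀ᶠ z in 𝓝ˢ (sphere (0 : ℂ) r), ν z - τ z -
        Complex.log z / (2 * Real.pi * Complex.I) * (m * ω₁ z + n * ω₂ z) ∈ Λ z := by
  have hb' := PF3.bas_exp hb (PF3.seg_exp hr)
  obtain ⟨c, hc, hm⟩ := log_convex (PF3.seg_compact r) (PF3.seg_convex r)
    (fun z hz => ⟨_, _, fun w hw => hb' w (by rw [mem_singleton_iff.1 hw]; exact hz)⟩)
    (PF3.asec_exp hν (PF3.seg_exp hr))
  have hab : (Real.log r : ℂ) - Real.pi * Complex.I + 2 * Real.pi * Complex.I =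
      (Real.log r : ℂ) + Real.pi * Complex.I := by ring
  have hsh : AnalyticAt ℂ (fun w : ℂ => w + 2 * Real.pi * Complex.I)
      ((Real.log r : ℂ) - Real.pi * Complex.I) := analyticAt_id.add analyticAt_const
  have hm' := eventually_nhdsSet_iff_forall.1 hm
  obtain ⟨m, n, hmn⟩ := Bas.int_const (K := {(Real.log r : ℂ) - Real.pi * Complex.I})
    (f := fun w => c (w + 2 * Real.pi * Complex.I) - c w)
    (fun w hw => hb' w (by rw [mem_singleton_iff.1 hw]; exact PF3.bot_mem r))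
    isPreconnected_singleton
    (fun w hw => by
      rw [mem_singleton_iff.1 hw]
      exact (AnalyticAt.comp (f := fun w : ℂ => w + 2 * Real.pi * Complex.I)
        (by rw [hab]; exact hc _ (PF3.top_mem r)) hsh).sub (hc _ (PF3.bot_mem r)))
    (by
      rw [nhdsSet_singleton]
      have h1 := hsh.continuousAt.eventually (p := fun w => ν (Complex.exp w) - c w ∈
        Λ (Complex.exp w)) (hm' _ (mem_of_eq_of_mem hab (PF3.top_mem r)))
      filter_upwards [h1, hm' _ (PF3.bot_mem r)] with w h1 h2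
      rw [Complex.exp_periodic w] at h1
      have h3 := sub_mem h2 h1
      rwa [sub_sub_sub_cancel_left] at h3)
  rw [nhdsSet_singleton] at hmn
  have h2 : (2 * Real.pi * Complex.I : ℂ) ≠ 0 := Complex.two_pi_I_ne_zero
  refine ⟨m, n, _, PF3.an_log hr (g := fun w => c w - w / (2 * Real.pi * Complex.I) *
    (m * ω₁ (Complex.exp w) + n * ω₂ (Complex.exp w))) (fun w hw => ?_) ?_, ?_⟩
  · exact (hc w hw).sub ((analyticAt_id.div_const).mul
      ((analyticAt_const.mul (hb' w hw).1).add (analyticAt_const.mul (hb' w hw).2.1)))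
  · filter_upwards [hmn] with w hw
    rw [Complex.exp_periodic w, add_div, div_self h2, sub_eq_iff_eq_add.1 hw]
    ring
  · have h0 : ∀ᶠ z in 𝓝ˢ (sphere (0 : ℂ) r), z ≠ 0 :=
      isOpen_ne.mem_nhdsSet.2 fun z hz e => by
        rw [mem_sphere_zero_iff_norm, e, norm_zero] at hz
        exact hr.ne hz
    filter_upwards [PF3.ev_log hr hm, h0] with z h1 hz
    rw [Complex.exp_log hz] at h1
    simp only [Complex.exp_log hz]
    rwa [sub_sub, sub_add_cancel]

theorem inI_zero (r : ℝ) : InI Λ ω₁ ω₂ r 0 0 :=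
  ⟨fun _ => 0, fun _ => 0, asec_of_analytic analyticOnNhd_const, analyticOnNhd_const,
    Eventually.of_forall fun z => by simp⟩

theorem InI.add {r : ℝ} {m n m' n' : ℤ} (h : InI Λ ω₁ ω₂ r m n) (h' : InI Λ ω₁ ω₂ r m' n') :
    InI Λ ω₁ ω₂ r (m + m') (n + n') := by
  obtain ⟨ν, τ, h1, h2, h3⟩ := h
  obtain ⟨ν', τ', h1', h2', h3'⟩ := h'
  refine ⟨_, fun z => τ z + τ' z, h1.add h1', h2.add h2', ?_⟩
  filter_upwards [h3, h3'] with z a b
  refine (congrArg (· ∈ Λ z) ?_).mp (add_mem a b)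
  push_cast
  ring

theorem InI.neg {r : ℝ} {m n : ℤ} (h : InI Λ ω₁ ω₂ r m n) : InI Λ ω₁ ω₂ r (-m) (-n) := by
  obtain ⟨ν, τ, h1, h2, h3⟩ := h
  refine ⟨_, fun z => -τ z, h1.neg, h2.neg, ?_⟩
  filter_upwards [h3] with z a
  refine (congrArg (· ∈ Λ z) ?_).mp (neg_mem a)
  push_cast
  ring

end Vale.Agent.P290
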