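import Vale.Agent.P290G.PF3

/-! Sections made by cutting along a line. -/

open Set Filter Metric Polynomial
open scoped Manifold ContDiff Topology

noncomputable section

namespace Vale.Agent.P290

variable {Λ : ℂ → AddSubgroup ℂ} {ω₁ ω₂ η₁ η₂ ν ν' : ℂ → ℂ} {K : Set ℂ}

namespace PF4

/-- The plane as a product with one factor. -/
def io : ℂ →L[ℂ] (Unit → ℂ) := ContinuousLinearMap.pi fun _ => ContinuousLinearMap.id ℂ ℂ

theorem mem_box {a b : Unit × Bool → ℝ} {z : ℂ} : z ∈ io ⁻¹' Box a b ↔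
    (a ((), true) ≤ z.re ∧ z.re ≤ b ((), true)) ∧ a ((), false) ≤ z.im ∧ z.im ≤ b ((), false) := by
  simp only [Box, co, io, mem_preimage, mem_ofPred_eq, mem_Icc, Pi.le_def, Prod.forall,
    Bool.forall_bool, ContinuousLinearMap.pi_apply, ContinuousLinearMap.id_apply,
    Unique.forall_iff, PUnit.default_eq_unit, Bool.false_eq_true, ↓reduceIte]
  tauto

theorem split {r c : ℝ} (hc : |c| < r) {f : ℂ → ℂ}
    (hf : AnalyticOnNhd ℂ f {z | z.re = c ∧ |z.im| ≤ r}) : ∃ c₁ c₂ : ℂ → ℂ,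
      (∀ z, ‖z‖ ≤ r → z.re ≤ c → AnalyticAt ℂ c₁ z) ∧
      (∀ z, ‖z‖ ≤ r → c ≤ z.re → AnalyticAt ℂ c₂ z) ∧
      ∀ z, ‖z‖ ≤ r → z.re = c → ∀ᶠ w in 𝓝 z, f w = c₁ w - c₂ w := by
  have hi : Function.Injective io := fun x y h => congrFun h ()
  have hne : ((), false) ≠ ((), true) := by simp
  obtain ⟨c₁, c₂, h1, h2, h3⟩ := (ext_all hi).split (a := fun _ => -r) (b := fun _ => r)
    (k := ((), true)) (c := c) (abs_lt.1 hc).1.le (abs_lt.1 hc).2.le f fun z hz => by
      simp only [mem_inter_iff, mem_box, Function.update_self, Function.update_of_ne hne] at hz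
      exact hf z ⟨le_antisymm hz.1.1.2 hz.2.1.1, abs_le.2 hz.1.2⟩
  have h4 : ∀ z : ℂ, ‖z‖ ≤ r → z.re ≤ c →
      z ∈ io ⁻¹' Box (fun _ => -r) (Function.update (fun _ => r) ((), true) c) := fun z h h' => by
    simp only [mem_box, Function.update_self, Function.update_of_ne hne]
    exact ⟨⟨(abs_le.1 ((Complex.abs_re_le_norm z).trans h)).1, h'⟩,
      abs_le.1 ((Complex.abs_im_le_norm z).trans h)⟩
  have h5 : ∀ z : ℂ, ‖z‖ ≤ r → c ≤ z.re →
      z ∈ io ⁻¹' Box (Function.update (fun _ => -r) ((), true) c) (fun _ => r) := fun z h h' => by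
    simp only [mem_box, Function.update_self, Function.update_of_ne hne]
    exact ⟨⟨h', (abs_le.1 ((Complex.abs_re_le_norm z).trans h)).2⟩,
      abs_le.1 ((Complex.abs_im_le_norm z).trans h)⟩
  exact ⟨c₁, c₂, fun z h h' => h1 z (h4 z h h'), fun z h h' => h2 z (h5 z h h'), fun z h h' =>
    h3.filter_mono (nhds_le_nhdsSet (mem_inter (h4 z h h'.le) (h5 z h h'.ge)))⟩

theorem move {r c : ℝ} (hext : Bas Λ ω₁ ω₂ {z | r ≤ ‖z‖}) {f : ℂ → ℂ}
    (hf : AnalyticOnNhd ℂ f {z | z.re = c ∧ |z.im| ≤ r})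
    (hm : ∀ᶠ w in 𝓝ˢ {z : ℂ | z.re = c ∧ |z.im| ≤ r}, f w ∈ Λ w) {m n : ℤ} {p q : ℂ}
    (hp : p.re = c) (hp' : |p.im| ≤ r) (hq : q.re = c) (hq' : ‖q‖ = r)
    (hs : 0 ≤ q.im * (p.im - q.im)) (h : ∀ᶠ w in 𝓝 p, f w = m * ω₁ w + n * ω₂ w) :
    ∀ᶠ w in 𝓝 q, f w = m * ω₁ w + n * ω₂ w := by
  have h1 : segment ℝ q p ⊆ {z : ℂ | z.re = c ∧ |z.im| ≤ r} := by
    rintro _ ⟨a, b, ha, hb, hab, rfl⟩
    have h2 := abs_le.1 hp'
    have h3 := abs_le.1 ((Complex.abs_im_le_norm q).trans hq'.le)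
    simp only [mem_ofPred_eq, Complex.add_re, Complex.add_im, Complex.smul_re, Complex.smul_im,
      smul_eq_mul, hp, hq, abs_le]
    refine ⟨by rw [← add_mul, hab, one_mul], ?_, ?_⟩ <;> nlinarith
  have h2 : Bas Λ ω₁ ω₂ (segment ℝ q p) := fun z hz => hext z <| by
    have h3 := (h1 hz).1
    rw [segment_eq_image'] at hz
    obtain ⟨t, ht, rfl⟩ := hz
    rw [mem_ofPred_eq, ← hq', ← pow_le_pow_iff_left₀ (norm_nonneg _) (norm_nonneg _) two_ne_zero,
      Complex.sq_norm, Complex.sq_norm, Complex.normSq_apply, Complex.normSq_apply, h3, hq]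
    simp only [Complex.add_im, Complex.smul_im, Complex.sub_im, smul_eq_mul]
    nlinarith [mul_nonneg ht.1 hs, sq_nonneg (t * (p.im - q.im))]
  obtain ⟨m₁, n₁, h3⟩ := h2.int_const (convex_segment q p).isPreconnected (hf.mono h1)
    (hm.filter_mono (nhdsSet_mono h1))
  have h4 := right_mem_segment ℝ q p
  obtain ⟨rfl, rfl⟩ := Bas.unique (Λ := Λ) (z := p) (fun z hz => h2 z (hz ▸ h4))
    (h.self_of_nhds.symm.trans (h3.self_of_nhdsSet p h4))
  exact h3.filter_mono (nhds_le_nhdsSet (left_mem_segment ℝ q p))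

theorem log_add {x : ℂ} (h : 0 < x.re) (h' : x.im ≤ 0) :
    Complex.log (-x) = Complex.log x + Real.pi * Complex.I := by
  rw [Complex.log, Complex.log, norm_neg, Complex.arg_neg_eq_arg_add_pi_iff.2
    (h'.lt_or_eq.imp_right fun h1 => ⟨h1, h⟩)]
  push_cast
  ring

theorem log_sub {x : ℂ} (h' : 0 < x.im) :
    Complex.log (-x) = Complex.log x - Real.pi * Complex.I := by
  rw [Complex.log, Complex.log, norm_neg, Complex.arg_neg_eq_arg_sub_pi_of_im_pos h']
  push_cast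
  ring

theorem ana {c : ℝ} {c₁ c₂ u D : ℂ → ℂ} {z : ℂ} (h1 : z.re ≤ c → AnalyticAt ℂ c₁ z)
    (h2 : c < z.re → AnalyticAt ℂ c₂ z) (hu : AnalyticAt ℂ u z) (hD : AnalyticAt ℂ D z)
    (h0 : z.re = c → (0 < z.im ∧ ∀ᶠ w in 𝓝 z, u w = c₁ w - c₂ w) ∨
      (z.im < 0 ∧ ∀ᶠ w in 𝓝 z, u w + D w = c₁ w - c₂ w)) :
    AnalyticAt ℂ (fun w => (if w.re ≤ c then c₁ w else c₂ w + u w) -
      Complex.log (-(Complex.I * (w - c))) / (2 * Real.pi * Complex.I) * D w) z := by
  have hl : AnalyticAt ℂ (fun w : ℂ => Complex.I * (w - c)) z := by fun_prop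
  have hr : ∀ w : ℂ, (Complex.I * (w - c)).re = -w.im := fun w => by simp
  have hi : ∀ w : ℂ, (Complex.I * (w - c)).im = w.re - c := fun w => by simp
  have h3 : 0 < z.im ∨ z.re ≠ c → AnalyticAt ℂ (fun w =>
      Complex.log (-(Complex.I * (w - c))) / (2 * Real.pi * Complex.I) * D w) z := fun h =>
    ((hl.fun_neg.clog (Complex.mem_slitPlane_iff.2 (by
      rwa [Complex.neg_re, Complex.neg_im, hr, hi, neg_neg, neg_ne_zero,
        sub_ne_zero]))).div_const).fun_mul hD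
  obtain h | h | h := lt_trichotomy z.re c
  · refine ((h1 h.le).fun_sub (h3 (Or.inr h.ne))).congr ?_
    filter_upwards [Complex.continuous_re.continuousAt.eventually_lt continuousAt_const h] with w hw
    rw [if_pos hw.le]
  · obtain ⟨h4, h5⟩ | ⟨h4, h5⟩ := h0 h
    · refine ((h1 h.le).fun_sub (h3 (Or.inl h4))).congr ?_
      filter_upwards [h5] with w hw
      rw [hw, add_sub_cancel, ite_self]
    · refine ((h1 h.le).fun_sub ((((hl.clog (Complex.mem_slitPlane_iff.2 (Or.inl (by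
        rwa [hr, neg_pos])))).fun_add (analyticAt_const (v := Real.pi * Complex.I))).div_const
          (c := 2 * Real.pi * Complex.I)).fun_mul hD)).congr ?_
      filter_upwards [h5, Complex.continuous_im.continuousAt.eventually_lt continuousAt_const h4]
        with w hw h6
      split_ifs with h7
      · rw [log_add (by rwa [hr, neg_pos]) (by rwa [hi, sub_nonpos])]
      · rw [log_sub (by rwa [hi, sub_pos, ← not_le]), eq_sub_of_add_eq hw]
        have h8 := Complex.two_pi_I_ne_zero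
        field_simp
        ring
  · refine (((h2 h).fun_add hu).fun_sub (h3 (Or.inr h.ne'))).congr ?_
    filter_upwards [continuousAt_const.eventually_lt Complex.continuous_re.continuousAt h] with w hw
    rw [if_neg (not_le.2 hw)]

theorem log_int {c : ℝ} {z : ℂ} (h : |c| < ‖z‖) : ∃ k : ℤ, Complex.log (-(Complex.I * (z - c))) =
    Complex.log z + (Complex.log (1 + -(c / z)) + Complex.log (-Complex.I)) +
      k * (2 * Real.pi * Complex.I) := by
  have h0 : z ≠ 0 := norm_pos_iff.1 ((abs_nonneg c).trans_lt h)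
  have h1 : z - c ≠ 0 := sub_ne_zero.2 fun h2 => by simp [h2] at h
  have h2 : 1 + -(c / z) = (z - c) / z := by field_simp; ring
  rw [← Complex.exp_eq_exp_iff_exists_int, Complex.exp_add, Complex.exp_add, h2,
    Complex.exp_log h0, Complex.exp_log (div_ne_zero h1 h0),
    Complex.exp_log (neg_ne_zero.2 Complex.I_ne_zero),
    Complex.exp_log (neg_ne_zero.2 (mul_ne_zero Complex.I_ne_zero h1))]
  field_simp

end PF4

theorem inI_cut {r c : ℝ} (hc : |c| < r) (hext : Bas Λ ω₁ ω₂ {z | r ≤ ‖z‖}) {f : ℂ → ℂ}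
    (hf : AnalyticOnNhd ℂ f {z | z.re = c ∧ |z.im| ≤ r})
    (hm : ∀ᶠ w in 𝓝ˢ {z : ℂ | z.re = c ∧ |z.im| ≤ r}, f w ∈ Λ w) {m n m' n' : ℤ}
    (ht : ∀ᶠ w in 𝓝 ((c : ℂ) + r * Complex.I), f w = m * ω₁ w + n * ω₂ w)
    (hb : ∀ᶠ w in 𝓝 ((c : ℂ) - r * Complex.I), f w = m' * ω₁ w + n' * ω₂ w) :
    InI Λ ω₁ ω₂ r (m' - m) (n' - n) := by
  obtain ⟨c₁, c₂, h1, h2, h3⟩ := PF4.split hc hf
  have hr : 0 < r := (abs_nonneg c).trans_lt hc
  have hb' : Bas Λ ω₁ ω₂ (sphere 0 r) := fun z hz => hext z (mem_sphere_zero_iff_norm.1 hz).ge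
  refine ⟨fun w => if w.re ≤ c then c₁ w else c₂ w, fun w =>
    ((if w.re ≤ c then c₁ w else c₂ w + (m * ω₁ w + n * ω₂ w)) -
      Complex.log (-(Complex.I * (w - c))) / (2 * Real.pi * Complex.I) *
        ((m' - m : ℤ) * ω₁ w + (n' - n : ℤ) * ω₂ w)) +
      (Complex.log (1 + -(c / w)) + Complex.log (-Complex.I)) / (2 * Real.pi * Complex.I) *
        ((m' - m : ℤ) * ω₁ w + (n' - n : ℤ) * ω₂ w), fun z hz => ?_, fun z hz => ?_, ?_⟩
  · rw [mem_closedBall_zero_iff] at hz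
    by_cases h : z.re ≤ c
    · refine ⟨c₁, h1 z hz h, ?_⟩
      obtain h | h := h.lt_or_eq
      · filter_upwards [Complex.continuous_re.continuousAt.eventually_lt continuousAt_const h]
          with w hw
        rw [if_pos hw.le, sub_self]
        exact zero_mem _
      · have h6 : z ∈ {z : ℂ | z.re = c ∧ |z.im| ≤ r} := ⟨h, (Complex.abs_im_le_norm z).trans hz⟩
        filter_upwards [h3 z hz h, hm.filter_mono (nhds_le_nhdsSet h6)] with w h4 h5
        split_ifs
        · rw [sub_self]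
          exact zero_mem _
        · rw [← neg_sub, ← h4]
          exact neg_mem h5
    · rw [not_le] at h
      refine ⟨c₂, h2 z hz h.le, ?_⟩
      filter_upwards [continuousAt_const.eventually_lt Complex.continuous_re.continuousAt h]
        with w hw
      rw [if_neg (not_le.2 hw), sub_self]
      exact zero_mem _
  · obtain ⟨a1, a2, -⟩ := hb' z hz
    rw [mem_sphere_zero_iff_norm] at hz
    have hz0 : z ≠ 0 := norm_pos_iff.1 (hz ▸ hr)
    have hL : ∀ a b : ℂ, AnalyticAt ℂ (fun w => a * ω₁ w + b * ω₂ w) z := fun a b =>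
      (analyticAt_const.fun_mul a1).fun_add (analyticAt_const.fun_mul a2)
    refine (PF4.ana (h1 z hz.le) (fun h => h2 z hz.le h.le) (hL _ _) (hL _ _) fun h => ?_).fun_add
      (((((analyticAt_const.fun_add (analyticAt_const.fun_div analyticAt_id hz0).fun_neg).clog
        (Complex.mem_slitPlane_of_norm_lt_one ?_)).fun_add analyticAt_const).div_const).fun_mul
          (hL _ _))
    · have h4 := abs_le.1 ((Complex.abs_im_le_norm z).trans hz.le)
      obtain h5 | h5 | h5 := lt_trichotomy 0 z.im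
      · refine Or.inl ⟨h5, ?_⟩
        filter_upwards [h3 z hz.le h, PF4.move hext hf hm (by simp) (by simp [abs_of_pos hr]) h hz
          (mul_nonneg h5.le (by simpa using h4.2)) ht] with w h6 h7
        rw [← h6, h7]
      · refine absurd hc (not_lt.2 ?_)
        rw [← hz, ← h, Complex.abs_re_eq_norm.2 h5.symm]
      · refine Or.inr ⟨h5, ?_⟩
        filter_upwards [h3 z hz.le h, PF4.move hext hf hm (by simp) (by simp [abs_of_pos hr]) h hz
          (mul_nonneg_of_nonpos_of_nonpos h5.le (by simpa using h4.1)) hb] with w h6 h7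
        rw [← h6, h7]
        push_cast
        ring
    · rw [norm_neg, norm_div, id, hz, Complex.norm_real, div_lt_one hr]
      exact hc
  · have h4 : ∀ᶠ z in 𝓝ˢ (sphere (0 : ℂ) r), |c| < ‖z‖ :=
      (isOpen_lt continuous_const continuous_norm).mem_nhdsSet.2 fun z hz =>
        hc.trans_eq (mem_sphere_zero_iff_norm.1 hz).symm
    filter_upwards [h4, hb'.mem m n, hb'.mem (m' - m) (n' - n)] with z h5 h6 h7
    obtain ⟨k, hk⟩ := PF4.log_int h5
    have h8 := Complex.two_pi_I_ne_zero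
    have h9 := (Λ z).zsmul_mem h7 k
    rw [zsmul_eq_mul] at h9
    rw [hk]
    generalize ((m' - m : ℤ) : ℂ) * ω₁ z + (n' - n : ℤ) * ω₂ z = D at h9 ⊢
    generalize (m : ℂ) * ω₁ z + n * ω₂ z = u at h6 ⊢
    generalize 2 * (Real.pi : ℂ) * Complex.I = T at h8 ⊢
    split_ifs
    · exact (congrArg (· ∈ Λ z) (by field_simp; ring)).mp h9
    · exact (congrArg (· ∈ Λ z) (by field_simp; ring)).mp (sub_mem h9 h6)

end Vale.Agent.P290
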