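import Vale.Agent.P290G.PF4

/-! Transport along a vertical line. -/

open Set Filter Metric Polynomial
open scoped Manifold ContDiff Topology

noncomputable section

namespace Vale.Agent.P290

variable {Λ : ℂ → AddSubgroup ℂ} {ω₁ ω₂ η₁ η₂ ν ν' : ℂ → ℂ} {K : Set ℂ}

namespace PF5

theorem mono {K' : Set ℂ} (h : Bas Λ ω₁ ω₂ K) (hK : K' ⊆ K) : Bas Λ ω₁ ω₂ K' :=
  fun z hz => h z (hK hz)

theorem seg (c a b : ℝ) : IsPreconnected {z : ℂ | z.re = c ∧ z.im ∈ Icc a b} :=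
  (((convex_singleton c).linear_preimage Complex.reLm).inter
    ((convex_Icc a b).linear_preimage Complex.imLm)).isPreconnected

theorem move (hb : Bas Λ ω₁ ω₂ K) (hK : IsPreconnected K) {f : ℂ → ℂ}
    (hf : AnalyticOnNhd ℂ f K) (hm : ∀ᶠ w in 𝓝ˢ K, f w ∈ Λ w) {z₀ z₁ : ℂ} (h₀ : z₀ ∈ K)
    (h₁ : z₁ ∈ K) {m n : ℤ} (h : ∀ᶠ w in 𝓝 z₀, f w = m * ω₁ w + n * ω₂ w) :
    ∀ᶠ w in 𝓝 z₁, f w = m * ω₁ w + n * ω₂ w := by
  obtain ⟨m', n', h'⟩ := hb.int_const hK hf hm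
  have h2 := (h'.filter_mono (nhds_le_nhdsSet h₀)).self_of_nhds
  obtain ⟨rfl, rfl⟩ := (mono hb (singleton_subset_iff.2 h₀)).unique
    (h.self_of_nhds.symm.trans h2)
  exact h'.filter_mono (nhds_le_nhdsSet h₁)

theorem arith {p a b x y z w : ℤ} (hp : Prime p) (hab : ¬ (p ∣ a ∧ p ∣ b))
    (h1 : p ∣ a * y - b * x) (h2 : p ∣ a * w - b * z) (hd : (1 + x) * (1 + w) - y * z = 1) :
    p ∣ a * x + b * z ∧ p ∣ a * y + b * w := by
  have h3 : p ∣ a * (x + w) := by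
    have : a * (x + w) = z * (a * y - b * x) - x * (a * w - b * z) := by linear_combination a * hd
    rw [this]
    exact (h1.mul_left _).sub (h2.mul_left _)
  have h4 : p ∣ b * (x + w) := by
    have : b * (x + w) = w * (a * y - b * x) - y * (a * w - b * z) := by linear_combination b * hd
    rw [this]
    exact (h1.mul_left _).sub (h2.mul_left _)
  have h5 : p ∣ x + w := by
    by_contra h
    exact hab ⟨(hp.dvd_or_dvd h3).resolve_right h, (hp.dvd_or_dvd h4).resolve_right h⟩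
  constructor
  · have : a * x + b * z = a * (x + w) - (a * w - b * z) := by ring
    rw [this]
    exact h3.sub h2
  · have : a * y + b * w = (a * y - b * x) + b * (x + w) := by ring
    rw [this]
    exact h1.add h4

theorem cut {r R c : ℝ} (hr : 0 < r) (hR : r ≤ R) (hc : |c| < r)
    (hext : Bas Λ ω₁ ω₂ {z | r ≤ ‖z‖}) {f : ℂ → ℂ}
    (hf : AnalyticOnNhd ℂ f {z | z.re = c ∧ |z.im| ≤ R})
    (hm : ∀ᶠ w in 𝓝ˢ {z : ℂ | z.re = c ∧ |z.im| ≤ R}, f w ∈ Λ w) {m n m' n' : ℤ}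
    (ht : ∀ᶠ w in 𝓝 ((c : ℂ) + R * Complex.I), f w = m * ω₁ w + n * ω₂ w)
    (hb : ∀ᶠ w in 𝓝 ((c : ℂ) - R * Complex.I), f w = m' * ω₁ w + n' * ω₂ w) :
    InI Λ ω₁ ω₂ r (m' - m) (n' - n) := by
  have h0 : {z : ℂ | z.re = c ∧ |z.im| ≤ r} ⊆ {z | z.re = c ∧ |z.im| ≤ R} :=
    fun z hz => ⟨hz.1, hz.2.trans hR⟩
  have h1 : {z : ℂ | z.re = c ∧ z.im ∈ Icc r R} ⊆ {z | z.re = c ∧ |z.im| ≤ R} :=
    fun z hz => ⟨hz.1, abs_le.2 ⟨by linarith [hz.2.1], hz.2.2⟩⟩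
  have h2 : {z : ℂ | z.re = c ∧ z.im ∈ Icc (-R) (-r)} ⊆ {z | z.re = c ∧ |z.im| ≤ R} :=
    fun z hz => ⟨hz.1, abs_le.2 ⟨hz.2.1, by linarith [hz.2.2]⟩⟩
  have h3 : {z : ℂ | z.re = c ∧ z.im ∈ Icc r R} ⊆ {z | r ≤ ‖z‖} := fun z hz =>
    hz.2.1.trans ((le_abs_self _).trans (Complex.abs_im_le_norm z))
  have h4 : {z : ℂ | z.re = c ∧ z.im ∈ Icc (-R) (-r)} ⊆ {z | r ≤ ‖z‖} := fun z hz =>
    (le_neg.1 hz.2.2).trans ((neg_le_abs _).trans (Complex.abs_im_le_norm z))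
  refine inI_cut hc hext (hf.mono h0) (hm.filter_mono (nhdsSet_mono h0)) ?_ ?_
  · exact move (mono hext h3) (seg c r R) (hf.mono h1) (hm.filter_mono (nhdsSet_mono h1))
      (by simp [hR]) (by simp [hR]) ht
  · exact move (mono hext h4) (seg c (-R) (-r)) (hf.mono h2) (hm.filter_mono (nhdsSet_mono h2))
      (by simp [hR]) (by simp [hR]) hb

theorem det_im (u v : ℂ) (a b c d : ℤ) :
    ((starRingEnd ℂ) (a * u + b * v) * (c * u + d * v)).im =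
      ((a * d - b * c : ℤ) : ℝ) * ((starRingEnd ℂ) u * v).im := by
  simp only [Complex.mul_im, Complex.conj_re, Complex.conj_im, Complex.add_re, Complex.add_im,
    Complex.mul_re, Complex.intCast_re, Complex.intCast_im]
  push_cast
  ring

end PF5

open PF5 in
/-- Transport from the top to the bottom preserves the torsion point. -/
theorem transport {r R c : ℝ} (hr : 0 < r) (hR : r ≤ R) (hext : Bas Λ ω₁ ω₂ {z | r ≤ ‖z‖})
    (hη : Bas Λ η₁ η₂ {z | z.re = c ∧ |z.im| ≤ R})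
    (ht : ∀ᶠ w in 𝓝 ((c : ℂ) + R * Complex.I), η₁ w = ω₁ w ∧ η₂ w = ω₂ w) {p : ℕ} (hp : p.Prime)
    {a b : ℤ} (hab : ¬ ((p : ℤ) ∣ a ∧ (p : ℤ) ∣ b))
    (h : ∀ m n, InI Λ ω₁ ω₂ r m n → (p : ℤ) ∣ a * n - b * m) :
    ∀ᶠ w in 𝓝 ((c : ℂ) - R * Complex.I),
      (a * η₁ w + b * η₂ w) / p - (a * ω₁ w + b * ω₂ w) / p ∈ Λ w := by
  have hR0 : 0 ≤ R := hr.le.trans hR
  have hT : (c : ℂ) + R * Complex.I ∈ {z : ℂ | z.re = c ∧ |z.im| ≤ R} := by
    simp [abs_of_nonneg hR0]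
  have hB : (c : ℂ) - R * Complex.I ∈ {z : ℂ | z.re = c ∧ |z.im| ≤ R} := by
    simp [abs_of_nonneg hR0]
  have hS : IsPreconnected {z : ℂ | z.re = c ∧ |z.im| ≤ R} := by
    simp only [abs_le]
    exact seg c (-R) R
  have hf1 : AnalyticOnNhd ℂ η₁ {z | z.re = c ∧ |z.im| ≤ R} := fun z hz => (hη z hz).1
  have hf2 : AnalyticOnNhd ℂ η₂ {z | z.re = c ∧ |z.im| ≤ R} := fun z hz => (hη z hz).2.1
  have hm1 : ∀ᶠ w in 𝓝ˢ {z : ℂ | z.re = c ∧ |z.im| ≤ R}, η₁ w ∈ Λ w := by simpa using hη.mem 1 0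
  have hm2 : ∀ᶠ w in 𝓝ˢ {z : ℂ | z.re = c ∧ |z.im| ≤ R}, η₂ w ∈ Λ w := by simpa using hη.mem 0 1
  have ht1 : ∀ᶠ w in 𝓝 ((c : ℂ) + R * Complex.I),
      η₁ w = ((1 : ℤ) : ℂ) * ω₁ w + ((0 : ℤ) : ℂ) * ω₂ w := ht.mono fun w hw => by simp [hw.1]
  have ht2 : ∀ᶠ w in 𝓝 ((c : ℂ) + R * Complex.I),
      η₂ w = ((0 : ℤ) : ℂ) * ω₁ w + ((1 : ℤ) : ℂ) * ω₂ w := ht.mono fun w hw => by simp [hw.2]
  rcases le_or_gt r |c| with hc | hc
  · have h1 : {z : ℂ | z.re = c ∧ |z.im| ≤ R} ⊆ {z | r ≤ ‖z‖} := fun z hz =>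
      hc.trans (hz.1 ▸ Complex.abs_re_le_norm z)
    filter_upwards [move (mono hext h1) hS hf1 hm1 hT hB ht1,
      move (mono hext h1) hS hf2 hm2 hT hB ht2] with w h2 h3
    simp [h2, h3]
  have hn : r ≤ ‖(c : ℂ) - R * Complex.I‖ := by
    refine hR.trans (le_trans ?_ (Complex.abs_im_le_norm _))
    simp [abs_of_nonneg hR0]
  have hBe : Bas Λ ω₁ ω₂ {(c : ℂ) - R * Complex.I} := mono hext (singleton_subset_iff.2 hn)
  obtain ⟨x, y, z, w, hd, he⟩ := hBe.change (mono hη (singleton_subset_iff.2 hB))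
    isPreconnected_singleton
  rw [nhdsSet_singleton] at he
  have h1 := h _ _ (cut hr hR hc hext hf1 hm1 ht1 (he.mono fun _ h => h.1))
  have h2 := h _ _ (cut hr hR hc hext hf2 hm2 ht2 (he.mono fun _ h => h.2))
  have h3 := hη.orient hS hT hB
  have h4 : sphere (0 : ℂ) ‖(c : ℂ) - R * Complex.I‖ ⊆ {z | r ≤ ‖z‖} := fun u hu =>
    hn.trans (mem_sphere_zero_iff_norm.1 hu).ge
  have h5 := (mono hext h4).orient (isConnected_sphere (by simp) _ (norm_nonneg _)).isPreconnected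
    (z := (c : ℂ) + R * Complex.I) (w := (c : ℂ) - R * Complex.I)
    (by
      rw [mem_sphere_zero_iff_norm, ← Complex.norm_conj]
      simp [sub_eq_add_neg]) (by simp)
  rw [ht.self_of_nhds.1, ht.self_of_nhds.2, he.self_of_nhds.1, he.self_of_nhds.2, det_im] at h3
  have h6 : x * w - y * z = 1 := by
    refine hd.resolve_right fun h7 => ?_
    rw [h7] at h3
    push_cast at h3
    linarith
  obtain ⟨⟨k, hk⟩, ⟨l, hl⟩⟩ := arith (x := x - 1) (y := y) (z := z) (w := w - 1)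
    (Nat.prime_iff_prime_int.1 hp) hab (by simpa using h1) (by simpa using h2)
    (by linear_combination h6)
  have h8 := hBe.mem k l
  rw [nhdsSet_singleton] at h8
  filter_upwards [he, h8] with u hu h9
  have hp0 : (p : ℂ) ≠ 0 := Nat.cast_ne_zero.2 hp.ne_zero
  have hk' : (a : ℂ) * (x - 1) + b * z = p * k := by exact_mod_cast hk
  have hl' : (a : ℂ) * y + b * (w - 1) = p * l := by exact_mod_cast hl
  have h10 : (a * η₁ u + b * η₂ u) / p - (a * ω₁ u + b * ω₂ u) / p = k * ω₁ u + l * ω₂ u := by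
    rw [hu.1, hu.2, ← sub_div, div_eq_iff hp0]
    linear_combination ω₁ u * hk' + ω₂ u * hl'
  rwa [h10]

end Vale.Agent.P290
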