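import Vale.Agent.P290G.PF5

/-! The invariant torsion point. -/

open Set Filter Metric Polynomial
open scoped Manifold ContDiff Topology

noncomputable section

namespace Vale.Agent.P290

variable {Λ : ℂ → AddSubgroup ℂ} {ω₁ ω₂ η₁ η₂ ν ν' : ℂ → ℂ} {K : Set ℂ}

namespace PF6

/-- A vertical line. -/
def ln (s : ℝ) (z : ℂ) (y : ℝ) : ℂ := z + (s * y : ℝ) * Complex.I

theorem ln_zero (s : ℝ) (z : ℂ) : ln s z 0 = z := by simp [ln]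

theorem cont_ln (s : ℝ) : Continuous fun q : ℂ × ℝ => ln s q.1 q.2 := by
  unfold ln
  fun_prop

theorem seg_cpt (s : ℝ) (z : ℂ) (u v : ℝ) : IsCompact (ln s z '' Icc u v) :=
  isCompact_Icc.image ((cont_ln s).comp (Continuous.prodMk_right z))

theorem seg_cvx (s : ℝ) (z : ℂ) (u v : ℝ) : Convex ℝ (ln s z '' Icc u v) := by
  rintro _ ⟨y, hy, rfl⟩ _ ⟨y', hy', rfl⟩ α β hα hβ h
  refine ⟨α • y + β • y', convex_Icc u v hy hy' hα hβ h, ?_⟩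
  have h' : (α : ℂ) + β = 1 := by exact_mod_cast h
  simp only [ln, smul_eq_mul, Complex.real_smul]
  push_cast
  linear_combination (-z) * h'

theorem ext_norm {s r y : ℝ} {z : ℂ} (hs : s = 1 ∨ s = -1) (h : r ≤ s * z.im + y) :
    r ≤ ‖ln s z y‖ := by
  have h1 := abs_le.1 (Complex.abs_im_le_norm (ln s z y))
  have h2 : (ln s z y).im = z.im + s * y := by simp [ln]
  rw [h2] at h1
  rcases hs with rfl | rfl <;> linarith [h1.1, h1.2]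

theorem mono {K' : Set ℂ} (h : Bas Λ ω₁ ω₂ K) (hK : K' ⊆ K) : Bas Λ ω₁ ω₂ K' :=
  fun z hz => h z (hK hz)

theorem pt {z : ℂ} (h : Bas Λ ω₁ ω₂ K) (hz : z ∈ K) : Bas Λ ω₁ ω₂ {z} :=
  mono h (singleton_subset_iff.2 hz)

theorem agree (h : Bas Λ ω₁ ω₂ K) (h' : Bas Λ η₁ η₂ K) (hK : IsPreconnected K) {z : ℂ}
    (hz : z ∈ K) (h1 : η₁ z = ω₁ z) (h2 : η₂ z = ω₂ z) :
    ∀ᶠ w in 𝓝ˢ K, η₁ w = ω₁ w ∧ η₂ w = ω₂ w := by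
  obtain ⟨a, b, c, d, -, he⟩ := h.change h' hK
  obtain ⟨e1, e2⟩ := he.self_of_nhdsSet z hz
  obtain ⟨rfl, rfl⟩ := (pt h hz).unique (m := a) (n := b) (m' := 1) (n' := 0) (by simp [← e1, h1])
  obtain ⟨rfl, rfl⟩ := (pt h hz).unique (m := c) (n := d) (m' := 0) (n' := 1) (by simp [← e2, h2])
  simpa using he

/-- The basis at `z` obtained by transport from far away in the direction `s`. -/
def V (Λ : ℂ → AddSubgroup ℂ) (ω₁ ω₂ : ℂ → ℂ) (r s : ℝ) (z x₁ x₂ : ℂ) : Prop :=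
  ∃ (R : ℝ) (η₁ η₂ : ℂ → ℂ), 0 ≤ R ∧ r < s * z.im + R ∧ Bas Λ η₁ η₂ (ln s z '' Icc 0 R) ∧
    η₁ (ln s z R) = ω₁ (ln s z R) ∧ η₂ (ln s z R) = ω₂ (ln s z R) ∧ x₁ = η₁ z ∧ x₂ = η₂ z

variable {r s : ℝ} {z x₁ x₂ y₁ y₂ : ℂ}

theorem self_mem {R : ℝ} (hR : 0 ≤ R) : z ∈ ln s z '' Icc 0 R := ⟨0, ⟨le_rfl, hR⟩, ln_zero s z⟩

theorem V.uniq (hext : Bas Λ ω₁ ω₂ {z | r ≤ ‖z‖}) (hs : s = 1 ∨ s = -1)
    (h : V Λ ω₁ ω₂ r s z x₁ x₂) (h' : V Λ ω₁ ω₂ r s z y₁ y₂) : x₁ = y₁ ∧ x₂ = y₂ := by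
  obtain ⟨R, η₁, η₂, h0, hr, hb, e1, e2, rfl, rfl⟩ := h
  obtain ⟨R', ξ₁, ξ₂, h0', hr', hb', f1, f2, rfl, rfl⟩ := h'
  wlog hR : R ≤ R' generalizing R R' η₁ η₂ ξ₁ ξ₂
  · have := this R' ξ₁ ξ₂ h0' hr' hb' f1 f2 R η₁ η₂ h0 hr hb e1 e2 (not_le.1 hR).le
    exact ⟨this.1.symm, this.2.symm⟩
  have h1 := (agree (mono hext (by
      rintro _ ⟨y, hy, rfl⟩
      exact ext_norm hs (by linarith [hy.1]))) (mono hb' (image_mono (Icc_subset_Icc_left h0)))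
    (seg_cvx s z R R').isPreconnected ⟨R', ⟨hR, le_rfl⟩, rfl⟩ f1 f2).self_of_nhdsSet _
      ⟨R, ⟨le_rfl, hR⟩, rfl⟩
  exact (agree (mono hb' (image_mono (Icc_subset_Icc_right hR))) hb
    (seg_cvx s z 0 R).isPreconnected ⟨R, ⟨h0, le_rfl⟩, rfl⟩ (e1.trans h1.1.symm)
    (e2.trans h1.2.symm)).self_of_nhdsSet _ (self_mem h0)

theorem V.triv (hext : Bas Λ ω₁ ω₂ {z | r ≤ ‖z‖}) (hs : s = 1 ∨ s = -1)
    (h : V Λ ω₁ ω₂ r s z x₁ x₂) {y : ℝ} (hy : 0 ≤ y) : ∃ η₁ η₂, Bas Λ η₁ η₂ {ln s z y} := by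
  obtain ⟨R, η₁, η₂, -, hr, hb, -⟩ := h
  rcases le_total y R with h | h
  · exact ⟨η₁, η₂, pt hb ⟨y, ⟨hy, h⟩, rfl⟩⟩
  · exact ⟨ω₁, ω₂, pt hext (ext_norm hs (by linarith))⟩

theorem V.ex (hext : Bas Λ ω₁ ω₂ {z | r ≤ ‖z‖}) (hs : s = 1 ∨ s = -1)
    (h : ∀ y, 0 ≤ y → ∃ η₁ η₂, Bas Λ η₁ η₂ {ln s z y}) : ∃ x₁ x₂, V Λ ω₁ ω₂ r s z x₁ x₂ := by
  obtain ⟨R, h0, hR⟩ : ∃ R : ℝ, 0 ≤ R ∧ r < s * z.im + R :=
    ⟨max 0 (r - s * z.im + 1), le_max_left _ _, by linarith [le_max_right 0 (r - s * z.im + 1)]⟩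
  obtain ⟨η₁, η₂, hb, he⟩ := bas_extend (seg_cpt s z 0 R) (seg_cvx s z 0 R)
    (by rintro _ ⟨y, hy, rfl⟩; exact h y hy.1) ⟨R, ⟨h0, le_rfl⟩, rfl⟩
    (pt hext (ext_norm hs hR.le))
  exact ⟨_, _, R, η₁, η₂, h0, hR, hb, he.self_of_nhds.1, he.self_of_nhds.2, rfl, rfl⟩

theorem V.loc (hext : Bas Λ ω₁ ω₂ {z | r ≤ ‖z‖}) (hs : s = 1 ∨ s = -1)
    (h : V Λ ω₁ ω₂ r s z x₁ x₂) : ∃ η₁ η₂, Bas Λ η₁ η₂ {z} ∧ x₁ = η₁ z ∧ x₂ = η₂ z ∧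
      ∀ᶠ w in 𝓝 z, V Λ ω₁ ω₂ r s w (η₁ w) (η₂ w) := by
  obtain ⟨R, η₁, η₂, h0, hr, hb, e1, e2, rfl, rfl⟩ := h
  refine ⟨η₁, η₂, pt hb (self_mem h0), rfl, rfl, ?_⟩
  have h1 : ∀ᶠ w in 𝓝 z, ∀ y ∈ Icc 0 R, Bas Λ η₁ η₂ {ln s w y} :=
    isCompact_Icc.eventually_forall_of_forall_eventually fun y hy =>
      ((cont_ln s).tendsto (z, y)).eventually (pt hb ⟨y, hy, rfl⟩).ev
  have h2 := agree (pt hext (ext_norm hs hr.le)) (pt hb ⟨R, ⟨h0, le_rfl⟩, rfl⟩)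
    isPreconnected_singleton rfl e1 e2
  rw [nhdsSet_singleton] at h2
  have h3 := (((cont_ln s).comp (Continuous.prodMk_left R)).tendsto z).eventually h2
  have h4 : ∀ᶠ w : ℂ in 𝓝 z, r < s * w.im + R :=
    (by fun_prop : Continuous fun w : ℂ => s * w.im + R).continuousAt.eventually (lt_mem_nhds hr)
  filter_upwards [h1, h3, h4] with w a1 a2 a3
  refine ⟨R, η₁, η₂, h0, a3, ?_, a2.1, a2.2, rfl, rfl⟩
  rintro _ ⟨y, hy, rfl⟩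
  exact a1 y hy _ rfl

theorem updown (hr : 0 < r) (hext : Bas Λ ω₁ ω₂ {z | r ≤ ‖z‖}) {p : ℕ} (hp : p.Prime) {a b : ℤ}
    (hab : ¬ ((p : ℤ) ∣ a ∧ (p : ℤ) ∣ b))
    (h : ∀ m n, InI Λ ω₁ ω₂ r m n → (p : ℤ) ∣ a * n - b * m) (hx : V Λ ω₁ ω₂ r 1 z x₁ x₂)
    (hy : V Λ ω₁ ω₂ r (-1) z y₁ y₂) : (a * x₁ + b * x₂) / p - (a * y₁ + b * y₂) / p ∈ Λ z := by
  obtain ⟨R, hR, hz⟩ : ∃ R : ℝ, r < R ∧ |z.im| ≤ R :=
    ⟨r + 1 + |z.im|, by linarith [abs_nonneg z.im], by linarith⟩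
  have hz' := abs_le.1 hz
  have hF : {w : ℂ | w.re = z.re ∧ |w.im| ≤ R} = ln 1 z.re '' Icc (-R) R := by
    ext w
    refine ⟨fun hw => ⟨w.im, abs_le.1 hw.2, Complex.ext (by simp [ln, hw.1]) (by simp [ln])⟩, ?_⟩
    rintro ⟨y, hy, rfl⟩
    exact ⟨by simp [ln], by simpa [ln] using abs_le.2 hy⟩
  have hc : IsCompact {w : ℂ | w.re = z.re ∧ |w.im| ≤ R} := hF ▸ seg_cpt _ _ _ _
  have hv : Convex ℝ {w : ℂ | w.re = z.re ∧ |w.im| ≤ R} := hF ▸ seg_cvx _ _ _ _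
  have hT : LocTriv Λ {w : ℂ | w.re = z.re ∧ |w.im| ≤ R} := fun w hw => by
    rcases le_total z.im w.im with h1 | h1
    · rw [show w = ln 1 z (w.im - z.im) from Complex.ext (by simp [ln, hw.1]) (by simp [ln])]
      exact hx.triv hext (.inl rfl) (sub_nonneg.2 h1)
    · rw [show w = ln (-1) z (z.im - w.im) from Complex.ext (by simp [ln, hw.1]) (by simp [ln])]
      exact hy.triv hext (.inr rfl) (sub_nonneg.2 h1)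
  have t1 : ln 1 z (R - z.im) = z.re + R * Complex.I := Complex.ext (by simp [ln]) (by simp [ln])
  have t2 : ln (-1) z (R + z.im) = z.re - R * Complex.I :=
    Complex.ext (by simp [ln]) (by simp [ln])
  have s1 : ln 1 z '' Icc 0 (R - z.im) ⊆ {w : ℂ | w.re = z.re ∧ |w.im| ≤ R} := by
    rintro _ ⟨y, hy, rfl⟩
    exact ⟨by simp [ln], abs_le.2 (by simp [ln]; constructor <;> linarith [hy.1, hy.2])⟩
  have s2 : ln (-1) z '' Icc 0 (R + z.im) ⊆ {w : ℂ | w.re = z.re ∧ |w.im| ≤ R} := by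
    rintro _ ⟨y, hy, rfl⟩
    exact ⟨by simp [ln], abs_le.2 (by simp [ln]; constructor <;> linarith [hy.1, hy.2])⟩
  have r1 : 0 ≤ R - z.im := by linarith [hz'.2]
  have r2 : 0 ≤ R + z.im := by linarith [hz'.1]
  have m2 := s2 ⟨_, ⟨r2, le_rfl⟩, t2⟩
  obtain ⟨η₁, η₂, hη, e1⟩ := bas_extend hc hv hT (s1 ⟨_, ⟨r1, le_rfl⟩, t1⟩)
    (pt hext (t1 ▸ ext_norm (.inl rfl) (by linarith)))
  obtain ⟨ξ₁, ξ₂, hξ, e2⟩ := bas_extend hc hv hT m2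
    (pt hext (t2 ▸ ext_norm (.inr rfl) (by linarith)))
  obtain ⟨rfl, rfl⟩ := hx.uniq hext (.inl rfl) ⟨_, η₁, η₂, r1, by linarith, mono hη s1,
    t1 ▸ e1.self_of_nhds.1, t1 ▸ e1.self_of_nhds.2, rfl, rfl⟩
  obtain ⟨rfl, rfl⟩ := hy.uniq hext (.inr rfl) ⟨_, ξ₁, ξ₂, r2, by linarith, mono hξ s2,
    t2 ▸ e2.self_of_nhds.1, t2 ▸ e2.self_of_nhds.2, rfl, rfl⟩
  have h1 := (transport hr hR.le hext hη e1 hp hab h).self_of_nhds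
  rw [← e2.self_of_nhds.1, ← e2.self_of_nhds.2] at h1
  obtain ⟨m, n, hmn⟩ := ((hη _ m2).2.2.self_of_nhds.2 _).1 h1
  obtain ⟨α, β, γ, δ, -, he⟩ := hη.change hξ hv.isPreconnected
  have hp0 : (p : ℂ) ≠ 0 := Nat.cast_ne_zero.2 hp.ne_zero
  obtain ⟨f1, f2⟩ := he.self_of_nhdsSet _ m2
  obtain ⟨g1, g2⟩ := he.self_of_nhdsSet z ⟨rfl, hz⟩
  rw [f1, f2, ← sub_div, eq_div_iff hp0] at hmn
  obtain ⟨k1, k2⟩ := (pt hη m2).unique (m := m * p) (n := n * p) (m' := a - a * α - b * γ)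
    (n' := b - a * β - b * δ) (by push_cast; linear_combination hmn)
  refine ((hη z ⟨rfl, hz⟩).2.2.self_of_nhds.2 _).2 ⟨m, n, ?_⟩
  have l1 := congrArg (Int.cast : ℤ → ℂ) k1
  have l2 := congrArg (Int.cast : ℤ → ℂ) k2
  push_cast at l1 l2
  rw [g1, g2, ← sub_div, eq_div_iff hp0]
  linear_combination η₁ z * l1 + η₂ z * l2

end PF6

open PF6 in
theorem tors_of {D : Set ℂ} (hD : D.Finite) {r : ℝ} (hr : 0 < r) (hDr : D ⊆ ball 0 r)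
    (hre : InjOn Complex.re D) (hT : LocTriv Λ Dᶜ) (hext : Bas Λ ω₁ ω₂ {z | r ≤ ‖z‖}) {p : ℕ}
    (hp : p.Prime) {a b : ℤ} (hab : ¬ ((p : ℤ) ∣ a ∧ (p : ℤ) ∣ b))
    (h : ∀ m n, InI Λ ω₁ ω₂ r m n → (p : ℤ) ∣ a * n - b * m) : ∃ P, Tors Λ D p P := by
  let W : ℂ → ℂ → Prop := fun z t => ∃ s x₁ x₂, (s = 1 ∨ s = -1) ∧ V Λ ω₁ ω₂ r s z x₁ x₂ ∧
    t = (a * x₁ + b * x₂) / p
  have hex : ∀ z ∉ D, ∃ t, W z t := fun z hz => by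
    obtain ⟨s, hs, h1⟩ : ∃ s : ℝ, (s = 1 ∨ s = -1) ∧ ∀ y, 0 ≤ y → ln s z y ∉ D := by
      by_contra! hc
      obtain ⟨y, hy, h1⟩ := hc 1 (.inl rfl)
      obtain ⟨y', hy', h2⟩ := hc (-1) (.inr rfl)
      have h3 := congrArg Complex.im (hre h1 h2 (by simp [ln]))
      simp only [ln, Complex.add_im, Complex.mul_im, Complex.ofReal_re, Complex.I_im,
        Complex.ofReal_im, Complex.I_re] at h3
      rw [show y = 0 by linarith, ln_zero] at h1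
      exact hz h1
    obtain ⟨x₁, x₂, hx⟩ := V.ex hext hs fun y hy => hT _ (h1 y hy)
    exact ⟨_, s, x₁, x₂, hs, hx, rfl⟩
  have hun : ∀ z t t', W z t → W z t' → t - t' ∈ Λ z := by
    rintro z _ _ ⟨s, x₁, x₂, rfl | rfl, hx, rfl⟩ ⟨s', y₁, y₂, rfl | rfl, hy, rfl⟩
    · obtain ⟨rfl, rfl⟩ := hx.uniq hext (.inl rfl) hy
      simp
    · exact updown hr hext hp hab h hx hy
    · exact neg_sub (α := ℂ) _ _ ▸ neg_mem (updown hr hext hp hab h hy hx)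
    · obtain ⟨rfl, rfl⟩ := hx.uniq hext (.inr rfl) hy
      simp
  have hp0 : (p : ℂ) ≠ 0 := Nat.cast_ne_zero.2 hp.ne_zero
  refine ⟨fun z => Classical.epsilon (W z), fun z hz => ?_, fun z hz => ?_⟩
  · obtain ⟨_, s, x₁, x₂, hs, hx, -⟩ := hex z hz
    obtain ⟨η₁, η₂, hb, -, -, he⟩ := hx.loc hext hs
    refine ⟨fun w => (a * η₁ w + b * η₂ w) / p, ((analyticAt_const.mul (hb z rfl).1).add
      (analyticAt_const.mul (hb z rfl).2.1)).div_const, he.mono fun w hw => ?_⟩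
    have hw' : W w ((a * η₁ w + b * η₂ w) / p) := ⟨s, _, _, hs, hw, rfl⟩
    exact hun w _ _ (Classical.epsilon_spec ⟨_, hw'⟩) hw'
  · obtain ⟨s, x₁, x₂, hs, hx, ht⟩ := Classical.epsilon_spec (hex z hz)
    obtain ⟨η₁, η₂, hb, rfl, rfl, -⟩ := hx.loc hext hs
    have h1 := (hb z rfl).2.2.self_of_nhds.2
    simp only [ht]
    refine ⟨(h1 _).2 ⟨a, b, by field_simp⟩, fun hm => ?_⟩
    obtain ⟨m, n, hmn⟩ := (h1 _).1 hm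
    rw [eq_div_iff hp0] at hmn
    obtain ⟨rfl, rfl⟩ := hb.unique (m := a) (n := b) (m' := p * m) (n' := p * n)
      (by push_cast; linear_combination -hmn)
    exact hab ⟨dvd_mul_right _ _, dvd_mul_right _ _⟩

end Vale.Agent.P290
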