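import Vale.Agent.P290G.PF6

/-! Every class on the circle bounds. -/

open Set Filter Metric Polynomial
open scoped Manifold ContDiff Topology

noncomputable section

namespace Vale.Agent.P290

variable {Λ : ℂ → AddSubgroup ℂ} {ω₁ ω₂ η₁ η₂ ν ν' : ℂ → ℂ} {K : Set ℂ}

namespace PF7

theorem grp (I : AddSubgroup (ℤ × ℤ)) (h : I ≠ ⊤) : ∃ p : ℕ, p.Prime ∧ ∃ a b : ℤ,
    ¬ ((p : ℤ) ∣ a ∧ (p : ℤ) ∣ b) ∧ ∀ m n, (m, n) ∈ I → (p : ℤ) ∣ a * n - b * m := by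
  obtain ⟨M, hM, hI⟩ := (eq_top_or_exists_le_coatom I.toIntSubmodule).resolve_left fun h' =>
    h (eq_top_iff.2 fun x _ => (h'.ge (Submodule.mem_top (x := x)) : x ∈ I.toIntSubmodule))
  obtain ⟨J, hJ, ⟨e⟩⟩ := isSimpleModule_iff_quot_maximal.1 (isSimpleModule_iff_isCoatom.2 hM)
  have hq := Submodule.IsPrincipal.prime_generator_of_isPrime J
    (Ring.ne_bot_of_isMaximal_of_not_isField hJ Int.not_isField)
  obtain ⟨u, hu⟩ := Ideal.Quotient.mk_surjective (e (M.mkQ (1, 0)))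
  obtain ⟨v, hv⟩ := Ideal.Quotient.mk_surjective (e (M.mkQ (0, 1)))
  have key : ∀ m n : ℤ, (m, n) ∈ M ↔ Submodule.IsPrincipal.generator J ∣ v * n - -u * m := by
    intro m n
    have h1 : ((m, n) : ℤ × ℤ) = n • (0, 1) + m • (1, 0) := by simp
    have h2 : e (M.mkQ (m, n)) = Ideal.Quotient.mk J (v * n - -u * m) := by
      rw [h1, map_add, map_add, map_smul, map_smul, map_smul, map_smul, ← hu, ← hv]
      simp [mul_comm]
    rw [← Submodule.IsPrincipal.mem_iff_generator_dvd, ← Ideal.Quotient.eq_zero_iff_mem, ← h2,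
      map_eq_zero_iff _ e.injective, Submodule.mkQ_apply, Submodule.Quotient.mk_eq_zero]
  refine ⟨_, Int.prime_iff_natAbs_prime.1 hq, v, -u, fun h' => hM.1 (eq_top_iff.2 fun x _ => ?_),
    fun m n hm => Int.natAbs_dvd.2 ((key m n).1 (hI hm))⟩
  exact (key x.1 x.2).2 (dvd_sub ((Int.natAbs_dvd.1 h'.1).mul_right _)
    ((Int.natAbs_dvd.1 h'.2).mul_right _))

theorem core {D : Set ℂ} (hD : D.Finite) {r : ℝ} (hr : 0 < r) (hDr : D ⊆ ball 0 r)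
    (hre : InjOn Complex.re D) (hT : LocTriv Λ Dᶜ) (hext : Bas Λ ω₁ ω₂ {z | r ≤ ‖z‖})
    (hno : ∀ p : ℕ, p.Prime → ∀ P, ¬ Tors Λ D p P) {e : ℂ → ℂ} (he : ASec Λ e (sphere 0 r)) :
    ∃ ν τ : ℂ → ℂ, ASec Λ ν (closedBall 0 r) ∧ AnalyticOnNhd ℂ τ (sphere 0 r) ∧
      ∀ᶠ z in 𝓝ˢ (sphere (0 : ℂ) r), e z - ν z - τ z ∈ Λ z := by
  let I : AddSubgroup (ℤ × ℤ) :=
    { carrier := {x | InI Λ ω₁ ω₂ r x.1 x.2}
      zero_mem' := inI_zero r
      add_mem' := InI.add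
      neg_mem' := InI.neg }
  have hI : I = ⊤ := by
    by_contra h
    obtain ⟨p, hp, a, b, h1, h2⟩ := grp I h
    obtain ⟨P, hP⟩ := tors_of hD hr hDr hre hT hext hp h1 h2
    exact hno p hp P hP
  obtain ⟨m, n, τ, h1, h2⟩ := asec_cls hr
    (fun z hz => hext z (mem_sphere_zero_iff_norm.1 hz).ge) he
  obtain ⟨ν, τ', h3, h4, h5⟩ : (m, n) ∈ I := hI ▸ AddSubgroup.mem_top _
  refine ⟨ν, τ - τ', h3, h1.sub h4, ?_⟩
  filter_upwards [h2, h5] with z a b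
  convert sub_mem a b using 1
  simp only [Pi.sub_apply]
  ring

theorem an (u z : ℂ) : AnalyticAt ℂ (fun z => u * z) z := by fun_prop

theorem asec (u : ℂ) (h : ASec Λ ν K) {K' : Set ℂ} (hK : ∀ z ∈ K', u * z ∈ K) :
    ASec (fun z => Λ (u * z)) (fun z => ν (u * z)) K' := fun z hz =>
  let ⟨c, h1, h2⟩ := h _ (hK z hz)
  ⟨fun z => c (u * z), h1.comp (an u z), (an u z).continuousAt.eventually h2⟩

theorem bas (u : ℂ) (h : Bas Λ ω₁ ω₂ K) {K' : Set ℂ} (hK : ∀ z ∈ K', u * z ∈ K) :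
    Bas (fun z => Λ (u * z)) (fun z => ω₁ (u * z)) (fun z => ω₂ (u * z)) K' := fun z hz =>
  let ⟨h1, h2, h3⟩ := h _ (hK z hz)
  ⟨h1.comp (an u z), h2.comp (an u z), (an u z).continuousAt.eventually h3⟩

theorem dir {D : Set ℂ} (hD : D.Finite) :
    ∃ v : ℂ, ‖v‖ = 1 ∧ InjOn (fun z => (v * z).re) D := by
  obtain ⟨t, ht⟩ := ((hD.prod hD).image fun x => -(x.1 - x.2).re / (x.1 - x.2).im).exists_notMem
  have h0 : ‖(⟨1, -t⟩ : ℂ)‖ ≠ 0 := norm_ne_zero_iff.2 fun h => one_ne_zero (congrArg Complex.re h)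
  refine ⟨(‖(⟨1, -t⟩ : ℂ)‖⁻¹ : ℝ) * ⟨1, -t⟩, ?_, fun a ha b hb h => ?_⟩
  · rw [norm_mul, Complex.norm_real, norm_inv, norm_norm, inv_mul_cancel₀ h0]
  · simp only [mul_assoc, Complex.re_ofReal_mul, mul_right_inj' (inv_ne_zero h0)] at h
    simp only [Complex.mul_re] at h
    by_cases hi : (a - b).im = 0
    · rw [Complex.sub_im, sub_eq_zero] at hi
      exact Complex.ext (by rw [hi] at h; linarith) hi
    · refine absurd ⟨(a, b), ⟨ha, hb⟩, ?_⟩ ht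
      rw [div_eq_iff hi, Complex.sub_re, Complex.sub_im]
      linarith

end PF7

theorem asec_surj {D : Set ℂ} (hD : D.Finite) {r : ℝ} (hr : 0 < r) (hDr : D ⊆ ball 0 r)
    (hT : LocTriv Λ Dᶜ) (hext : Bas Λ ω₁ ω₂ {z | r ≤ ‖z‖})
    (hno : ∀ p : ℕ, p.Prime → ∀ P, ¬ Tors Λ D p P) {e : ℂ → ℂ} (he : ASec Λ e (sphere 0 r)) :
    ∃ ν τ : ℂ → ℂ, ASec Λ ν (closedBall 0 r) ∧ AnalyticOnNhd ℂ τ (sphere 0 r) ∧
      ∀ᶠ z in 𝓝ˢ (sphere (0 : ℂ) r), e z - ν z - τ z ∈ Λ z := by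
  obtain ⟨v, hv, hi⟩ := PF7.dir hD
  have h0 : v ≠ 0 := fun h => by simp [h] at hv
  have e1 : ∀ z, v⁻¹ * (v * z) = z := inv_mul_cancel_left₀ h0
  have e2 : ∀ z, v * (v⁻¹ * z) = z := mul_inv_cancel_left₀ h0
  have n1 : ∀ z, ‖v * z‖ = ‖z‖ := fun z => by rw [norm_mul, hv, one_mul]
  have n2 : ∀ z, ‖v⁻¹ * z‖ = ‖z‖ := fun z => by rw [← n1, e2]
  obtain ⟨ν, τ, h1, h2, h3⟩ := PF7.core (Λ := fun z => Λ (v⁻¹ * z)) (D := {z | v⁻¹ * z ∈ D})
    (hD.preimage (mul_right_injective₀ (inv_ne_zero h0)).injOn) hr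
    (fun z hz => mem_ball_zero_iff.2 (n2 z ▸ mem_ball_zero_iff.1 (hDr hz)))
    (fun a ha b hb h => by
      rw [← e2 a, ← e2 b] at h ⊢
      rw [hi ha hb h])
    (fun z hz => by
      obtain ⟨a, b, h⟩ := hT (v⁻¹ * z) hz
      exact ⟨_, _, PF7.bas v⁻¹ h fun w hw => congrArg _ hw⟩)
    (PF7.bas v⁻¹ hext fun z hz => le_trans hz (n2 z).ge)
    (fun p hp P hP => hno p hp (fun z => P (v * z)) ⟨by
      simpa only [e1] using PF7.asec v hP.1 (K' := Dᶜ) fun z hz => by simpa [e1] using hz,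
      fun z hz => by simpa only [e1] using hP.2 (v * z) (by simpa [e1] using hz)⟩)
    (PF7.asec v⁻¹ he fun z hz => mem_sphere_zero_iff_norm.2 ((n2 z).trans
      (mem_sphere_zero_iff_norm.1 hz)))
  have hs : ∀ z ∈ sphere (0 : ℂ) r, v * z ∈ sphere (0 : ℂ) r := fun z hz =>
    mem_sphere_zero_iff_norm.2 ((n1 z).trans (mem_sphere_zero_iff_norm.1 hz))
  refine ⟨fun z => ν (v * z), fun z => τ (v * z), ?_, fun z hz => (h2 _ (hs z hz)).comp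
    (PF7.an v z), eventually_nhdsSet_iff_forall.2 fun z hz => ?_⟩
  · simpa only [e1] using PF7.asec v h1 (K' := closedBall 0 r) fun z hz =>
      mem_closedBall_zero_iff.2 ((n1 z).trans_le (mem_closedBall_zero_iff.1 hz))
  · simpa only [e1] using (PF7.an v z).continuousAt.eventually
      (eventually_nhdsSet_iff_forall.1 h3 _ (hs z hz))

end Vale.Agent.P290
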