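import Vale.Agent.P290G.ESec
import Vale.Agent.P290G.ELat
import Vale.Agent.P290G.PF7
import Vale.Agent.P290G.Laur

/-! Sections over the two affine lines. -/

open Set Filter Metric Polynomial
open scoped Manifold ContDiff Topology

noncomputable section

namespace Vale.Agent.P290

variable {X : Type} [TopologicalSpace X] [ChartedSpace C2 X] [IsManifold 𝓘(ℂ, C2) ω X]
  {σ : Form2 X} {π : X → P1} {S : X × (ℂ × ℂ) × ℂ → X} {p : ℂ → ℂ × ℂ} {s s' : ℂ → X}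
  {K : Set ℂ}

namespace SD

theorem congr_sec {z : ℂ} (hs : SecOn π p s {z}) (e : s' =ᶠ[𝓝 z] s) : SecOn π p s' {z} := by
  intro w hw
  rw [mem_singleton_iff] at hw
  subst hw
  obtain ⟨h1, h2⟩ := hs w rfl
  refine ⟨h1.congr e, ?_⟩
  filter_upwards [h2, e] with v hv he
  rw [he]
  exact hv

theorem pt (hs : SecOn π p s K) {z : ℂ} (hz : z ∈ K) : SecOn π p s {z} := by
  intro w hw
  rw [mem_singleton_iff] at hw
  subst hw
  exact hs w hz

theorem inv_sec {p' : ℂ → ℂ × ℂ} (hp : ∀ z, z ≠ 0 → p' z = z • p z⁻¹) {z : ℂ} (hz : z ≠ 0)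
    (hs : SecOn π p s {z⁻¹}) : SecOn π p' (fun w => s w⁻¹) {z} := by
  intro w hw
  rw [mem_singleton_iff] at hw
  subst hw
  obtain ⟨h1, h2⟩ := hs _ rfl
  refine ⟨h1.comp (g := fun v : ℂ => v⁻¹) (analyticAt_id.inv hz), ?_⟩
  have hc : ContinuousAt (fun v : ℂ => v⁻¹) w := continuousAt_inv₀ hz
  filter_upwards [hc.eventually h2, eventually_ne_nhds hz] with v hv hv0
  rw [hp v hv0]
  exact hv.smul hv0

theorem hp01 (z : ℂ) (hz : z ≠ 0) : ((1 : ℂ), z) = z • (z⁻¹, (1 : ℂ)) := by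
  simp [hz]

theorem hp10 (z : ℂ) (hz : z ≠ 0) : (z, (1 : ℂ)) = z • ((1 : ℂ), z⁻¹) := by
  simp [hz]

theorem shift (hS : Spray σ π S) {x : X} {q : ℂ × ℂ} (hx : Rep q (π x)) (hr : Reg π x)
    {a b : ℂ} (hab : a - b ∈ Per hS q) : S (x, q, a) = S (x, q, b) := by
  have h1 : S (x, q, a - b) = x := hab x hx hr
  have h2 := hS.add x q (a - b) b hx
  rw [h1, sub_add_cancel] at h2
  exact h2.symm

theorem back (hS : Spray σ π S) {x : X} {q : ℂ × ℂ} (hx : Rep q (π x)) (a b : ℂ)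
    (hab : a + b = 0) : S (S (x, q, a), q, b) = x := by
  rw [hS.add x q a b hx, hab, hS.zero x q hx]

theorem inv_mem {r : ℝ} (hr : 0 < r) {z : ℂ} (hz : r ≤ ‖z‖) : z⁻¹ ∈ closedBall (0 : ℂ) r⁻¹ := by
  rw [mem_closedBall_zero_iff, norm_inv]
  exact inv_anti₀ hr hz

theorem ne0 {r : ℝ} (hr : 0 < r) {z : ℂ} (hz : r ≤ ‖z‖) : z ≠ 0 := by
  rintro rfl
  rw [norm_zero] at hz
  linarith

theorem triv_inf [T2Space X] (h : Ell σ π S) {D : Set ℂ}
    (hT : LocTriv (fun z => Per h.spr (1, z)) Dᶜ)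
    (hinf : ∃ L : PeriodPair, (Per h.spr (0, 1) : Set ℂ) = L.lattice) {w : ℂ}
    (hw : w ≠ 0 → w⁻¹ ∉ D) : ∃ ω₁ ω₂, Bas (fun z => Per h.spr (z, 1)) ω₁ ω₂ {w} := by
  by_cases h0 : w = 0
  · subst h0
    obtain ⟨L, hL⟩ := hinf
    exact h.loc_triv (p := fun z => (z, 1)) (Or.inr rfl) (z₀ := 0) hL
  · obtain ⟨ω₁, ω₂, hb⟩ := hT w⁻¹ (hw h0)
    exact ⟨_, _, bas_inv h.spr (p := fun z => (1, z)) (p' := fun z => (z, 1)) hp10 h0 hb⟩

theorem glue (h : Ell σ π S) {r : ℝ} (hr : 0 < r) {t : ℂ} {a b : ℂ → X}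
    (ha : SecOn π (fun z => (1, z)) a (closedBall 0 r))
    (hb : SecOn π (fun z => (z, 1)) b (closedBall 0 r⁻¹))
    (hab : ∀ᶠ z in 𝓝ˢ (sphere (0 : ℂ) r), b z⁻¹ = S (a z, (1, z), t / z)) :
    ∃ s₀ s₁ : ℂ → X, SecOn π (fun z => (1, z)) s₀ univ ∧
      SecOn π (fun z => (z, 1)) s₁ univ ∧ ∀ z, z ≠ 0 → s₁ z⁻¹ = S (s₀ z, (1, z), t / z) := by
  classical
  have hc0 : Coord (fun z : ℂ => ((1 : ℂ), z)) := Or.inl rfl
  have hdiv : ∀ (c : ℂ) {z : ℂ}, z ≠ 0 →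
      ASec (fun z => Per h.spr ((1 : ℂ), z)) (fun w => c / w) {z} := by
    intro c z hz
    refine asec_of_analytic ?_
    intro w hw
    rw [mem_singleton_iff] at hw
    subst hw
    exact analyticAt_const.div analyticAt_id hz
  let s₀ : ℂ → X := fun z => if ‖z‖ ≤ r then a z else S (b z⁻¹, (1, z), -t / z)
  have h0 : SecOn π (fun z => (1, z)) s₀ univ := by
    intro z _
    refine (?_ : SecOn π (fun z => (1, z)) s₀ {z}) z rfl
    rcases lt_trichotomy ‖z‖ r with hz | hz | hz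
    · refine congr_sec (pt ha (mem_closedBall_zero_iff.2 hz.le)) ?_
      have : ∀ᶠ w in 𝓝 z, ‖w‖ < r := continuous_norm.continuousAt.eventually (gt_mem_nhds hz)
      filter_upwards [this] with w hw
      exact if_pos hw.le
    · have hza := pt ha (mem_closedBall_zero_iff.2 hz.le)
      refine congr_sec hza ?_
      have h1 := (nhds_le_nhdsSet (mem_sphere_zero_iff_norm.2 hz)) hab
      filter_upwards [h1, (hza z rfl).2] with w hw hw'
      show (if ‖w‖ ≤ r then a w else S (b w⁻¹, (1, w), -t / w)) = a w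
      split_ifs
      · rfl
      · rw [hw]
        exact back h.spr hw' _ _ (by ring)
    · have hz0 := ne0 hr hz.le
      have h1 := inv_sec (p := fun z => (z, 1)) (p' := fun z => (1, z)) hp01 hz0
        (pt hb (inv_mem hr hz.le))
      refine congr_sec (h.act_asec hc0 h1 (hdiv (-t) hz0)) ?_
      have : ∀ᶠ w in 𝓝 z, r < ‖w‖ := continuous_norm.continuousAt.eventually (lt_mem_nhds hz)
      filter_upwards [this] with w hw
      exact if_neg (not_le.2 hw)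
  let s₁ : ℂ → X := fun w => if w = 0 then b 0 else S (s₀ w⁻¹, (1, w⁻¹), t / w⁻¹)
  refine ⟨s₀, s₁, h0, ?_, ?_⟩
  · intro z _
    refine (?_ : SecOn π (fun z => (z, 1)) s₁ {z}) z rfl
    by_cases hz : z = 0
    · subst hz
      have hr' : 0 < r⁻¹ := inv_pos.2 hr
      have hzb := pt hb (mem_closedBall_self hr'.le)
      refine congr_sec hzb ?_
      filter_upwards [ball_mem_nhds (0 : ℂ) hr', (hzb 0 rfl).2] with w hw hw'
      show (if w = 0 then b 0 else S (s₀ w⁻¹, (1, w⁻¹), t / w⁻¹)) = b w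
      split_ifs with hw0
      · rw [hw0]
      · have hlt : r < ‖w⁻¹‖ := by
          rw [mem_ball_zero_iff] at hw
          rw [norm_inv]
          exact lt_inv_of_lt_inv₀ (norm_pos_iff.2 hw0) hw
        have he : s₀ w⁻¹ = S (b w, (1, w⁻¹), -t / w⁻¹) := by
          show (if ‖w⁻¹‖ ≤ r then a w⁻¹ else S (b w⁻¹⁻¹, (1, w⁻¹), -t / w⁻¹)) = _
          rw [if_neg (not_le.2 hlt), inv_inv]
        have hrep : Rep (1, w⁻¹) (π (b w)) := by
          have := hw'.smul (inv_ne_zero hw0)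
          rwa [show w⁻¹ • (w, (1 : ℂ)) = (1, w⁻¹) by simp [hw0]] at this
        rw [he]
        exact back h.spr hrep _ _ (by ring)
    · have hz' : z⁻¹ ≠ 0 := inv_ne_zero hz
      have h1 := h.act_asec hc0 (pt h0 (mem_univ z⁻¹)) (hdiv t hz')
      have h2 := inv_sec (p := fun z => (1, z)) (p' := fun z => (z, 1)) hp10 hz h1
      refine congr_sec h2 ?_
      filter_upwards [eventually_ne_nhds hz] with w hw
      exact if_neg hw
  · intro z hz
    show (if z⁻¹ = 0 then b 0 else S (s₀ z⁻¹⁻¹, (1, z⁻¹⁻¹), t / z⁻¹⁻¹)) = _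
    rw [if_neg (inv_ne_zero hz), inv_inv]

end SD

theorem Ell.sec_data [T2Space X] (h : Ell σ π S) {D : Set ℂ} (hD : D.Finite)
    (hT : LocTriv (fun z => Per h.spr (1, z)) Dᶜ)
    (hinf : ∃ L : PeriodPair, (Per h.spr (0, 1) : Set ℂ) = L.lattice)
    (hno : ∀ k : ℕ, k.Prime → ∀ P, ¬ Tors (fun z => Per h.spr (1, z)) D k P) :
    ∃ (t : ℂ) (s₀ s₁ : ℂ → X), SecOn π (fun z => (1, z)) s₀ univ ∧
      SecOn π (fun z => (z, 1)) s₁ univ ∧ ∀ z, z ≠ 0 → s₁ z⁻¹ = S (s₀ z, (1, z), t / z) := by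
  have hc0 : Coord (fun z : ℂ => ((1 : ℂ), z)) := Or.inl rfl
  have hc1 : Coord (fun z : ℂ => (z, (1 : ℂ))) := Or.inr rfl
  obtain ⟨r, hr, hDr⟩ := hD.isBounded.subset_ball_lt 0 (0 : ℂ)
  have hD' : ((fun w : ℂ => w⁻¹) ⁻¹' D).Finite := hD.preimage inv_injective.injOn
  have hT' : LocTriv (fun z => Per h.spr (z, 1)) ((fun w : ℂ => w⁻¹) ⁻¹' D)ᶜ :=
    fun w hw => SD.triv_inf h hT hinf fun _ => hw
  have hTb : LocTriv (fun z => Per h.spr (z, 1)) (closedBall 0 r⁻¹) := by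
    intro w hw
    refine SD.triv_inf h hT hinf fun hw0 hwD => ?_
    have h1 := hDr hwD
    rw [mem_ball_zero_iff, norm_inv] at h1
    rw [mem_closedBall_zero_iff] at hw
    have h2 := le_inv_of_le_inv₀ (norm_pos_iff.2 hw0) hw
    linarith
  obtain ⟨η₁, η₂, hη⟩ := bas_convex (isCompact_closedBall (0 : ℂ) r⁻¹) (convex_closedBall _ _) hTb
  have hext : Bas (fun z => Per h.spr (1, z)) (fun w => η₁ w⁻¹ / w ^ 2) (fun w => η₂ w⁻¹ / w ^ 2)
      {z | r ≤ ‖z‖} := by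
    intro z hz
    refine bas_inv h.spr (p := fun z => (z, 1)) (p' := fun z => (1, z)) SD.hp01 (SD.ne0 hr hz)
      ?_ z rfl
    intro w hw
    rw [mem_singleton_iff] at hw
    subst hw
    exact hη _ (SD.inv_mem hr hz)
  obtain ⟨a, ha⟩ := h.sec_ball hc0 hD hT r
  obtain ⟨b, hb⟩ := h.sec_ball hc1 hD' hT' r⁻¹
  have ha' : SecOn π (fun z => (1, z)) a (sphere 0 r) := fun z hz => ha z (sphere_subset_closedBall hz)
  have hb' : SecOn π (fun z => (1, z)) (fun w => b w⁻¹) (sphere 0 r) := by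
    intro z hz
    have hz' : r ≤ ‖z‖ := (mem_sphere_zero_iff_norm.1 hz).ge
    exact SD.inv_sec (p := fun z => (z, 1)) (p' := fun z => (1, z)) SD.hp01 (SD.ne0 hr hz')
      (SD.pt hb (SD.inv_mem hr hz')) z rfl
  obtain ⟨e, he, hab⟩ := h.diff_asec hc0 ha' hb'
  obtain ⟨ν, τ, hν, hτ, hm⟩ := asec_surj hD hr hDr hT hext hno he
  obtain ⟨τ₀, τ₁, t, hτ₀, hτ₁, hl⟩ := laurent hr hτ
  have hA := h.act_asec hc0 ha (hν.add (asec_of_analytic hτ₀))
  have hB := h.act_asec hc1 hb (asec_of_analytic hτ₁).neg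
  refine ⟨t, SD.glue h hr hA hB ?_⟩
  have hreg : ∀ᶠ z in 𝓝ˢ (sphere (0 : ℂ) r), z ≠ 0 ∧ SecOn π (fun z => (1, z)) a {z} := by
    rw [eventually_nhdsSet_iff_forall]
    intro z hz
    exact (eventually_ne_nhds (SD.ne0 hr (mem_sphere_zero_iff_norm.1 hz).ge)).and
      (SD.pt ha' hz).ev
  filter_upwards [hab, hm, hl, hreg] with z h1 h2 h3 h4
  obtain ⟨hz, h4⟩ := h4
  have hrep : Rep (1, z) (π (a z)) := (h4 z rfl).2.self_of_nhds
  have hrg : Reg π (a z) := h4.reg h.hol hc0 rfl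
  have hrep' : Rep (1, z) (π (b z⁻¹)) := by
    rw [← h1, h.spr.fib _ _ _ hrep]
    exact hrep
  have e1 : (z⁻¹, (1 : ℂ)) = z⁻¹ • ((1 : ℂ), z) := by simp [hz]
  show S (b z⁻¹, (z⁻¹, 1), -τ₁ z⁻¹) = S (S (a z, (1, z), ν z + τ₀ z), (1, z), t / z)
  rw [e1, h.spr.smul _ _ _ _ hrep' (inv_ne_zero hz), ← h1, h.spr.add _ _ _ _ hrep,
    h.spr.add _ _ _ _ hrep]
  refine SD.shift h.spr hrep hrg ?_
  have e2 : e z + z⁻¹ ^ 2 * -τ₁ z⁻¹ - (ν z + τ₀ z + t / z) = e z - ν z - τ z := by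
    rw [h3]
    field_simp
    ring
  rw [e2]
  exact h2

end Vale.Agent.P290
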