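import Vale.Agent.P290G.WP1

/-! Solutions of the Weierstrass equation. -/

open Set Filter Metric Polynomial
open scoped Manifold ContDiff Topology

noncomputable section

namespace Vale.Agent.P290

namespace WP2

theorem conn {D : Set ℂ} (hc : D.Countable) : IsPreconnected Dᶜ :=
  (hc.isConnected_compl_of_one_lt_rank (by rw [Complex.rank_real_complex]; norm_num)).2

theorem ne {D : Set ℂ} (hc : D.Countable) (u : ℂ) : (𝓝[Dᶜ] u).NeBot :=
  mem_closure_iff_nhdsWithin_neBot.1 (hc.dense_compl ℂ u)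

theorem uniq (L : PeriodPair) {D : Set ℂ} (hD : IsClosed D) (hc : D.Countable) {Y : ℂ → ℂ}
    (hY : AnalyticOnNhd ℂ Y Dᶜ) (h : ∀ u ∈ Dᶜ, deriv (deriv Y) u = 6 * Y u ^ 2 - L.g₂ / 2)
    {u₀ a : ℂ} (h0 : u₀ ∉ D) (h1 : u₀ + a ∉ L.lattice) (h2 : Y u₀ = L.weierstrassP (u₀ + a))
    (h3 : deriv Y u₀ = L.derivWeierstrassP (u₀ + a)) :
    ∀ u ∉ D, u + a ∉ L.lattice ∧ Y u = L.weierstrassP (u + a) := by
  let E : Set ℂ := D ∪ (fun u => u + a) ⁻¹' L.lattice
  have c1 : IsClosed E := hD.union (L.isClosed_lattice.preimage (by fun_prop))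
  have c2 : E.Countable := hc.union ((lattice_countable L).preimage (add_left_injective a))
  have e1 : (deriv fun u => L.weierstrassP (u + a)) = fun u => L.derivWeierstrassP (u + a) :=
    funext fun u => by rw [deriv_comp_add_const, L.deriv_weierstrassP]
  have he : EqOn Y (fun u => L.weierstrassP (u + a)) Eᶜ :=
    ode2_uniq c1.isOpen_compl (conn c2) (hY.mono (compl_subset_compl.2 subset_union_left))
      (fun u hu => (L.analyticOnNhd_weierstrassP (u + a) fun h4 => hu (Or.inr h4)).fun_comp_of_eq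
        (analyticAt_id.add analyticAt_const) rfl)
      (fun u hu => h u fun h4 => hu (Or.inl h4))
      (fun u hu => by rw [e1, deriv_comp_add_const, wp_deriv2 L fun h4 => hu (Or.inr h4)])
      (fun h4 => h4.elim h0 h1) h2 (by rw [e1, h3])
  intro u hu
  have h4 : u + a ∉ L.lattice := fun h4 => by
    have := ne c2 u
    have h5 : Tendsto (fun v => v + a) (𝓝[Eᶜ] u) (𝓝[≠] (u + a)) :=
      tendsto_nhdsWithin_iff.2 ⟨(continuous_add_const a).continuousAt.mono_left nhdsWithin_le_nhds,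
        eventually_nhdsWithin_of_forall fun v hv h5 => hv (Or.inr (h5 ▸ h4 : v + a ∈ L.lattice))⟩
    exact not_tendsto_atTop_of_tendsto_nhds
      ((hY u hu).continuousAt.norm.mono_left (nhdsWithin_le_nhds (s := Eᶜ)))
      (((wp_tendsto L h4).comp h5).congr'
        (eventually_nhdsWithin_of_forall fun v hv => congrArg norm (he hv).symm))
  exact ⟨h4, he fun h5 => h5.elim hu h4⟩

end WP2

theorem wp_match (L : PeriodPair) {D : Set ℂ} (hD : IsClosed D) (hc : D.Countable) {Y : ℂ → ℂ}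
    (hY : AnalyticOnNhd ℂ Y Dᶜ)
    (h : ∀ u ∉ D, deriv Y u ^ 2 = 4 * Y u ^ 3 - L.g₂ * Y u - L.g₃)
    (hn : ∃ u ∉ D, deriv Y u ≠ 0) :
    ∃ a, ∀ u ∉ D, u + a ∉ L.lattice ∧ Y u = L.weierstrassP (u + a) := by
  have h1 := ode2_of_ode1 hD.isOpen_compl (WP2.conn hc) hY h hn
  obtain ⟨u₀, h0, -⟩ := hn
  obtain ⟨a, h2, h3, h4⟩ := wp_surj L (h u₀ h0)
  refine ⟨a - u₀, WP2.uniq L hD hc hY h1 h0 ?_ ?_ ?_⟩ <;> rw [add_sub_cancel]
  exacts [h2, h3.symm, h4.symm]

theorem wp_poles (L : PeriodPair) {D : Set ℂ} (hD : IsClosed D) (hc : D.Countable) {Y : ℂ → ℂ}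
    (hY : AnalyticOnNhd ℂ Y Dᶜ)
    (h : ∀ u ∉ D, deriv Y u ^ 2 = 4 * Y u ^ 3 - L.g₂ * Y u - L.g₃)
    (hn : ∃ u ∉ D, deriv Y u ≠ 0) (hp : ∀ d ∈ D, Tendsto (fun u => ‖Y u‖) (𝓝[Dᶜ] d) atTop)
    (h0 : (0 : ℂ) ∈ D) : D = L.lattice := by
  obtain ⟨a, ha⟩ := wp_match L hD hc hY h hn
  have h1 : ∀ d ∈ D, d + a ∈ L.lattice := fun d hd => by_contra fun h1 => by
    have := WP2.ne hc d
    have h2 : ContinuousAt (fun u => L.weierstrassP (u + a)) d :=
      (L.analyticOnNhd_weierstrassP (d + a) h1).continuousAt.comp_of_eq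
        (continuous_add_const a).continuousAt rfl
    exact not_tendsto_atTop_of_tendsto_nhds (h2.norm.mono_left (nhdsWithin_le_nhds (s := Dᶜ)))
      ((hp d hd).congr' (eventually_nhdsWithin_of_forall fun v hv => congrArg norm (ha v hv).2))
  have h2 : a ∈ L.lattice := by simpa using h1 0 h0
  ext u
  exact ⟨fun hu => (L.lattice.add_mem_iff_left h2).1 (h1 u hu),
    fun hu => by_contra fun h3 => (ha u h3).1 (L.lattice.add_mem hu h2)⟩

theorem wp'_zero (L : PeriodPair) {a : ℂ} (ha : a ∉ L.lattice) :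
    L.derivWeierstrassP a = 0 ↔ 2 * a ∈ L.lattice := by
  refine ⟨fun h => by_contra fun h1 => ?_, fun h => ?_⟩
  · have e1 : (deriv fun u => L.weierstrassP (a - u)) = fun u => -L.derivWeierstrassP (a - u) :=
      funext fun u => by rw [deriv_comp_const_sub, L.deriv_weierstrassP]
    refine (WP2.uniq L (D := (fun u => a - u) ⁻¹' L.lattice) (Y := fun u => L.weierstrassP (a - u))
      (L.isClosed_lattice.preimage (by fun_prop))
      ((lattice_countable L).preimage sub_right_injective)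
      (fun u hu => (L.analyticOnNhd_weierstrassP (a - u) hu).fun_comp_of_eq
        (analyticAt_const.sub analyticAt_id) rfl)
      (fun u hu => ?_) (u₀ := 0) (a := a) (by simpa using ha) (by simpa using ha) (by simp)
      (by simp [e1, h]) (-a) (by simpa [two_mul] using h1)).1 (by simp)
    rw [e1, deriv.fun_neg, deriv_comp_const_sub, neg_neg, wp_deriv2 L hu]
  · have h1 := L.derivWeierstrassP_sub_coe a ⟨2 * a, h⟩
    rw [show a - 2 * a = -a by ring, L.derivWeierstrassP_neg] at h1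
    exact CharZero.eq_neg_self_iff.1 h1.symm

end Vale.Agent.P290
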