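import Vale.Agent.P290G.EPer
import Vale.Agent.P290G.WP2

/-! Weierstrass functions on fibres. -/

open Set Filter Metric Polynomial
open scoped Manifold ContDiff Topology

noncomputable section

namespace Vale.Agent.P290

variable {X : Type} [TopologicalSpace X] [ChartedSpace C2 X] [IsManifold 𝓘(ℂ, C2) ω X]
  {σ : Form2 X} {π : X → P1} {S : X × (ℂ × ℂ) × ℂ → X} {p : ℂ → ℂ × ℂ} {s s' : ℂ → X}
  {K : Set ℂ}

namespace WF

theorem cont (hS : Spray σ π S) {x : X} {q : ℂ × ℂ} (hx : Rep q (π x)) :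
    Continuous fun t : ℂ => S (x, q, t) :=
  continuous_iff_continuousAt.2 fun t => (Orb.hol hS hx t).cont

omit [IsManifold 𝓘(ℂ, C2) ω X] in
theorem rep (hS : Spray σ π S) {x : X} {q : ℂ × ℂ} (hx : Rep q (π x)) (t : ℂ) :
    Rep q (π (S (x, q, t))) := by
  rw [hS.fib x q t hx]
  exact hx

/-- A Weierstrass function is not constant along a piece of a regular orbit. -/
theorem nc [T2Space X] (hσ : IsSympl σ) (hπ : HolP π) (hS : Spray σ π S)
    {q : ℂ × ℂ} {g₂ g₃ : ℂ} {x₀ : X} {Y : X → ℂ} (hY : WFun π S q g₂ g₃ x₀ Y) {x : X}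
    (hx : Rep q (π x)) (hr : Reg π x) {u y : ℂ} {r : ℝ} (h0 : 0 < r)
    (h : ∀ t ∈ ball u r, S (x, q, t) ≠ x₀ ∧ Y (S (x, q, t)) = y) : False := by
  have h1 : ∀ t ∈ ball u r, S (x, q, t) = S (x, q, u) := fun t ht =>
    (convex_ball u r).isPreconnected.constant_of_mapsTo (hY.fin y).isDiscrete
      (f := fun t => S (x, q, t)) (cont hS hx).continuousOn
      (fun t ht => ⟨rep hS hx t, h t ht⟩) ht (mem_ball_self h0)
  have h2 : (fun t => S (x, q, t)) =ᶠ[𝓝 u] fun _ => S (x, q, u) := by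
    filter_upwards [ball_mem_nhds u h0] with t ht using h1 t ht
  apply (reg_iff hσ hπ hS (rep hS hx u)).1 (hr.flow hσ hπ hS hx u)
  rw [← hS.vel_eq hx u, vel, dif_congr h2, dif, mfderiv_const]
  rfl

end WF

theorem WFun.orbit [T2Space X] [CompactSpace X] (hσ : IsSympl σ) (hπ : HolP π) (hS : Spray σ π S)
    {q : ℂ × ℂ} {g₂ g₃ : ℂ} {x₀ : X} {Y : X → ℂ} (hY : WFun π S q g₂ g₃ x₀ Y) {x : X}
    (hx : Rep q (π x)) (hr : Reg π x) : ∃ t, S (x, q, t) = x₀ := by
  by_contra hne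
  have hne' : ∀ t, S (x, q, t) ≠ x₀ := fun t ht => hne ⟨t, ht⟩
  obtain ⟨N, hN, hNo, hN0⟩ := eventually_nhds_iff.1 (orbit_nhds hσ hπ hS hY.reg hY.rep)
  have h1 : ∀ t, S (x, q, t) ∉ N := fun t ht => by
    obtain ⟨a, ha⟩ := hN _ ht (WF.rep hS hx t)
    apply hne' (t + -a)
    rw [← hS.add x q t (-a) hx, ← ha, hS.add x₀ q a (-a) hY.rep, add_neg_cancel,
      hS.zero x₀ q hY.rep]
  have hK : IsCompact ({y | Rep q (π y)} ∩ Nᶜ) :=
    ((isClosed_fibre hπ q).inter hNo.isClosed_compl).isCompact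
  have hc : ContinuousOn Y ({y | Rep q (π y)} ∩ Nᶜ) := fun y hy =>
    (hY.hol y hy.1 fun e => hy.2 (e ▸ hN0)).continuousAt.continuousWithinAt
  have hb : Bornology.IsBounded (range fun t => Y (S (x, q, t))) :=
    (hK.image_of_continuousOn hc).isBounded.subset <| by
      rintro _ ⟨t, rfl⟩
      exact ⟨_, ⟨WF.rep hS hx t, h1 t⟩, rfl⟩
  have hd : Differentiable ℂ fun t => Y (S (x, q, t)) := fun t =>
    (HolF.comp (f := fun t => S (x, q, t)) (hY.hol _ (WF.rep hS hx t) (hne' t))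
      (Orb.hol hS hx t)).differentiableAt
  exact WF.nc hσ hπ hS hY hx hr (u := 0) one_pos fun t _ =>
    ⟨hne' t, hd.apply_eq_apply_of_bounded hb t 0⟩

theorem WFun.per [T2Space X] (h : Ell σ π S) {q : ℂ × ℂ} {L : PeriodPair} {x₀ : X} {Y : X → ℂ}
    (hY : WFun π S q L.g₂ L.g₃ x₀ Y) : (Per h.spr q : Set ℂ) = L.lattice := by
  have hS := h.spr
  have hm : ∀ t, t ∈ (Per h.spr q : Set ℂ) ↔ S (x₀, q, t) = x₀ := fun t =>
    h.mem_per hY.rep hY.reg
  have hcl : IsClosed (Per h.spr q : Set ℂ) := by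
    have e : (Per h.spr q : Set ℂ) = {t | S (x₀, q, t) = x₀} := Set.ext hm
    rw [e]
    exact isClosed_eq (WF.cont hS hY.rep) continuous_const
  have hco : (Per h.spr q : Set ℂ).Countable := by
    obtain ⟨ε, hε, hd⟩ := h.discrete hY.rep.ne
    refine PairwiseDisjoint.countable_of_isOpen (s := fun t : ℂ => ball t (ε / 2)) ?_
      (fun _ _ => isOpen_ball) fun t _ => nonempty_ball.2 (half_pos hε)
    intro a ha b hb hab
    refine ball_disjoint_ball ?_
    rw [add_halves, dist_eq_norm]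
    by_contra hlt
    exact hab (sub_eq_zero.1 (hd _ (sub_mem ha hb) (not_le.1 hlt)))
  have hne : ∀ u ∉ (Per h.spr q : Set ℂ), S (x₀, q, u) ≠ x₀ := fun u hu e => hu ((hm u).2 e)
  have han : AnalyticOnNhd ℂ (fun t => Y (S (x₀, q, t))) (Per h.spr q : Set ℂ)ᶜ := fun u hu =>
    HolF.comp (f := fun t => S (x₀, q, t)) (hY.hol _ (WF.rep hS hY.rep u) (hne u hu))
      (Orb.hol hS hY.rep u)
  refine wp_poles L hcl hco han (fun u hu => ?_) ?_ (fun d hd => ?_) (zero_mem _)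
  · have h1 := dfn_comp (f := fun t => S (x₀, q, t)) (hY.hol _ (WF.rep hS hY.rep u) (hne u hu))
      (Orb.hol hS hY.rep u) (1 : ℂ)
    rw [fderiv_apply_one_eq_deriv] at h1
    have h2 : dif (fun t => S (x₀, q, t)) u 1 = tv S (S (x₀, q, u)) q := hS.vel_eq hY.rep u
    rw [h1, h2]
    exact hY.ode _ (WF.rep hS hY.rep u) (hY.reg.flow h.sym h.hol hS hY.rep u) (hne u hu)
  · by_contra hn
    have hn' : ∀ u ∉ (Per h.spr q : Set ℂ), deriv (fun t => Y (S (x₀, q, t))) u = 0 :=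
      fun u hu => by_contra fun e => hn ⟨u, hu, e⟩
    obtain ⟨u, hu⟩ := (hco.dense_compl ℂ).nonempty
    obtain ⟨r, hr, hb⟩ := Metric.isOpen_iff.1 hcl.isOpen_compl u hu
    refine WF.nc h.sym h.hol hS hY hY.rep hY.reg (u := u) (y := Y (S (x₀, q, u))) hr
      fun t ht => ⟨hne t (hb ht), ?_⟩
    exact isOpen_ball.is_const_of_deriv_eq_zero (convex_ball u r).isPreconnected
      (han.mono hb).differentiableOn (fun v hv => hn' v (hb hv)) ht (mem_ball_self hr)
  · refine hY.pole.comp (tendsto_nhdsWithin_iff.2 ⟨?_, ?_⟩)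
    · have h1 := ((WF.cont hS hY.rep).tendsto d).mono_left
        (nhdsWithin_le_nhds (s := (Per h.spr q : Set ℂ)ᶜ))
      rwa [(hm d).1 hd] at h1
    · filter_upwards [self_mem_nhdsWithin] with u hu using ⟨WF.rep hS hY.rep u, hne u hu⟩

end Vale.Agent.P290
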