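import Vale.Agent.P290G.XFun
import Vale.Agent.P290G.WF

/-! The elliptic fibration of a double cover. -/

open Set Filter Metric Polynomial
open scoped Manifold ContDiff Topology

noncomputable section

namespace Vale.Agent.P290

variable {X : Type} [TopologicalSpace X] [ChartedSpace C2 X] [IsManifold 𝓘(ℂ, C2) ω X]
  {σ : Form2 X} {π : X → P1} {S : X × (ℂ × ℂ) × ℂ → X} {c : Fin 5 → Fin 5 → ℂ}
  {ρ : (Fin 5 → ℂ) → X}

namespace XEll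

theorem qf_smul (a : Fin 5 → ℂ) (t : ℂ) (q : ℂ × ℂ) : qf a (t • q) = t ^ 4 * qf a q := by
  simp only [qf, Fin.sum_univ_five, Prod.smul_fst, Prod.smul_snd, smul_eq_mul]
  simp
  ring

theorem qf_cof_smul (c : Fin 5 → Fin 5 → ℂ) (t : ℂ) (q : ℂ × ℂ) :
    qf (cof c (t • q)) = t ^ 4 • qf (cof c q) := by
  funext p
  simp only [Pi.smul_apply, smul_eq_mul]
  unfold qf cof
  rw [Finset.mul_sum]
  refine Finset.sum_congr rfl fun i _ => ?_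
  rw [qf_smul]
  ring

omit [IsManifold 𝓘(ℂ, C2) ω X] in
theorem ex_pt (h : QD D44.dd (D44.ZZ c) ρ) (x : X) : ∃ w ∈ D44.ZZ c, ρ w = x := by
  obtain ⟨l, hl⟩ := h.ex x
  exact ⟨l x, hl.2.self_of_nhds.1, hl.2.self_of_nhds.2⟩

theorem fin_crit (hc : Quart c) (h : QD D44.dd (D44.ZZ c) ρ)
    (hr : ∀ w ∈ D44.ZZ c, Rep (w 2, w 3) (π (ρ w))) : {x | ¬ Reg π x}.Finite := by
  obtain ⟨T, hT, hT'⟩ := hc.fin
  refine (hT.image fun v => ρ ![v.1.1, v.1.2, 1, v.2, 0]).subset ?_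
  intro x hx
  obtain ⟨w, hw, rfl⟩ := ex_pt h x
  have hx' : ¬ Reg π (ρ w) := hx
  rw [dbl_reg hc h hr hw] at hx'
  push Not at hx'
  obtain ⟨v, hv, s, t, hs, ht⟩ := hT' (w 0, w 1) (w 2, w 3) hw.1 hw.2.1 hx'.2
  have hs0 : s ≠ 0 := by
    rintro rfl
    exact hw.1 (by rw [hs, zero_smul])
  have ht0 : t ≠ 0 := by
    rintro rfl
    exact hw.2.1 (by rw [ht, zero_smul])
  have e0 : w 0 = s * v.1.1 := congrArg Prod.fst hs
  have e1 : w 1 = s * v.1.2 := congrArg Prod.snd hs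
  have e2 : w 2 = t * 1 := congrArg Prod.fst ht
  have e3 : w 3 = t * v.2 := congrArg Prod.snd ht
  have hb : bi c w = s ^ 4 * t ^ 4 * bi c ![v.1.1, v.1.2, 1, v.2, 0] :=
    D44.bi_scale c e0 e1 e2 e3
  have hw' : (![v.1.1, v.1.2, 1, v.2, 0] : Fin 5 → ℂ) ∈ D44.ZZ c := by
    refine ⟨?_, ?_, ?_⟩
    · intro h0
      have h0' : v.1 = 0 := h0
      exact hw.1 (by rw [hs, h0', smul_zero])
    · intro h0
      exact one_ne_zero (congrArg Prod.fst h0)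
    · have h1 : bi c w = 0 := by
        rw [← hw.2.2, hx'.1]
        simp
      rw [h1] at hb
      have h2 := (mul_eq_zero.1 hb.symm).resolve_left
        (mul_ne_zero (pow_ne_zero 4 hs0) (pow_ne_zero 4 ht0))
      rw [h2]
      simp
  refine ⟨v, hv, (h.fib _ hw' w hw).2 ⟨![s, t], ?_, ?_⟩⟩
  · intro k
    fin_cases k
    exacts [hs0, ht0]
  · refine D44.vec_ext ?_ ?_ ?_ ?_ ?_
    · rw [D44.tact0]
      exact e0
    · rw [D44.tact1]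
      exact e1
    · rw [D44.tact2]
      exact e2
    · rw [D44.tact3]
      exact e3
    · rw [D44.tact4, hx'.1]
      simp

end XEll

theorem dbl_ell [T2Space X] [CompactSpace X] (hc : Quart c) (h : QD D44.dd (D44.ZZ c) ρ) :
    ∃ (σ : Form2 X) (π : X → P1) (S : X × (ℂ × ℂ) × ℂ → X) (h : Ell σ π S),
      (∀ q : ℂ × ℂ, q ≠ 0 → ∀ L : PeriodPair, L.g₂ = inv2 (cof c q) → L.g₃ = inv3 (cof c q) →
        (Per h.spr q : Set ℂ) = L.lattice) ∧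
      ∀ q : ℂ × ℂ, (∀ r : ℂ × ℂ, r ≠ 0 → fderiv ℂ (qf (cof c q)) r ≠ 0) →
        ∀ x, Rep q (π x) → Reg π x := by
  obtain ⟨σ, hσ, hf⟩ := dbl_sympl hc h
  obtain ⟨π, hπ, hp⟩ := h.pencil (D44.pen23 c)
  have hr : ∀ w ∈ D44.ZZ c, Rep (w 2, w 3) (π (ρ w)) := fun w hw => (hp w hw).1 hw.2.1
  obtain ⟨S, hS⟩ := exists_spray hσ hπ
  have hE : Ell σ π S := by
    refine ⟨hσ, hπ, hS, XEll.fin_crit hc h hr, fun a => ?_, fun x y p hx hy hx' hy' => ?_⟩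
    · obtain ⟨x₀, Y, hY⟩ := dbl_wfun hc h hσ hf hS hr (rep_rep a).ne
      exact ⟨x₀, hY.rep.inj (rep_rep a), hY.reg⟩
    · obtain ⟨x₀, Y, hY⟩ := dbl_wfun hc h hσ hf hS hr hx.ne
      obtain ⟨t₁, h₁⟩ := hY.orbit hσ hπ hS hx hx'
      obtain ⟨t₂, h₂⟩ := hY.orbit hσ hπ hS hy hy'
      refine ⟨t₁ + -t₂, ?_⟩
      rw [← hS.add x p t₁ (-t₂) hx, h₁, ← h₂, hS.add y p t₂ (-t₂) hy, add_neg_cancel,
        hS.zero y p hy]
  refine ⟨σ, π, S, hE, fun q hq L h2 h3 => ?_, fun q hq x hx => ?_⟩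
  · obtain ⟨x₀, Y, hY⟩ := dbl_wfun hc h hσ hf hS hr hq
    rw [← h2, ← h3] at hY
    exact hY.per hE
  · obtain ⟨w, hw, rfl⟩ := XEll.ex_pt h x
    rw [dbl_reg hc h hr hw]
    right
    obtain ⟨t, ht, e⟩ := hx.ratio (hr w hw)
    rw [e, XEll.qf_cof_smul, fderiv_const_smul_field, Pi.smul_apply]
    exact smul_ne_zero (pow_ne_zero 4 ht) (hq _ hw.1)

end Vale.Agent.P290
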