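import Vale.Agent.P290G.XSym

/-! The Weierstrass function on a fibre of a double cover. -/

open Set Filter Metric Polynomial
open scoped Manifold ContDiff Topology

noncomputable section

namespace Vale.Agent.P290

variable {X : Type} [TopologicalSpace X] [ChartedSpace C2 X] [IsManifold 𝓘(ℂ, C2) ω X]
  {σ : Form2 X} {π : X → P1} {S : X × (ℂ × ℂ) × ℂ → X} {c : Fin 5 → Fin 5 → ℂ}
  {ρ : (Fin 5 → ℂ) → X}

namespace XFun

open D44

theorem ham (hS : Spray σ π S) (hr : ∀ w ∈ ZZ c, Rep (w 2, w 3) (π (ρ w))) {x : X}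
    {l : X → Fin 5 → ℂ} (hl : Sec (ZZ c) ρ l x) (v : C2) :
    sg σ x (tv S x (l x 2, l x 3)) v = cr (pp 2 3) (l x) (dfn l x v) := by
  obtain ⟨γ, hγ, rfl, rfl⟩ := exists_curve x v
  have hp := hl.liftAt (an_pp 2 3) (fun w hw _ => hr w hw) hl.2.self_of_nhds.1.2.1
  have h1 := hS.ham γ (fun s => pp 2 3 (l (γ s))) hγ
    (HolF.comp (y := fun y => pp 2 3 (l y)) hp.1 hγ)
    (hγ.cont.eventually hp.2)
  rw [hp.wr hγ, dfn_post hl.1 (an_pp 2 3 _ trivial)] at h1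
  exact h1

theorem tact_mem {w : Fin 5 → ℂ} (hw : w ∈ ZZ c) {s : Fin 2 → ℂ} (hs : ∀ k, s k ≠ 0) :
    tact dd s w ∈ ZZ c := by
  refine ⟨?_, ?_, ?_⟩
  · rw [tact0, tact1]
    exact smul_ne_zero (hs 0) hw.1
  · rw [tact2, tact3]
    exact smul_ne_zero (hs 1) hw.2.1
  · rw [bi_scale c (tact0 s w) (tact1 s w) (tact2 s w) (tact3 s w), tact4, ← hw.2.2]
    ring

theorem ne2 {s t : ℂ} (hs : s ≠ 0) (ht : t ≠ 0) (k : Fin 2) : (![s, t] : Fin 2 → ℂ) k ≠ 0 := by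
  fin_cases k
  exacts [hs, ht]

theorem norm_sec (h : QD dd (ZZ c) ρ) (hr : ∀ w ∈ ZZ c, Rep (w 2, w 3) (π (ρ w))) {x : X}
    {q : ℂ × ℂ} (hx : Rep q (π x)) : ∃ l, Sec (ZZ c) ρ l x ∧ (l x 2, l x 3) = q := by
  obtain ⟨l, hl⟩ := h.ex x
  have h1 := hr _ hl.2.self_of_nhds.1
  rw [hl.2.self_of_nhds.2] at h1
  obtain ⟨t, ht, e⟩ := h1.ratio hx
  have hs := ne2 one_ne_zero ht
  refine ⟨fun y => tact dd ![1, t] (l y), ⟨hl.1.post (g := tact dd ![1, t]) ?_, ?_⟩, ?_⟩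
  · exact AnalyticAt.pi fun i => analyticAt_const.mul (an_co i _)
  · filter_upwards [hl.2] with y hy
    exact ⟨tact_mem hy.1 hs, ((h.fib _ hy.1 _ (tact_mem hy.1 hs)).2 ⟨_, hs, rfl⟩).symm.trans hy.2⟩
  · rw [e]
    exact Prod.ext (tact2 _ _) (tact3 _ _)

/-- first frame coordinate -/
def al (v p : ℂ × ℂ) : ℂ := p.1 * v.2 - p.2 * v.1

/-- second frame coordinate -/
def be (r p : ℂ × ℂ) : ℂ := r.1 * p.2 - r.2 * p.1

/-- the affine function of the ratio -/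
def gg (r v : ℂ × ℂ) (A B : ℂ) (p : ℂ × ℂ) : ℂ := A * (al v p / be r p) + B

variable {r v : ℂ × ℂ} {A B : ℂ}

theorem frame (h : r.1 * v.2 - r.2 * v.1 = 1) (p : ℂ × ℂ) : p = al v p • r + be r p • v := by
  refine Prod.ext ?_ ?_
  · simp only [al, be, Prod.fst_add, Prod.smul_fst, smul_eq_mul]
    linear_combination (-p.1) * h
  · simp only [al, be, Prod.snd_add, Prod.smul_snd, smul_eq_mul]
    linear_combination (-p.2) * h

theorem al_smul (t : ℂ) (p : ℂ × ℂ) : al v (t • p) = t * al v p := by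
  simp only [al, Prod.smul_fst, Prod.smul_snd, smul_eq_mul]
  ring

theorem be_smul (t : ℂ) (p : ℂ × ℂ) : be r (t • p) = t * be r p := by
  simp only [be, Prod.smul_fst, Prod.smul_snd, smul_eq_mul]
  ring

theorem gg_rep {p : ℂ × ℂ} {a : P1} (h : Rep p a) : gg r v A B a.rep = gg r v A B p := by
  obtain ⟨t, ht, e⟩ := h.ratio (rep_rep a)
  rw [e, gg, gg, al_smul, be_smul, mul_div_mul_left _ _ ht]

theorem an_al (w : Fin 5 → ℂ) : AnalyticAt ℂ (fun w => al v (pp 0 1 w)) w :=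
  ((an_co 0 w).mul analyticAt_const).sub ((an_co 1 w).mul analyticAt_const)

theorem an_be (w : Fin 5 → ℂ) : AnalyticAt ℂ (fun w => be r (pp 0 1 w)) w :=
  (analyticAt_const.mul (an_co 1 w)).sub (analyticAt_const.mul (an_co 0 w))

theorem an_gg {w : Fin 5 → ℂ} (hw : be r (pp 0 1 w) ≠ 0) :
    AnalyticAt ℂ (fun w => gg r v A B (pp 0 1 w)) w :=
  (analyticAt_const.mul ((an_al w).fun_div (an_be w) hw)).add analyticAt_const

theorem d_gg (h : r.1 * v.2 - r.2 * v.1 = 1) {w : Fin 5 → ℂ} (hw : be r (pp 0 1 w) ≠ 0)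
    (ξ : Fin 5 → ℂ) : fderiv ℂ (fun w => gg r v A B (pp 0 1 w)) w ξ =
      -(A * cr (pp 0 1) w ξ / be r (pp 0 1 w) ^ 2) := by
  have h1 := (an_gg (v := v) (A := A) (B := B) hw).differentiableAt.hasFDerivAt.hasLineDerivAt ξ
  have k : ∀ i, HasDerivAt (fun t : ℂ => (w + t • ξ) i) (ξ i) 0 := fun i => by
    simpa using ((hasDerivAt_id (0 : ℂ)).mul_const (ξ i)).const_add (w i)
  have h2 := (((((k 0).mul_const v.2).sub ((k 1).mul_const v.1)).div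
    (((k 1).const_mul r.1).sub ((k 0).const_mul r.2)) (by simpa [be, pp] using hw)).const_mul
    A).add_const B
  rw [HasDerivAt.unique h1 h2, cr_pp]
  simp only [zero_smul, add_zero, Pi.sub_apply, be, pp]
  linear_combination (-(A * (w 0 * ξ 1 - w 1 * ξ 0) / (r.1 * w 1 - r.2 * w 0) ^ 2)) * h

theorem cubic {b : Fin 5 → ℂ} (h4 : b 4 = 0) {x y k : ℂ} (hy : y ≠ 0) (hk : k ^ 2 = qf b (x, y)) :
    (-(b 3 / 4 * k / y ^ 2)) ^ 2 = 4 * (b 3 / 4 * (x / y) + b 2 / 12) ^ 3 -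
      inv2 b * (b 3 / 4 * (x / y) + b 2 / 12) - inv3 b := by
  have e : qf b (x, y) = b 0 * y ^ 4 + b 1 * x * y ^ 3 + b 2 * x ^ 2 * y ^ 2 + b 3 * x ^ 3 * y := by
    simp [qf, Fin.sum_univ_five, h4, mul_assoc]
  rw [neg_sq, div_pow, mul_pow, hk, e, inv2, inv3, h4]
  field_simp
  ring

end XFun

/-- The flow equation. -/
theorem dbl_flow (hσ : IsSympl σ) (hf : DblForm c ρ σ) (hS : Spray σ π S)
    (hr : ∀ w ∈ D44.ZZ c, Rep (w 2, w 3) (π (ρ w))) {x : X} {l : X → Fin 5 → ℂ}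
    (hl : Sec (D44.ZZ c) ρ l x) (hx : Reg π x) :
    cr (D44.pp 0 1) (l x) (dfn l x (tv S x (l x 2, l x 3))) ^ 2 = l x 4 ^ 2 := by
  obtain ⟨p, v, hp, hm⟩ := hx
  have hp' := hl.liftAt (D44.an_pp 2 3) (fun w hw _ => hr w hw) hl.2.self_of_nhds.1.2.1
  have h1 := (hl.moves_iff (D44.an_pp 2 3) v).1 ((hp.moves_iff hp' v).1 hm)
  have h2 := hf x l hl (tv S x (l x 2, l x 3)) v
  rw [XFun.ham hS hr hl v, ← XFun.ham hS hr hl (tv S x (l x 2, l x 3)), sg_alt hσ, mul_zero,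
    sub_zero, mul_pow, mul_pow] at h2
  exact (mul_right_cancel₀ (pow_ne_zero 2 h1) h2).symm

open D44 XFun in
theorem dbl_wfun (hc : Quart c) (h : QD D44.dd (D44.ZZ c) ρ) (hσ : IsSympl σ)
    (hf : DblForm c ρ σ) (hS : Spray σ π S) (hr : ∀ w ∈ D44.ZZ c, Rep (w 2, w 3) (π (ρ w)))
    {q : ℂ × ℂ} (hq : q ≠ 0) :
    ∃ x₀ Y, WFun π S q (inv2 (cof c q)) (inv3 (cof c q)) x₀ Y := by
  obtain ⟨r, hr0, hr1⟩ := hc.simple q hq
  have hrn : r ≠ 0 := by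
    rintro rfl
    exact hr1 (ContinuousLinearMap.ext fun u => by simp [qf_fderiv])
  obtain ⟨v, hv⟩ := exists_frame hrn
  obtain ⟨M, hM⟩ := qf_frame hv
  obtain ⟨m1, m2, m3, m4, m5⟩ := hM (cof c q)
  rw [hr0] at m4
  have b3 : M (cof c q) 3 ≠ 0 := fun e => hr1 (ContinuousLinearMap.ext fun u => by
    rw [frame hv u, map_add, map_smul, map_smul, qf_euler, hr0, ← m5, e]
    simp)
  obtain ⟨π₁, -, hπ₁⟩ := h.pencil (pen01 c)
  have hw₀ : (![r.1, r.2, q.1, q.2, 0] : Fin 5 → ℂ) ∈ ZZ c := by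
    refine ⟨hrn, hq, ?_⟩
    rw [bi_eq]
    simpa using hr0.symm
  have hsw : sw ![r.1, r.2, q.1, q.2, 0] = ![r.1, r.2, q.1, q.2, 0] :=
    vec_ext (sw0 _) (sw1 _) (sw2 _) (sw3 _) (by rw [sw4]; simp)
  have hbe : ∀ w ∈ ZZ c, Rep q (π (ρ w)) → ρ w ≠ ρ ![r.1, r.2, q.1, q.2, 0] →
      be r (pp 0 1 w) ≠ 0 := fun w hw h1 h2 e => by
    obtain ⟨t, ht, et⟩ := h1.ratio (hr w hw)
    have es := frame hv (pp 0 1 w)
    rw [e, zero_smul, add_zero] at es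
    have hs : al v (pp 0 1 w) ≠ 0 := fun e' => hw.1 (by
      rw [e', zero_smul] at es
      exact es)
    have := two hw₀ hw es et
    rw [hsw, or_self] at this
    exact h2 ((h.fib _ hw₀ _ hw).2 ⟨_, ne2 hs ht, this⟩).symm
  have hY : ∀ x l, Sec (ZZ c) ρ l x →
      (fun y => gg r v (M (cof c q) 3 / 4) (M (cof c q) 2 / 12) (π₁ y).rep) =ᶠ[𝓝 x]
        fun y => gg r v (M (cof c q) 3 / 4) (M (cof c q) 2 / 12) (pp 0 1 (l y)) := by
    intro x l hl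
    filter_upwards [hl.2] with y hy
    have := (hπ₁ _ hy.1).1 hy.1.1
    rw [hy.2] at this
    exact gg_rep this
  have hY0 : ∀ x l, Sec (ZZ c) ρ l x →
      gg r v (M (cof c q) 3 / 4) (M (cof c q) 2 / 12) (π₁ x).rep =
        gg r v (M (cof c q) 3 / 4) (M (cof c q) 2 / 12) (pp 0 1 (l x)) :=
    fun x l hl => (hY x l hl).self_of_nhds
  have b4 : M (cof c q) 3 / 4 ≠ 0 := div_ne_zero b3 (by norm_num)
  have hbe' : ∀ x l, Sec (ZZ c) ρ l x → Rep q (π x) → x ≠ ρ ![r.1, r.2, q.1, q.2, 0] →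
      be r (pp 0 1 (l x)) ≠ 0 := fun x l hl h1 h2 => by
    obtain ⟨k1, k2⟩ := hl.2.self_of_nhds
    exact hbe _ k1 (by rwa [k2]) (by rwa [k2])
  refine ⟨ρ ![r.1, r.2, q.1, q.2, 0],
    fun y => gg r v (M (cof c q) 3 / 4) (M (cof c q) 2 / 12) (π₁ y).rep, hr _ hw₀,
    (dbl_reg hc h hr hw₀).2 (Or.inr hr1), fun x h1 h2 => ?_, ?_, fun x h1 h2 h3 => ?_,
    fun y => ?_⟩
  · obtain ⟨l, hl⟩ := h.ex x
    exact (hl.1.post (an_gg (hbe' x l hl h1 h2))).congr_of_eventuallyEq (hY x l hl)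
  · obtain ⟨l, hl⟩ := h.ex (ρ ![r.1, r.2, q.1, q.2, 0])
    obtain ⟨k1, k2⟩ := hl.2.self_of_nhds
    obtain ⟨s, hs, es⟩ := (h.fib _ hw₀ _ k1).1 k2.symm
    have e0 : pp 0 1 (l (ρ ![r.1, r.2, q.1, q.2, 0])) = s 0 • r := by
      rw [es]
      exact Prod.ext (tact0 _ _) (tact1 _ _)
    have e1 : al v r = 1 := hv
    have e2 : be r r = 0 := by
      rw [be, mul_comm, sub_self]
    have t1 := (hl.1.post (an_al (v := v) _)).continuousAt.tendsto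
    have t2 := (hl.1.post (an_be (r := r) _)).continuousAt.tendsto
    rw [e0, al_smul, e1, mul_one] at t1
    rw [e0, be_smul, e2, mul_zero] at t2
    have t3 := ((t1.const_mul (M (cof c q) 3 / 4)).add (t2.const_mul (M (cof c q) 2 / 12))).norm
    rw [mul_zero, add_zero] at t3
    have ev : ∀ᶠ y in 𝓝[{x | Rep q (π x) ∧ x ≠ ρ ![r.1, r.2, q.1, q.2, 0]}]
        (ρ ![r.1, r.2, q.1, q.2, 0]), be r (pp 0 1 (l y)) ≠ 0 := by
      filter_upwards [mem_nhdsWithin_of_mem_nhds hl.ev, self_mem_nhdsWithin] with y k3 k4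
      exact hbe' y l k3 k4.1 k4.2
    have t4 : Tendsto (fun y => ‖be r (pp 0 1 (l y))‖)
        (𝓝[{x | Rep q (π x) ∧ x ≠ ρ ![r.1, r.2, q.1, q.2, 0]}] (ρ ![r.1, r.2, q.1, q.2, 0]))
        (𝓝[>] 0) :=
      tendsto_nhdsWithin_iff.2 ⟨by simpa using t2.norm.mono_left nhdsWithin_le_nhds,
        ev.mono fun y hy => norm_pos_iff.2 hy⟩
    have t5 := (t3.mono_left nhdsWithin_le_nhds).pos_mul_atTop
      (norm_pos_iff.2 (mul_ne_zero b4 (hs 0)))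
      (tendsto_inv_nhdsGT_zero.comp t4)
    refine t5.congr' ?_
    filter_upwards [mem_nhdsWithin_of_mem_nhds (hY _ l hl), ev] with y k3 k4
    rw [k3, Function.comp_apply, ← norm_inv, ← norm_mul, gg]
    congr 1
    field_simp
  · obtain ⟨l, hl, e⟩ := norm_sec h hr h1
    have k1 := hbe' x l hl h1 h3
    have k2 := dbl_flow hσ hf hS hr hl h2
    rw [e, hl.2.self_of_nhds.1.2.2, bi_eq, e] at k2
    rw [dfn_congr (hY x l hl), dfn_post hl.1 (an_gg k1), d_gg hv k1, hY0 x l hl,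
      ← m2, ← m3]
    refine cubic m4 k1 ?_
    rw [k2, ← m1, ← frame hv]
    rfl
  · rcases Set.eq_empty_or_nonempty {x | Rep q (π x) ∧ x ≠ ρ ![r.1, r.2, q.1, q.2, 0] ∧
      gg r v (M (cof c q) 3 / 4) (M (cof c q) 2 / 12) (π₁ x).rep = y} with e | ⟨x, h1, h2, h3⟩
    · rw [e]
      exact finite_empty
    obtain ⟨l, hl, e⟩ := norm_sec h hr h1
    refine (Set.toFinite {ρ (l x), ρ (sw (l x))}).subset fun x' hx' => ?_
    obtain ⟨l', hl', e'⟩ := norm_sec h hr hx'.1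
    obtain ⟨k1, -⟩ := hl.2.self_of_nhds
    obtain ⟨k2, k3⟩ := hl'.2.self_of_nhds
    have n1 := hbe' x l hl h1 h2
    have n2 := hbe' x' l' hl' hx'.1 hx'.2.1
    have n3 := hx'.2.2.trans h3.symm
    rw [hY0 x l hl, hY0 x' l' hl', gg, gg, add_left_inj,
      mul_right_inj' b4, div_eq_div_iff n2 n1] at n3
    have es : pp 0 1 (l' x') = (be r (pp 0 1 (l' x')) / be r (pp 0 1 (l x))) • pp 0 1 (l x) := by
      rw [frame hv (_ • pp 0 1 (l x)), al_smul, be_smul, div_mul_cancel₀ _ n1, div_mul_eq_mul_div,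
        mul_comm, mul_comm _ (be r (pp 0 1 (l' x'))), mul_comm (be r (pp 0 1 (l' x'))), ← n3,
        mul_div_cancel_right₀ _ n1]
      exact frame hv _
    have et : pp 2 3 (l' x') = (1 : ℂ) • pp 2 3 (l x) := by
      rw [one_smul]
      exact e'.trans e.symm
    have hst := ne2 (div_ne_zero n2 n1) one_ne_zero
    rw [← k3]
    rcases two k1 k2 es et with k | k
    · exact Or.inl ((h.fib _ k1 _ k2).2 ⟨_, hst, k⟩).symm
    · exact Or.inr ((h.fib _ (sw_mem k1) _ k2).2 ⟨_, hst, k⟩).symm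

end Vale.Agent.P290
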