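import Vale.Agent.P290G.Defs

/-! Surfaces glued from smooth hypersurfaces. -/

open Set Filter Metric Polynomial
open scoped Manifold ContDiff Topology

noncomputable section

namespace Vale.Agent.P290

namespace XMfd

theorem exists_proj {L : (Fin 3 → ℂ) →L[ℂ] ℂ} (hL : L ≠ 0) :
    ∃ (P : (Fin 3 → ℂ) →L[ℂ] C2) (e : (Fin 3 → ℂ) ≃L[ℂ] ℂ × C2),
      (e : (Fin 3 → ℂ) →L[ℂ] ℂ × C2) = L.prod P := by
  obtain ⟨i, hi⟩ : ∃ i, L (Pi.single i 1) ≠ 0 := by
    by_contra h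
    push Not at h
    apply hL
    refine ContinuousLinearMap.ext fun v => ?_
    rw [← Finset.univ_sum_single v, map_sum]
    refine Finset.sum_eq_zero fun i _ => ?_
    have : (Pi.single i (v i) : Fin 3 → ℂ) = v i • (Pi.single i 1 : Fin 3 → ℂ) := by
      rw [← Pi.single_smul, smul_eq_mul, mul_one]
    rw [this, map_smul, h, smul_zero]
  let P : (Fin 3 → ℂ) →L[ℂ] C2 :=
    (PiLp.continuousLinearEquiv 2 ℂ (fun _ : Fin 2 => ℂ)).symm.toContinuousLinearMap ∘L
      ContinuousLinearMap.pi fun m => ContinuousLinearMap.proj (i.succAbove m)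
  have hP : ∀ v m, P v m = v (i.succAbove m) := fun v m => rfl
  have hinj : Function.Injective ((L.prod P : (Fin 3 → ℂ) →L[ℂ] ℂ × C2) : (Fin 3 → ℂ) →ₗ[ℂ] ℂ × C2) := by
    rw [injective_iff_map_eq_zero]
    intro v hv
    have h1 : L v = 0 := congrArg Prod.fst hv
    have h2 : P v = 0 := congrArg Prod.snd hv
    have h3 : v = v i • (Pi.single i 1 : Fin 3 → ℂ) := by
      funext m
      rcases Fin.eq_self_or_eq_succAbove i m with rfl | ⟨m, rfl⟩
      · simp
      · rw [← hP v m, h2]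
        simp [Fin.succAbove_ne]
    rw [h3, map_smul, smul_eq_mul] at h1
    rw [h3, (mul_eq_zero.1 h1).resolve_right hi, zero_smul]
  refine ⟨P, (LinearMap.linearEquivOfInjective _ hinj (by simp)).toContinuousLinearEquiv, ?_⟩
  exact ContinuousLinearMap.ext fun v => rfl

theorem exists_loc {F : (Fin 3 → ℂ) → ℂ} {w : Fin 3 → ℂ} (hF : AnalyticAt ℂ F w)
    (hd : fderiv ℂ F w ≠ 0) :
    ∃ (P : (Fin 3 → ℂ) →L[ℂ] C2) (e : OpenPartialHomeomorph (Fin 3 → ℂ) (ℂ × C2)),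
      w ∈ e.source ∧ (∀ u, e u = (F u, P u)) ∧ ∀ q ∈ e.target, AnalyticAt ℂ e.symm q := by
  obtain ⟨P, A, hA⟩ := exists_proj hd
  have h1 : ContDiffAt ℂ ω (fun u => (F u, P u)) w := (hF.prod (P.analyticAt w)).contDiffAt
  have h2 : HasFDerivAt (fun u => (F u, P u)) (A : (Fin 3 → ℂ) →L[ℂ] ℂ × C2) w := by
    rw [hA]
    exact hF.differentiableAt.hasFDerivAt.prodMk P.hasFDerivAt
  let e := h1.toOpenPartialHomeomorph _ h2 Mfd.ne0
  have h3 : AnalyticAt ℂ e.symm (e w) := (h1.to_localInverse h2 Mfd.ne0).analyticAt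
  have h4 : w ∈ e.source := h1.mem_toOpenPartialHomeomorph_source h2 Mfd.ne0
  refine ⟨P, (e.symm.restrOpen {q | AnalyticAt ℂ e.symm q} (isOpen_analyticAt ℂ _)).symm,
    ⟨h4, h3⟩, fun u => rfl, fun q hq => hq.2⟩

variable {X J : Type} [TopologicalSpace X]

/-- The charts of the atlas. -/
def Good (U : J → Set X) (l : J → X → Fin 3 → ℂ) (c : OpenPartialHomeomorph X C2) : Prop :=
  (∃ (j : J) (P : (Fin 3 → ℂ) →L[ℂ] C2), c.source ⊆ U j ∧ ∀ y, c y = P (l j y)) ∧
    ∀ q ∈ c.target, ∀ i, c.symm q ∈ U i → AnalyticAt ℂ (fun q => l i (c.symm q)) q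

theorem exists_chart (U : J → Set X)
    (l : J → X → Fin 3 → ℂ) (F : J → (Fin 3 → ℂ) → ℂ) (k : J → (Fin 3 → ℂ) → X)
    (hU : ∀ j, IsOpen (U j)) (cov : ∀ x, ∃ j, x ∈ U j) (hF : ∀ j, AnalyticOnNhd ℂ (F j) univ)
    (hl : ∀ j, ContinuousOn (l j) (U j)) (hz : ∀ j, ∀ x ∈ U j, F j (l j x) = 0 ∧ k j (l j x) = x)
    (hk : ∀ j, ContinuousOn (k j) {w | F j w = 0})
    (hk' : ∀ j w, F j w = 0 → k j w ∈ U j ∧ l j (k j w) = w)
    (hd : ∀ j w, F j w = 0 → fderiv ℂ (F j) w ≠ 0)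
    (tr : ∀ i j, ∀ x ∈ U i ∩ U j, ∃ T : (Fin 3 → ℂ) → Fin 3 → ℂ, AnalyticAt ℂ T (l i x) ∧
      ∀ᶠ y in 𝓝 x, l j y = T (l i y)) (x : X) :
    ∃ c : OpenPartialHomeomorph X C2, x ∈ c.source ∧ Good U l c := by
  obtain ⟨j, hj⟩ := cov x
  obtain ⟨P, e, hw, he, ha⟩ := exists_loc (hF j (l j x) trivial) (hd j _ (hz j x hj).1)
  have h0 : ∀ q : C2, ((0 : ℂ), q) ∈ e.target →
      F j (e.symm (0, q)) = 0 ∧ P (e.symm (0, q)) = q := fun q hq => by
    have h := e.right_inv hq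
    rw [he] at h
    exact ⟨congrArg Prod.fst h, congrArg Prod.snd h⟩
  have h1 : ∀ y ∈ U j, e (l j y) = (0, P (l j y)) := fun y hy => by rw [he, (hz j y hy).1]
  have hin : Continuous fun q : C2 => (((0 : ℂ), q) : ℂ × C2) := by fun_prop
  let c : OpenPartialHomeomorph X C2 :=
    { toFun := fun y => P (l j y)
      invFun := fun q => k j (e.symm (0, q))
      source := U j ∩ l j ⁻¹' e.source
      target := {q | ((0 : ℂ), q) ∈ e.target}
      map_source' := fun y hy => by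
        change _ ∈ e.target
        rw [← h1 y hy.1]
        exact e.map_source hy.2
      map_target' := fun q hq => by
        obtain ⟨a, b⟩ := hk' j _ (h0 q hq).1
        refine ⟨a, ?_⟩
        change l j _ ∈ e.source
        rw [b]
        exact e.map_target hq
      left_inv' := fun y hy => by
        rw [← h1 y hy.1, e.left_inv hy.2]
        exact (hz j y hy.1).2
      right_inv' := fun q hq => by
        rw [(hk' j _ (h0 q hq).1).2]
        exact (h0 q hq).2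
      open_source := (hl j).isOpen_inter_preimage (hU j) e.open_source
      open_target := e.open_target.preimage hin
      continuousOn_toFun := P.continuous.comp_continuousOn ((hl j).mono inter_subset_left)
      continuousOn_invFun := (hk j).comp (e.continuousOn_symm.comp hin.continuousOn fun q hq => hq)
        fun q hq => (h0 q hq).1 }
  refine ⟨c, ⟨hj, hw⟩, ⟨j, P, inter_subset_left, fun y => rfl⟩, fun q hq i hi => ?_⟩
  have hn := c.open_target.mem_nhds hq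
  have e1 : (fun q => l j (c.symm q)) =ᶠ[𝓝 q] fun q => e.symm (0, q) :=
    mem_of_superset hn fun q' hq' => (hk' j _ (h0 q' hq').1).2
  have a1 : AnalyticAt ℂ (fun q => l j (c.symm q)) q :=
    (AnalyticAt.comp (f := fun q : C2 => (((0 : ℂ), q) : ℂ × C2)) (ha _ hq)
      (analyticAt_const.prod analyticAt_id)).congr e1.symm
  obtain ⟨T, hT, hT'⟩ := tr j i (c.symm q) ⟨(c.map_target hq).1, hi⟩
  refine (AnalyticAt.comp (f := fun q => l j (c.symm q)) hT a1).congr ?_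
  filter_upwards [(c.continuousAt_symm hq).eventually hT'] with q' h
  exact h.symm

end XMfd

theorem exists_surface {X J : Type} [TopologicalSpace X] (U : J → Set X)
    (l : J → X → Fin 3 → ℂ) (F : J → (Fin 3 → ℂ) → ℂ) (k : J → (Fin 3 → ℂ) → X)
    (hU : ∀ j, IsOpen (U j)) (cov : ∀ x, ∃ j, x ∈ U j) (hF : ∀ j, AnalyticOnNhd ℂ (F j) univ)
    (hl : ∀ j, ContinuousOn (l j) (U j)) (hz : ∀ j, ∀ x ∈ U j, F j (l j x) = 0 ∧ k j (l j x) = x)
    (hk : ∀ j, ContinuousOn (k j) {w | F j w = 0})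
    (hk' : ∀ j w, F j w = 0 → k j w ∈ U j ∧ l j (k j w) = w)
    (hd : ∀ j w, F j w = 0 → fderiv ℂ (F j) w ≠ 0)
    (tr : ∀ i j, ∀ x ∈ U i ∩ U j, ∃ T : (Fin 3 → ℂ) → Fin 3 → ℂ, AnalyticAt ℂ T (l i x) ∧
      ∀ᶠ y in 𝓝 x, l j y = T (l i y)) :
    ∃ _ : ChartedSpace C2 X, IsManifold 𝓘(ℂ, C2) ω X ∧
      ∀ j, ∀ x ∈ U j, HolF (l j) x ∧ Function.Injective (dfn (l j) x) := by
  choose ch hs hg using XMfd.exists_chart U l F k hU cov hF hl hz hk hk' hd tr
  letI : ChartedSpace C2 X :=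
    { atlas := {c | XMfd.Good U l c}
      chartAt := ch
      mem_chart_source := hs
      chart_mem_atlas := hg }
  have hM : IsManifold 𝓘(ℂ, C2) ω X := by
    refine isManifold_of_contDiffOn _ _ _ fun e e' he he' q hq => ?_
    obtain ⟨⟨j, P, hj, hP⟩, -⟩ := (he' : XMfd.Good U l e')
    have hq1 : q ∈ e.target := hq.1.1
    have hq2 : e.symm q ∈ e'.source := hq.1.2
    have a1 := (P.analyticAt _).comp (f := fun q => l j (e.symm q))
      ((he : XMfd.Good U l e).2 q hq1 j (hj hq2))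
    have e1 : (𝓘(ℂ, C2) ∘ e.symm ≫ₕ e' ∘ 𝓘(ℂ, C2).symm) = P ∘ fun q => l j (e.symm q) :=
      funext fun q => hP _
    rw [e1]
    exact a1.contDiffAt.contDiffWithinAt
  refine ⟨inferInstance, hM, fun j x hx => ?_⟩
  have hx0 := mem_chart_source C2 x
  have hc : XMfd.Good U l (chartAt C2 x) := hg x
  have hH : HolF (l j) x := by
    have a1 := hc.2 _ ((chartAt C2 x).map_source hx0) j (by rwa [(chartAt C2 x).left_inv hx0])
    refine ((Mfd.chart x hx0).post a1).congr_of_eventuallyEq ?_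
    filter_upwards [(chartAt C2 x).open_source.mem_nhds hx0] with y hy
    rw [(chartAt C2 x).left_inv hy]
  refine ⟨hH, ?_⟩
  obtain ⟨⟨i, P, hi, hP⟩, -⟩ := hc
  obtain ⟨T, hT, hT'⟩ := tr j i x ⟨hx, hi hx0⟩
  have a2 : AnalyticAt ℂ (fun u => P (T u)) (l j x) := (P.analyticAt _).comp hT
  have e2 : (chartAt C2 x : X → C2) =ᶠ[𝓝 x] fun y => P (T (l j y)) := by
    filter_upwards [hT'] with y hy
    rw [hP, hy]
  have inj : Function.Injective (dfn (chartAt C2 x) x) :=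
    (mdifferentiable_chart (I := 𝓘(ℂ, C2)) x).mfderiv_injective hx0
  intro u v huv
  apply inj
  rw [dfn_congr e2, dfn_post (g := fun u => P (T u)) hH a2, dfn_post (g := fun u => P (T u)) hH a2,
    huv]

end Vale.Agent.P290
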