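import Vale.Agent.P290G.QInv
import Vale.Agent.P290G.EInv

/-! The two-form of a double cover. -/

open Set Filter Metric Polynomial
open scoped Manifold ContDiff Topology

noncomputable section

namespace Vale.Agent.P290

namespace XSym

section Gen

variable {X : Type} [TopologicalSpace X] [ChartedSpace C2 X] [IsManifold 𝓘(ℂ, C2) ω X]
  {ι κ η : Type} [Fintype ι] [Fintype κ] [Fintype η] [DecidableEq ι] [DecidableEq κ]
  [DecidableEq η] {d : κ → ι → ℕ} {Z : Set (ι → ℂ)} {ρ : (ι → ℂ) → X}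

open QSym in
theorem sympl (h : QD d Z ρ) {f : (ι → ℂ) → η → ℂ} {e : κ → η → ℕ} (hf : Eqs d Z f e)
    (ε : ι ≃ κ ⊕ Fin 2 ⊕ η) :
    ∃ σ : Form2 X, IsSympl σ ∧ ∀ x l, Sec Z ρ l x → ∀ u v n, sg σ x u v * dt f (l x) n =
      det3 ε (ov d (l x)) (dfn l x u) (dfn l x v) n := by
  choose l hl using h.ex
  choose n hn using fun x r => hf.surj _ (hl x).2.self_of_nhds.1 (Pi.single r 1)
  have h1 : ∀ x, dt f (l x x) (n x) = 1 := fun x => by
    rw [dt, ← Matrix.det_one (n := η)]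
    congr 1
    ext r s
    simp [hn, Matrix.one_apply, Pi.single_apply, eq_comm]
  let σ : X → C2 →ₗ[ℂ] C2 →ₗ[ℂ] ℂ := fun x => fm ε (ov d (l x x)) (dfn (l x) x) (n x)
  have h2 : ∀ x u v, σ x u v = det3 ε (ov d (l x x)) (dfn (l x) x u) (dfn (l x) x v) (n x) :=
    fun _ _ _ => rfl
  refine ⟨σ, ⟨fun x u => ?_, fun x h0 => ?_, fun x₀ u v q₀ hq => ?_⟩, fun x l' hl' u v n' => ?_⟩
  · exact (h2 x u u).trans (self_eq_neg.1 (det3_swap ε _ _ _ _))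
  · refine QSym.ne h hf ε (hl x) (by rw [h1]; exact one_ne_zero) ?_
    have h3 : σ x = 0 := h0
    rw [← h2, h3]
    rfl
  · obtain ⟨x, hx⟩ : ∃ x, x = (chartAt C2 x₀).symm q₀ := ⟨_, rfl⟩
    have s0 := hol_symm x₀ hq
    have s1 : Sec Z ρ (l x) ((chartAt C2 x₀).symm q₀) := hx ▸ hl x
    have a1 := s1.1.comp s0
    have a2 : AnalyticAt ℂ (fun q => dt f (l x ((chartAt C2 x₀).symm q)) (n x)) q₀ :=
      det_analytic (analyticAt_pi_iff.2 fun r =>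
        ((ContinuousLinearMap.apply ℂ (η → ℂ) (n x r)).analyticAt _).comp
          ((hf.an _ (mem_univ _)).fderiv.comp a1))
    have a3 : ∀ w : C2, AnalyticAt ℂ
        (fun q => fderiv ℂ (fun q => l x ((chartAt C2 x₀).symm q)) q w) q₀ := fun w =>
      ((ContinuousLinearMap.apply ℂ (ι → ℂ) w).analyticAt _).comp a1.fderiv
    have a4 : AnalyticAt ℂ (fun q => ov d (l x ((chartAt C2 x₀).symm q))) q₀ :=
      analyticAt_pi_iff.2 fun k => analyticAt_pi_iff.2 fun i =>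
        analyticAt_const.mul (analyticAt_pi_iff.1 a1 i)
    have a5 : dt f (l x ((chartAt C2 x₀).symm q₀)) (n x) ≠ 0 := by
      rw [← hx, h1]; exact one_ne_zero
    refine ((det3_analytic ε a4 (a3 u) (a3 v) (n x)).div a2 a5).congr ?_
    filter_upwards [s0.ev, s0.cont.eventually s1.ev, a2.continuousAt.eventually_ne a5]
      with q k1 k2 k3
    have k4 := key h hf ε (hl _) k2 (dif (chartAt C2 x₀).symm q u) (dif (chartAt C2 x₀).symm q v)
      (n ((chartAt C2 x₀).symm q)) (n x)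
    rw [h1, mul_one, ← h2, ← dfn_comp k2.1 k1, ← dfn_comp k2.1 k1] at k4
    exact (div_eq_iff k3).2 k4.symm
  · have k4 := key h hf ε (hl x) hl' u v (n x) n'
    rw [h1, mul_one, ← h2] at k4
    exact k4

omit [IsManifold 𝓘(ℂ, C2) ω X] in
theorem two_smul {σ : Form2 X} (h : IsSympl σ) : IsSympl (fun x => (2 : ℂ) • σ x) where
  alt := fun x u => by
    change (2 : ℂ) • σ x u u = 0
    rw [h.alt, smul_zero]
  ne := fun x => smul_ne_zero two_ne_zero (h.ne x)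
  hol := fun x₀ u v q hq => analyticAt_const.mul (h.hol x₀ u v q hq)

end Gen

/-- An explicit ordering of the rows. -/
def eps : Fin 5 ≃ Fin 2 ⊕ Fin 2 ⊕ Fin 1 where
  toFun := ![.inl 0, .inl 1, .inr (.inl 0), .inr (.inl 1), .inr (.inr 0)]
  invFun := Sum.elim ![0, 1] (Sum.elim ![2, 3] ![4])
  left_inv := by decide
  right_inv := by decide

theorem det_eps (w u v : Fin 5 → ℂ) :
    det3 eps (QSym.ov D44.dd w) u v (fun _ => Pi.single 4 1) ^ 2 =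
      ((w 0 * u 1 - w 1 * u 0) * (w 2 * v 3 - w 3 * v 2) -
        (w 0 * v 1 - w 1 * v 0) * (w 2 * u 3 - w 3 * u 2)) ^ 2 := by
  have e : (Matrix.of fun i => Sum.elim (QSym.ov D44.dd w)
      (Sum.elim ![u, v] (fun _ : Fin 1 => (Pi.single 4 1 : Fin 5 → ℂ))) (eps i)) =
      !![w 0, w 1, 0, 0, 2 * w 4; 0, 0, w 2, w 3, 2 * w 4; u 0, u 1, u 2, u 3, u 4;
        v 0, v 1, v 2, v 3, v 4; 0, 0, 0, 0, 1] := by
    ext i j
    fin_cases i <;> fin_cases j <;> simp [eps, QSym.ov, D44.dd]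
  unfold det3
  rw [e]
  simp [Matrix.det_succ_row_zero, Fin.sum_univ_succ, Fin.succAbove]
  ring

variable {X : Type} [TopologicalSpace X] [ChartedSpace C2 X] [IsManifold 𝓘(ℂ, C2) ω X]
  {c : Fin 5 → Fin 5 → ℂ} {ρ : (Fin 5 → ℂ) → X}

theorem tact_mem {w : Fin 5 → ℂ} (hw : w ∈ D44.ZZ c) {s : Fin 2 → ℂ} (hs : ∀ k, s k ≠ 0) :
    tact D44.dd s w ∈ D44.ZZ c := by
  refine ⟨?_, ?_, ?_⟩
  · rw [D44.tact0, D44.tact1]
    exact smul_ne_zero (hs 0) hw.1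
  · rw [D44.tact2, D44.tact3]
    exact smul_ne_zero (hs 1) hw.2.1
  · rw [D44.bi_scale c (D44.tact0 s w) (D44.tact1 s w) (D44.tact2 s w) (D44.tact3 s w),
      D44.tact4, ← hw.2.2]
    ring

theorem sec_at (h : QD D44.dd (D44.ZZ c) ρ) {w : Fin 5 → ℂ} (hw : w ∈ D44.ZZ c) :
    ∃ l, Sec (D44.ZZ c) ρ l (ρ w) ∧ l (ρ w) = w := by
  obtain ⟨l, hl⟩ := h.ex (ρ w)
  obtain ⟨k1, k2⟩ := hl.2.self_of_nhds
  obtain ⟨s, hs, e⟩ := (h.fib _ k1 w hw).1 k2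
  refine ⟨fun y => tact D44.dd s (l y), ⟨hl.1.post (g := tact D44.dd s) ?_, ?_⟩, e.symm⟩
  · exact analyticAt_pi_iff.2 fun i => analyticAt_const.mul (D44.an_co i _)
  · filter_upwards [hl.2] with y hy
    refine ⟨tact_mem hy.1 hs, ?_⟩
    rw [← (h.fib _ hy.1 _ (tact_mem hy.1 hs)).2 ⟨s, hs, rfl⟩, hy.2]

theorem lin2 (φ : ℂ × ℂ →L[ℂ] ℂ) (a b : ℂ) : φ (a, b) = a * φ (1, 0) + b * φ (0, 1) := by
  have e : ((a, b) : ℂ × ℂ) = a • (1, 0) + b • (0, 1) := by simp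
  rw [e, map_add, map_smul, map_smul, smul_eq_mul, smul_eq_mul]

theorem cross {A B p₀ p₁ a b : ℂ} (h : A ≠ 0 ∨ B ≠ 0) (h1 : p₀ * A + p₁ * B = 0)
    (h2 : a * A + b * B = 0) : p₀ * b - p₁ * a = 0 := by
  rcases h with h | h
  · refine (mul_eq_zero.1 ?_).resolve_left h
    linear_combination b * h1 - p₁ * h2
  · refine (mul_eq_zero.1 ?_).resolve_left h
    linear_combination p₀ * h2 - a * h1

theorem qf_zero (p : ℂ × ℂ) : qf (fun _ => 0) p = 0 := by simp [qf]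

theorem lin5 (φ : (Fin 5 → ℂ) →L[ℂ] ℂ) (ξ : Fin 5 → ℂ) :
    φ ξ = ξ 0 * φ (Pi.single 0 1) + ξ 1 * φ (Pi.single 1 1) + ξ 2 * φ (Pi.single 2 1) +
      ξ 3 * φ (Pi.single 3 1) + ξ 4 * φ (Pi.single 4 1) := by
  conv_lhs => rw [pi_eq_sum_univ' ξ]
  simp only [Fin.sum_univ_five, map_add, map_smul, smul_eq_mul]

theorem bi01 (c : Fin 5 → Fin 5 → ℂ) (w ξ : Fin 5 → ℂ) (h2 : ξ 2 = 0) (h3 : ξ 3 = 0) :
    fderiv ℂ (bi c) w ξ = fderiv ℂ (qf (cof c (w 2, w 3))) (w 0, w 1) (ξ 0, ξ 1) := by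
  rw [bi_fderiv, h2, h3]
  have e : (fun i => fderiv ℂ (qf (c i)) (w 2, w 3) ((0 : ℂ), (0 : ℂ))) = fun _ => 0 :=
    funext fun i => map_zero _
  rw [e, qf_zero, add_zero]

theorem fwd (hc : Quart c) {w ξ : Fin 5 → ℂ} (hw : w ∈ D44.ZZ c) (h4 : w 4 = 0)
    (hp : fderiv ℂ (qf (cof c (w 2, w 3))) (w 0, w 1) = 0)
    (hξ : fderiv ℂ (D44.ff c) w ξ = 0) : cr (D44.pp 2 3) w ξ = 0 := by
  have hb : bi c w = 0 := by
    rw [← hw.2.2, h4]
    simp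
  have hs := hc.smooth w hw.1 hw.2.1 hb
  have e0 : fderiv ℂ (bi c) w (Pi.single 0 1) = 0 := by
    rw [bi01 c w _ (by simp) (by simp), hp]
    rfl
  have e1 : fderiv ℂ (bi c) w (Pi.single 1 1) = 0 := by
    rw [bi01 c w _ (by simp) (by simp), hp]
    rfl
  have e4 := D44.dbi4 c w
  have key : ∀ ζ, fderiv ℂ (D44.ff c) w ζ = 0 →
      ζ 2 * fderiv ℂ (bi c) w (Pi.single 2 1) + ζ 3 * fderiv ℂ (bi c) w (Pi.single 3 1) = 0 :=
    fun ζ hζ => by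
      have k := congrFun hζ 0
      rw [D44.dff, lin5, e0, e1, e4, h4, Pi.zero_apply] at k
      linear_combination -k
  have k1 := key _ ((D44.eqs c hc.smooth).euler hw ![0, 1])
  rw [D44.orb2, D44.orb3] at k1
  simp only [Matrix.cons_val_one, Matrix.cons_val_fin_one, one_mul] at k1
  rw [D44.cr_pp]
  refine cross ?_ k1 (key ξ hξ)
  by_contra hn
  push Not at hn
  refine hs (ContinuousLinearMap.ext fun ζ => ?_)
  rw [lin5, e0, e1, e4, hn.1, hn.2]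
  simp

theorem bwd (hc : Quart c) {w : Fin 5 → ℂ} (hw : w ∈ D44.ZZ c)
    (h : w 4 ≠ 0 ∨ fderiv ℂ (qf (cof c (w 2, w 3))) (w 0, w 1) ≠ 0)
    (L : C2 →L[ℂ] (Fin 5 → ℂ)) (hL : ∀ v, fderiv ℂ (D44.ff c) w (L v) = 0)
    (e' : ∀ v, cr (D44.pp 2 3) w (L v) = 0) : ∃ v s, v ≠ 0 ∧ L v = orb D44.dd s w := by
  obtain ⟨a, b, hab⟩ := D44.ratio (D44.ex01 hw.1)
  obtain ⟨a', b', hab'⟩ := D44.ratio (D44.ex23 hw.2.1)
  have hE := D44.eqs c hc.smooth
  by_cases h4 : w 4 = 0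
  · have hp := h.resolve_left fun k => k h4
    refine D44.ker hw.1 hw.2.1 L (fun v => ?_) e'
    have e2 := hab' _ _ ((D44.cr_pp 2 3 w (L v)).symm.trans (e' v))
    have k : fderiv ℂ (D44.ff c) w (L v - orb D44.dd ![0, a' * L v 2 + b' * L v 3] w) = 0 := by
      rw [map_sub, hL, hE.euler hw, sub_zero]
    have k1 := congrFun k 0
    rw [D44.dff, h4, bi01 c w _ (by rw [Pi.sub_apply, D44.orb2, sub_eq_zero]; exact e2.1)
      (by rw [Pi.sub_apply, D44.orb3, sub_eq_zero]; exact e2.2), Pi.sub_apply, Pi.sub_apply,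
      Pi.sub_apply, D44.orb0, D44.orb1, lin2, Pi.zero_apply] at k1
    have k2 := qf_euler (cof c (w 2, w 3)) (w 0, w 1)
    rw [← bi_eq, ← hw.2.2, h4, lin2] at k2
    rw [D44.cr_pp]
    refine cross (A := fderiv ℂ (qf (cof c (w 2, w 3))) (w 0, w 1) (1, 0))
      (B := fderiv ℂ (qf (cof c (w 2, w 3))) (w 0, w 1) (0, 1)) ?_ (by rw [k2]; simp) ?_
    · by_contra hn
      push Not at hn
      refine hp (ContinuousLinearMap.ext fun ζ => ?_)
      obtain ⟨z₁, z₂⟩ := ζ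
      rw [lin2, hn.1, hn.2]
      simp
    · simp only [Matrix.cons_val_zero, zero_mul, sub_zero, mul_zero, zero_sub, neg_eq_zero] at k1
      exact k1
  · let T : (Fin 5 → ℂ) →ₗ[ℂ] ℂ :=
      { toFun := fun ξ => w 0 * ξ 1 - w 1 * ξ 0
        map_add' := fun x y => by
          simp only [Pi.add_apply]
          ring
        map_smul' := fun t x => by
          simp only [Pi.smul_apply, smul_eq_mul, RingHom.id_apply]
          ring }
    have hk : LinearMap.ker (T ∘ₗ (L : C2 →ₗ[ℂ] (Fin 5 → ℂ))) ≠ ⊥ := by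
      apply LinearMap.ker_ne_bot_of_finrank_lt
      simp
    obtain ⟨v, hv, hv0⟩ := Submodule.exists_mem_ne_zero_of_ne_bot hk
    have hT : w 0 * L v 1 - w 1 * L v 0 = 0 := hv
    have e1 := hab _ _ hT
    have e2 := hab' _ _ ((D44.cr_pp 2 3 w (L v)).symm.trans (e' v))
    obtain ⟨s, hs⟩ : ∃ s : Fin 2 → ℂ, s = ![a * L v 0 + b * L v 1, a' * L v 2 + b' * L v 3] :=
      ⟨_, rfl⟩
    have g0 : L v 0 = orb D44.dd s w 0 := by rw [D44.orb0, hs]; exact e1.1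
    have g1 : L v 1 = orb D44.dd s w 1 := by rw [D44.orb1, hs]; exact e1.2
    have g2 : L v 2 = orb D44.dd s w 2 := by rw [D44.orb2, hs]; exact e2.1
    have g3 : L v 3 = orb D44.dd s w 3 := by rw [D44.orb3, hs]; exact e2.2
    refine ⟨v, s, hv0, D44.vec_ext g0 g1 g2 g3 ?_⟩
    have k : fderiv ℂ (D44.ff c) w (L v - orb D44.dd s w) = 0 := by
      rw [map_sub, hL, hE.euler hw, sub_zero]
    have k1 := congrFun k 0
    rw [D44.dff, lin5, D44.dbi4, Pi.sub_apply, Pi.sub_apply, Pi.sub_apply, Pi.sub_apply,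
      Pi.sub_apply, ← g0, ← g1, ← g2, ← g3, Pi.zero_apply] at k1
    refine sub_eq_zero.1 ((mul_eq_zero.1 ?_).resolve_left (mul_ne_zero two_ne_zero h4))
    linear_combination k1

end XSym

variable {X : Type} [TopologicalSpace X] [ChartedSpace C2 X] [IsManifold 𝓘(ℂ, C2) ω X]
  {σ : Form2 X} {π : X → P1} {S : X × (ℂ × ℂ) × ℂ → X} {c : Fin 5 → Fin 5 → ℂ}
  {ρ : (Fin 5 → ℂ) → X}

/-- The normalisation of the two-form. -/
def DblForm (c : Fin 5 → Fin 5 → ℂ) (ρ : (Fin 5 → ℂ) → X) (σ : Form2 X) : Prop :=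
  ∀ x l, Sec (D44.ZZ c) ρ l x → ∀ u v, (l x 4 * sg σ x u v) ^ 2 =
    (cr (D44.pp 0 1) (l x) (dfn l x u) * cr (D44.pp 2 3) (l x) (dfn l x v) -
      cr (D44.pp 0 1) (l x) (dfn l x v) * cr (D44.pp 2 3) (l x) (dfn l x u)) ^ 2

theorem dbl_sympl (hc : Quart c) (h : QD D44.dd (D44.ZZ c) ρ) :
    ∃ σ : Form2 X, IsSympl σ ∧ DblForm c ρ σ := by
  obtain ⟨σ, hσ, hk⟩ := XSym.sympl h (D44.eqs c hc.smooth) XSym.eps
  refine ⟨fun x => (2 : ℂ) • σ x, XSym.two_smul hσ, fun x l hl u v => ?_⟩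
  have k := hk x l hl u v fun _ => Pi.single 4 1
  have e : QSym.dt (D44.ff c) (l x) (fun _ => Pi.single 4 1) = 2 * l x 4 := by
    rw [QSym.dt, Matrix.det_unique, Matrix.of_apply, D44.dff, D44.dbi4]
    simp
  rw [D44.cr_pp, D44.cr_pp, D44.cr_pp, D44.cr_pp, ← XSym.det_eps, ← k, e]
  change (l x 4 * (2 * sg σ x u v)) ^ 2 = _
  ring

theorem dbl_reg (hc : Quart c) (h : QD D44.dd (D44.ZZ c) ρ)
    (hr : ∀ w ∈ D44.ZZ c, Rep (w 2, w 3) (π (ρ w))) {w : Fin 5 → ℂ} (hw : w ∈ D44.ZZ c) :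
    Reg π (ρ w) ↔ w 4 ≠ 0 ∨ fderiv ℂ (qf (cof c (w 2, w 3))) (w 0, w 1) ≠ 0 := by
  obtain ⟨l, hl, e⟩ := XSym.sec_at h hw
  have h0 : D44.pp 2 3 (l (ρ w)) ≠ 0 := by
    rw [e]
    exact hw.2.1
  have hL := hl.liftAt (π := π) (D44.an_pp 2 3) (fun w hw _ => hr w hw) h0
  have hT := (D44.eqs c hc.smooth).tangent hl
  rw [e] at hT
  constructor
  · rintro ⟨p, v, hp, hv⟩
    have k := (hl.moves_iff (D44.an_pp 2 3) v).1 ((hp.moves_iff hL v).1 hv)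
    rw [e] at k
    by_contra hn
    push Not at hn
    exact k (XSym.fwd hc hw hn.1 hn.2 (hT v))
  · intro hn
    by_contra hR
    have e' : ∀ v, cr (D44.pp 2 3) w (dfn l (ρ w) v) = 0 := fun v => by
      by_contra hv
      refine hR ⟨_, v, hL, (hl.moves_iff (D44.an_pp 2 3) v).2 ?_⟩
      rwa [e]
    obtain ⟨v, s, hv, hs⟩ := XSym.bwd hc hw hn (dfn l (ρ w)) hT e'
    refine hv (h.imm _ l hl v s ?_)
    rwa [e]

end Vale.Agent.P290
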